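import Vale.Agent.P065.H353.Guard

/-!
# P065, package BOOK: the guard lemma for the auxiliary law (helper353)

`q` is a law on pairs (column, flag) with density at most `c / nT` with respect to a law `ν` on
flags, a column is a pair (`k`, offset `i < nT`), every line has at most `N` active `k`. The
ambiguity of the boxes of a line given the time cells has total entropy at most
`c N (4 / 2 ^ γ) H_ν (D T | D 0, line)`.
-/

set_option autoImplicit false

open Finset Real

noncomputable section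

namespace Vale.Agent.P065.H353

open Vale.Agent.P065.Ent

variable {Ω : Type*} [Fintype Ω] {α β δ L η : Type*}

/-- surprise of `X` given `Z` under `ν` -/
def srp (ν : Ω → ℝ) (X : Ω → α) (Z : Ω → β) (ω : Ω) : ℝ :=
  - log (Pr ν (fun ω => (X ω, Z ω)) (X ω, Z ω) / Pr ν Z (Z ω))

lemma srp_nonneg {ν : Ω → ℝ} (hν : IsProb ν) (X : Ω → α) (Z : Ω → β) (ω : Ω) :
    0 ≤ srp ν X Z ω := by
  unfold srp
  have h1 : Pr ν (fun ω => (X ω, Z ω)) (X ω, Z ω) / Pr ν Z (Z ω) ≤ 1 :=
    div_le_one_of_le₀ (Pr_mono hν (det_snd X Z) ω) (Pr_nonneg hν _ _)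
  have h2 := log_nonpos (div_nonneg (Pr_nonneg hν _ _) (Pr_nonneg hν _ _)) h1
  linarith

/-- probabilities under the law conditioned on an event determined by the variable -/
lemma Pr_cE_of_det {ν : Ω → ℝ} (G : Ω → Prop) (V : Ω → α) (hV : Det V G) {ω : Ω} (h : G ω) :
    Pr (cE ν G) V (V ω) = Pr ν V (V ω) / PE ν G := by
  classical
  unfold cE
  rw [Pr_cnd]
  congr 1
  unfold Pr
  refine sum_congr rfl fun ω' _ => ?_
  by_cases h2 : V ω' = V ω
  · have h3 : G ω' = G ω := hV _ _ h2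
    have h4 : G ω' = True := by rw [h3]; exact eq_true h
    rw [if_pos h2, if_pos (Prod.ext h2 h4)]
  · rw [if_neg h2, if_neg fun h3 => h2 (Prod.mk.inj h3).1]

open Classical in
/-- the surprise restricted to an event which is determined by `Z` -/
lemma sum_act {ν : Ω → ℝ} (hν : IsProb ν) (X : Ω → α) (Z : Ω → β) (G : Ω → Prop)
    (hG : Det Z G) :
    ∑ ω, (if G ω then ν ω * srp ν X Z ω else 0) = PE ν G * Hc (cE ν G) X Z := by
  rcases (Pr_nonneg hν G True).eq_or_lt with h0 | h0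
  · have h1 : PE ν G = 0 := h0.symm
    rw [h1, zero_mul]
    refine sum_eq_zero fun ω _ => ?_
    split_ifs with h
    · have h2 := le_Pr hν G ω
      have h3 : G ω = True := eq_true h
      rw [h3] at h2
      have h4 : ν ω = 0 := le_antisymm (h2.trans h0.symm.le) (hν.nonneg ω)
      rw [h4, zero_mul]
    · rfl
  · have hc : IsProb (cE ν G) := cnd_isProb hν h0
    have hne : PE ν G ≠ 0 := h0.ne'
    rw [Hc_eq_sum hc, mul_sum]
    refine sum_congr rfl fun ω _ => ?_
    by_cases h : G ω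
    · rw [if_pos h]
      have e1 : cE ν G ω = ν ω / PE ν G := by
        unfold cE cnd
        rw [if_pos (eq_true h)]
      rw [e1, Pr_cE_of_det G (fun ω => (X ω, Z ω)) ((det_snd X Z).trans hG) h,
        Pr_cE_of_det G Z hG h, div_div_div_cancel_right₀ hne]
      unfold srp
      field_simp
    · rw [if_neg h]
      have e1 : cE ν G ω = 0 := by
        unfold cE cnd
        rw [if_neg]
        intro h2
        exact h (of_eq_true h2)
      rw [e1]; simp

/-- cross entropy bound: for a law `q` on pairs (column, flag), conditional entropy given the column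
is at most the mean surprise under any law `ν` on flags -/
lemma Hc_le_srp {κ : Type*} [Fintype κ] {q : κ × Ω → ℝ} (hq : IsProb q) {ν : Ω → ℝ}
    (hν : IsProb ν) (hac : ∀ p, 0 < q p → 0 < ν p.2) (X : κ → Ω → α) (Z : κ → Ω → β) :
    Hc q (fun p => X p.1 p.2) (fun p => (Z p.1 p.2, p.1)) ≤
      ∑ p, q p * srp ν (X p.1) (Z p.1) p.2 := by
  classical
  refine (gibbs hq (fun p => X p.1 p.2) (fun p => (Z p.1 p.2, p.1))
    (fun y x => Pr ν (fun ω => (X y.2 ω, Z y.2 ω)) (x, y.1) / Pr ν (Z y.2) y.1) ?_ ?_ ?_)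
  · intro p hp
    exact div_pos (Pr_pos hν (fun ω => (X p.1 ω, Z p.1 ω)) (hac p hp)) (Pr_pos hν (Z p.1) (hac p hp))
  · intro p x _
    exact div_nonneg (Pr_nonneg hν _ _) (Pr_nonneg hν _ _)
  · intro p
    simp only
    rw [← sum_div]
    have h1 : ∑ x ∈ univ.image (fun p : κ × Ω => X p.1 p.2),
        Pr ν (fun ω => (X p.1 ω, Z p.1 ω)) (x, Z p.1 p.2) ≤ Pr ν (Z p.1) (Z p.1 p.2) := by
      rw [← sum_Pr_pair ν (X p.1) (Z p.1) (Z p.1 p.2)]
      refine le_of_eq ?_
      symm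
      refine sum_subset ?_ ?_
      · intro x hx
        obtain ⟨ω, -, rfl⟩ := mem_image.1 hx
        exact mem_image.2 ⟨(p.1, ω), mem_univ _, rfl⟩
      · intro x _ hx
        refine Pr_eq_zero _ fun ω h => hx ?_
        rw [← (Prod.mk.inj h).1]
        exact mem_image_of_mem _ (mem_univ ω)
    exact div_le_one_of_le₀ h1 (Pr_nonneg hν _ _)

open Classical in
/-- mean surprise under a law with density at most `c` and at most `N` active columns per line,
for a surprise which does not depend on the column -/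
lemma sum_act_le {κ' : Type*} [Fintype κ'] {ν : Ω → ℝ} (hν : IsProb ν) (X : Ω → α) (Z : Ω → β)
    (G : κ' → Ω → Prop) (hG : ∀ k, Det Z (G k)) {N : ℕ}
    (hN : ∀ ω, 0 < ν ω → #{k | G k ω} ≤ N) :
    ∑ k, PE ν (G k) * Hc (cE ν (G k)) X Z ≤ N * Hc ν X Z := by
  have h1 : ∀ k, PE ν (G k) * Hc (cE ν (G k)) X Z =
      ∑ ω, (if G k ω then ν ω * srp ν X Z ω else 0) := fun k => (sum_act hν X Z (G k) (hG k)).symm
  simp only [h1]
  rw [sum_comm]
  have h2 : Hc ν X Z = ∑ ω, ν ω * srp ν X Z ω := Hc_eq_sum hν X Z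
  rw [h2, mul_sum]
  refine sum_le_sum fun ω _ => ?_
  rw [← sum_filter, sum_const, nsmul_eq_mul]
  rcases (hν.nonneg ω).eq_or_lt with h0 | h0
  · rw [← h0]; simp
  · refine mul_le_mul_of_nonneg_right ?_ (mul_nonneg h0.le (srp_nonneg hν X Z ω))
    exact_mod_cast hN ω h0

/-- **the guard lemma** -/
theorem guard {κ' : Type*} [Fintype κ'] {nT : ℕ} {ν : Ω → ℝ} (hν : IsProb ν)
    {q : (κ' × Fin nT) × Ω → ℝ} (hq : IsProb q) {c : ℝ} (hc : 0 ≤ c)
    (hle : ∀ p, q p ≤ c / nT * ν p.2) (ln : Ω → L) (Act : κ' → L → Prop)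
    (hact : ∀ p, 0 < q p → Act p.1.1 (ln p.2)) {N : ℕ}
    (hN : ∀ ω, 0 < ν ω → Nat.card {k // Act k (ln ω)} ≤ N)
    (D : ℕ → Ω → δ) (hD : ∀ t, Det (D (t + 1)) (D t)) {T γ υ : ℕ} (hυ : 0 < υ)
    (M c₀ : κ' → ℕ) (hTM : ∀ k, T ≤ M k) (hM : ∀ k, c₀ k * (υ * 2 ^ (M k + γ)) = nT)
    (b : κ' → Ω → ℝ)
    (hb : ∀ k t, t < T → ∀ ω ω', ln ω = ln ω' → D t ω = D t ω' →
      b k ω' - b k ω ≤ υ * 2 ^ (M k - t))
    (hbT : ∀ k ω ω', ln ω = ln ω' → D T ω = D T ω' → b k ω = b k ω')
    (R : ℕ → (κ' × Fin nT) × Ω → β)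
    (hR : ∀ t, t < T → ∀ (k : κ' × Fin nT) ω ω', ln ω = ln ω' → D (t + 1) ω = D (t + 1) ω' →
      R t (k, ω) = R t (k, ω') →
      ⌊(b k.1 ω + (k.2 : ℕ)) / (υ * 2 ^ (M k.1 + γ - (t + 1)))⌋ =
        ⌊(b k.1 ω' + (k.2 : ℕ)) / (υ * 2 ^ (M k.1 + γ - (t + 1)))⌋ →
      R (t + 1) (k, ω) = R (t + 1) (k, ω'))
    (Y : (κ' × Fin nT) × Ω → η) (hY : Det Y (fun p => (ln p.2, p.1))) :
    ∑ t ∈ range T, Hc q (R (t + 1)) (fun p => ((D (t + 1) p.2, R t p), Y p)) ≤
      c * N * (4 / 2 ^ γ) * Hc ν (D T) (fun ω => (D 0 ω, ln ω)) := by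
  classical
  have hac : ∀ p, 0 < q p → 0 < ν p.2 := by
    intro p hp
    have h1 := hp.trans_le (hle p)
    have h2 : 0 ≤ c / nT := by positivity
    by_contra hcon
    have h3 := mul_nonpos_of_nonneg_of_nonpos h2 (not_lt.1 hcon)
    linarith
  -- the row of step `t + 1`
  set F : ℕ → (κ' × Fin nT) → Ω → ℤ := fun t k ω =>
    ⌊(b k.1 ω + (k.2 : ℕ)) / (υ * 2 ^ (M k.1 + γ - (t + 1)))⌋ with hF
  set Z : ℕ → Ω → δ × L := fun t ω => (D t ω, ln ω) with hZ
  have hZd : ∀ t, Det (Z (t + 1)) (Z t) := fun t =>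
    ((det_fst _ _).trans (hD t)).pair (det_snd _ _)
  -- step 1: entropy of the box is at most the mean surprise of the row
  have h1 : ∀ t ∈ range T, Hc q (R (t + 1)) (fun p => ((D (t + 1) p.2, R t p), Y p)) ≤
      ∑ p, q p * srp ν (F t p.1) (Z (t + 1)) p.2 := by
    intro t ht
    have ht' := mem_range.1 ht
    have e1 : Hc q (R (t + 1)) (fun p => ((D (t + 1) p.2, R t p), Y p)) ≤
        Hc q (R (t + 1)) (fun p => ((D (t + 1) p.2, R t p), (ln p.2, p.1))) :=
      Hc_anti hq _ ((det_fst _ _).pair ((det_snd _ _).trans hY))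
    have e2 : Hc q (R (t + 1)) (fun p => ((D (t + 1) p.2, R t p), (ln p.2, p.1))) ≤
        Hc q (fun p => F t p.1 p.2) (fun p => ((D (t + 1) p.2, R t p), (ln p.2, p.1))) := by
      have e3 := Hc_le_add hq (R (t + 1)) (fun p => F t p.1 p.2)
        (fun p => ((D (t + 1) p.2, R t p), (ln p.2, p.1)))
      have e4 : Hc q (R (t + 1)) (fun p => (F t p.1 p.2,
          ((D (t + 1) p.2, R t p), (ln p.2, p.1)))) = 0 := by
        refine Hc_eq_zero ?_
        rintro ⟨k, ω⟩ ⟨k', ω'⟩ h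
        simp only [Prod.mk.injEq] at h
        obtain ⟨f1, ⟨f2, f3⟩, f4, f5⟩ := h
        subst f5
        exact hR t ht' k ω ω' f4 f2 f3 f1
      rw [e4, zero_add] at e3
      exact e3
    have e3 : Hc q (fun p => F t p.1 p.2) (fun p => ((D (t + 1) p.2, R t p), (ln p.2, p.1))) ≤
        Hc q (fun p => F t p.1 p.2) (fun p => (Z (t + 1) p.2, p.1)) := by
      refine Hc_anti hq _ ?_
      intro p p' h
      simp only [Prod.mk.injEq] at h
      obtain ⟨⟨f2, f3⟩, f4, f5⟩ := h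
      simp only [hZ, f2, f4, f5]
    refine e1.trans (e2.trans (e3.trans ?_))
    exact Hc_le_srp hq hν hac (F t) (fun _ => Z (t + 1))
  -- step 2: density
  have h2 : ∀ p, q p * ∑ t ∈ range T, srp ν (F t p.1) (Z (t + 1)) p.2 ≤
      if Act p.1.1 (ln p.2) then c / nT *
        (ν p.2 * ∑ t ∈ range T, srp ν (F t p.1) (Z (t + 1)) p.2) else 0 := by
    intro p
    have hs : 0 ≤ ∑ t ∈ range T, srp ν (F t p.1) (Z (t + 1)) p.2 :=
      sum_nonneg fun t _ => srp_nonneg hν _ _ _
    by_cases h : Act p.1.1 (ln p.2)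
    · rw [if_pos h, ← mul_assoc]
      exact mul_le_mul_of_nonneg_right (hle p) hs
    · rw [if_neg h]
      have h3 : q p = 0 := by
        by_contra hne
        exact h (hact p (lt_of_le_of_ne (hq.nonneg p) (Ne.symm hne)))
      rw [h3, zero_mul]
  have h3 : ∑ t ∈ range T, Hc q (R (t + 1)) (fun p => ((D (t + 1) p.2, R t p), Y p)) ≤
      ∑ p : (κ' × Fin nT) × Ω, (if Act p.1.1 (ln p.2) then c / nT *
        (ν p.2 * ∑ t ∈ range T, srp ν (F t p.1) (Z (t + 1)) p.2) else 0) := by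
    refine (sum_le_sum h1).trans ?_
    rw [sum_comm]
    refine sum_le_sum fun p _ => ?_
    rw [← mul_sum]
    exact h2 p
  refine h3.trans ?_
  -- step 3: one `k`
  have hG : ∀ t k, Det (Z t) (fun ω => Act k (ln ω)) := fun t k ω ω' h => by
    have : ln ω = ln ω' := (Prod.mk.inj h).2
    simp only [this]
  have h4 : ∀ k : κ', ∑ i : Fin nT, ∑ ω, (if Act k (ln ω) then c / nT *
        (ν ω * ∑ t ∈ range T, srp ν (F t (k, i)) (Z (t + 1)) ω) else 0) ≤
      c * (4 / 2 ^ γ) * (PE ν (fun ω => Act k (ln ω)) *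
        Hc (cE ν (fun ω => Act k (ln ω))) (D T) (fun ω => (D 0 ω, ln ω))) := by
    intro k
    have e1 : ∀ i : Fin nT, ∑ ω, (if Act k (ln ω) then c / nT *
        (ν ω * ∑ t ∈ range T, srp ν (F t (k, i)) (Z (t + 1)) ω) else 0) =
        c / nT * (PE ν (fun ω => Act k (ln ω)) * ∑ t ∈ range T,
          Hc (cE ν (fun ω => Act k (ln ω))) (F t (k, i)) (Z (t + 1))) := by
      intro i
      have f1 : ∀ t, PE ν (fun ω => Act k (ln ω)) *
          Hc (cE ν (fun ω => Act k (ln ω))) (F t (k, i)) (Z (t + 1)) =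
          ∑ ω, (if Act k (ln ω) then ν ω * srp ν (F t (k, i)) (Z (t + 1)) ω else 0) := fun t =>
        (sum_act hν _ _ _ (hG (t + 1) k)).symm
      rw [mul_sum]
      simp only [f1]
      rw [sum_comm, mul_sum]
      refine sum_congr rfl fun ω _ => ?_
      split_ifs
      · rw [mul_sum]
      · simp
    simp only [e1]
    rw [← mul_sum, ← mul_sum]
    rcases (Pr_nonneg hν (fun ω => Act k (ln ω)) True).eq_or_lt with h0 | h0
    · have h5 : PE ν (fun ω => Act k (ln ω)) = 0 := h0.symm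
      rw [h5]; simp
    · have hcE := cnd_isProb hν h0
      have e2 := guard_line (μ := cE ν (fun ω => Act k (ln ω))) hcE Z hZd (γ := γ) (c₀ := c₀ k)
        (hTM k) hυ (b k)
        (fun t ht ω ω' h => hb k t ht ω ω' (Prod.mk.inj h).2 (Prod.mk.inj h).1)
        (fun ω ω' h => hbT k ω ω' (Prod.mk.inj h).2 (Prod.mk.inj h).1)
      rw [hM k] at e2
      have e3 : ∑ i : Fin nT, ∑ t ∈ range T,
          Hc (cE ν (fun ω => Act k (ln ω))) (F t (k, i)) (Z (t + 1)) =
          ∑ t ∈ range T, ∑ i ∈ range nT, Hc (cE ν (fun ω => Act k (ln ω)))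
            (fun ω => ⌊(b k ω + (i : ℝ)) / (υ * 2 ^ (M k + γ - (t + 1)))⌋) (Z (t + 1)) := by
        rw [sum_comm]
        refine sum_congr rfl fun t _ => ?_
        exact (Finset.sum_range (fun i => Hc (cE ν (fun ω => Act k (ln ω)))
            (fun ω => ⌊(b k ω + (i : ℝ)) / (υ * 2 ^ (M k + γ - (t + 1)))⌋) (Z (t + 1)))).symm
      rw [← e3] at e2
      have e4 : Hc (cE ν (fun ω => Act k (ln ω))) (Z T) (Z 0) =
          Hc (cE ν (fun ω => Act k (ln ω))) (D T) (fun ω => (D 0 ω, ln ω)) := by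
        have f1 := Hc_pair (cE ν (fun ω => Act k (ln ω))) (D T) ln (Z 0)
        have f2 : Hc (cE ν (fun ω => Act k (ln ω))) ln (Z 0) = 0 := Hc_eq_zero (det_snd _ _)
        have f3 : Hc (cE ν (fun ω => Act k (ln ω))) (D T) (fun ω => (ln ω, Z 0 ω)) =
            Hc (cE ν (fun ω => Act k (ln ω))) (D T) (Z 0) :=
          Hc_congr (Det.refl _) (Det.refl _) (det_snd _ _)
            (((det_snd _ _ : Det (Z 0) ln)).pair (Det.refl _))
        rw [f2, f3, zero_add] at f1
        exact f1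
      rw [e4] at e2
      have hn : (nT : ℝ) ≠ 0 ∨ nT = 0 := by
        by_cases h : nT = 0
        · exact Or.inr h
        · exact Or.inl (Nat.cast_ne_zero.2 h)
      set HH := Hc (cE ν (fun ω => Act k (ln ω))) (D T) (fun ω => (D 0 ω, ln ω)) with hHH
      have hHH0 : 0 ≤ HH := Hc_nonneg hcE _ _
      rcases hn with hn | hn
      · have hpos : (0 : ℝ) < nT := lt_of_le_of_ne (Nat.cast_nonneg _) (Ne.symm hn)
        have e5 : (c₀ k : ℝ) * (υ * 2 ^ (M k + 2)) = nT * (4 / 2 ^ γ) := by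
          rw [← hM k]
          push_cast
          rw [pow_add, pow_add]
          field_simp
          norm_num
        rw [e5] at e2
        have hP := Pr_nonneg hν (fun ω => Act k (ln ω)) True
        calc c / nT * (PE ν (fun ω => Act k (ln ω)) * ∑ i : Fin nT, ∑ t ∈ range T,
              Hc (cE ν (fun ω => Act k (ln ω))) (F t (k, i)) (Z (t + 1)))
            ≤ c / nT * (PE ν (fun ω => Act k (ln ω)) * (nT * (4 / 2 ^ γ) * HH)) := by
              refine mul_le_mul_of_nonneg_left ?_ (by positivity)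
              exact mul_le_mul_of_nonneg_left e2 hP
          _ = c * (4 / 2 ^ γ) * (PE ν (fun ω => Act k (ln ω)) * HH) := by
              field_simp
      · subst hn
        simp only [Nat.cast_zero, div_zero, zero_mul]
        have hP := Pr_nonneg hν (fun ω => Act k (ln ω)) True
        positivity
  rw [Fintype.sum_prod_type, Fintype.sum_prod_type]
  refine (sum_le_sum fun k _ => h4 k).trans ?_
  rw [← mul_sum]
  have h5 := sum_act_le hν (D T) (fun ω => (D 0 ω, ln ω)) (fun k ω => Act k (ln ω))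
    (fun k ω ω' h => by
      have : ln ω = ln ω' := (Prod.mk.inj h).2
      simp only [this]) (N := N) (fun ω h => by
      have := hN ω h
      rwa [Nat.card_eq_fintype_card, Fintype.card_subtype] at this)
  calc c * (4 / 2 ^ γ) * ∑ k, PE ν (fun ω => Act k (ln ω)) *
        Hc (cE ν (fun ω => Act k (ln ω))) (D T) (fun ω => (D 0 ω, ln ω))
      ≤ c * (4 / 2 ^ γ) * (N * Hc ν (D T) (fun ω => (D 0 ω, ln ω))) :=
        mul_le_mul_of_nonneg_left h5 (by positivity)
    _ = _ := by ring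

end Vale.Agent.P065.H353
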