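import Vale.Agent.P065.H587.Ent

/-!
# P065, package KRAFT: truncated Kraft inequality (helper353)

* `kraft_trunc`: `H(X | Y) ≤ E min(-log r, log D + τ) + log (1 + e^{-τ})`, where `r` is the
  relative length of the child piece in its parent and `D` bounds the number of children.
* `path_le`: for a law `ν ≤ C μ` and nested variables `W 0, ..., W n`,
  `E_ν [-log μ(W n | W 0)] ≤ ∑ i < n, H_ν(W (i+1) | W i) + log C`.
* `kraft_path`: both together.
-/

set_option autoImplicit false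

open Finset Real

noncomputable section

namespace Vale.Agent.P065.Ent

variable {Ω : Type*} [Fintype Ω] {α β γ δ : Type*}

/-- **Truncated Kraft inequality** (nats): `r y x` is the relative length of the child `x` of `y`,
the children of one parent have total relative length at most `1`, and their number is at
most `D`. -/
theorem kraft_trunc [DecidableEq α] {μ : Ω → ℝ} (hμ : IsProb μ) (X : Ω → α) (Y : Ω → β)
    (r : β → α → ℝ) (D τ : ℝ) (hD0 : 0 < D) (hrpos : ∀ ω, 0 < μ ω → 0 < r (Y ω) (X ω))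
    (ch : β → Finset α) (hch : ∀ ω, X ω ∈ ch (Y ω))
    (hr0 : ∀ ω, ∀ x ∈ ch (Y ω), 0 ≤ r (Y ω) x)
    (hr1 : ∀ ω, ∑ x ∈ ch (Y ω), r (Y ω) x ≤ 1)
    (hD : ∀ ω, ((ch (Y ω)).card : ℝ) ≤ D) :
    Hc μ X Y ≤ ∑ ω, μ ω * min (- log (r (Y ω) (X ω))) (log D + τ) + log (1 + exp (-τ)) := by
  classical
  have hc : 0 < 1 + exp (-τ) := by positivity
  set q : β → α → ℝ := fun y x => if x ∈ ch y then max (r y x) (exp (-τ) / D) / (1 + exp (-τ))
    else 0 with hq
  have hqX : ∀ ω, q (Y ω) (X ω) = max (r (Y ω) (X ω)) (exp (-τ) / D) / (1 + exp (-τ)) := by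
    intro ω; simp only [hq, if_pos (hch ω)]
  have h1 := gibbs hμ X Y q (fun ω _ => by rw [hqX]; positivity) (fun ω x _ => by
      simp only [hq]; split_ifs <;> positivity) (fun ω => by
      calc ∑ x ∈ univ.image X, q (Y ω) x ≤ ∑ x ∈ ch (Y ω), q (Y ω) x := by
            simp only [hq]
            rw [← sum_filter]
            rw [← sum_filter (s := ch (Y ω))]
            refine sum_le_sum_of_subset_of_nonneg (fun x hx => ?_) (fun x hx _ => by positivity)
            rw [mem_filter] at hx ⊢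
            exact ⟨hx.2, hx.2⟩
        _ ≤ ∑ x ∈ ch (Y ω), (r (Y ω) x + exp (-τ) / D) / (1 + exp (-τ)) := by
            refine sum_le_sum fun x hx => ?_
            simp only [hq, if_pos hx]
            refine div_le_div_of_nonneg_right ?_ hc.le
            refine max_le ?_ ?_
            · have : 0 ≤ exp (-τ) / D := by positivity
              linarith
            · have := hr0 ω x hx
              linarith
        _ = (∑ x ∈ ch (Y ω), r (Y ω) x + (ch (Y ω)).card * (exp (-τ) / D)) / (1 + exp (-τ)) := by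
            rw [← sum_div, sum_add_distrib, sum_const, nsmul_eq_mul]
        _ ≤ 1 := by
            rw [div_le_one hc]
            have h2 : ((ch (Y ω)).card : ℝ) * (exp (-τ) / D) ≤ exp (-τ) := by
              calc ((ch (Y ω)).card : ℝ) * (exp (-τ) / D) ≤ D * (exp (-τ) / D) :=
                    mul_le_mul_of_nonneg_right (hD ω) (by positivity)
                _ = exp (-τ) := by field_simp
            have := hr1 ω
            linarith)
  refine h1.trans ?_
  have h3 : log (1 + exp (-τ)) = ∑ ω, μ ω * log (1 + exp (-τ)) := by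
    rw [← sum_mul, hμ.sum, one_mul]
  rw [h3, ← sum_add_distrib]
  refine sum_le_sum fun ω _ => ?_
  rcases (hμ.nonneg ω).eq_or_lt with h0 | h0
  · rw [← h0]; simp
  · rw [← mul_add]
    refine mul_le_mul_of_nonneg_left ?_ h0.le
    have hr := hrpos ω h0
    have hm : 0 < max (r (Y ω) (X ω)) (exp (-τ) / D) := lt_max_of_lt_left hr
    rw [hqX, log_div hm.ne' hc.ne']
    have h4 : - log (max (r (Y ω) (X ω)) (exp (-τ) / D)) ≤
        min (- log (r (Y ω) (X ω))) (log D + τ) := by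
      refine le_min ?_ ?_
      · exact neg_le_neg (log_le_log hr (le_max_left _ _))
      · have h5 : log (exp (-τ) / D) ≤ log (max (r (Y ω) (X ω)) (exp (-τ) / D)) :=
          log_le_log (by positivity) (le_max_right _ _)
        rw [log_div (exp_pos _).ne' hD0.ne', log_exp] at h5
        linarith
    linarith

/-- change of measure: `E_ν [-log μ(X)] ≤ H_ν(X) + log C` if `ν ≤ C μ` -/
lemma cross_le {μ ν : Ω → ℝ} (hν : IsProb ν) {C : ℝ} (hC : 0 < C)
    (h : ∀ ω, ν ω ≤ C * μ ω) (X : Ω → α) :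
    ∑ ω, ν ω * (- log (Pr μ X (X ω))) ≤ H ν X + log C := by
  have h1 : log C = ∑ ω, ν ω * log C := by rw [← sum_mul, hν.sum, one_mul]
  rw [h1, H, ← sum_add_distrib]
  refine sum_le_sum fun ω _ => ?_
  rcases (hν.nonneg ω).eq_or_lt with h0 | h0
  · rw [← h0]; simp
  · rw [← mul_add]
    refine mul_le_mul_of_nonneg_left ?_ h0.le
    have h2 : 0 < Pr ν X (X ω) := Pr_pos hν X h0
    have h3 : Pr ν X (X ω) ≤ C * Pr μ X (X ω) := by
      unfold Pr
      rw [mul_sum]
      refine sum_le_sum fun ω' _ => ?_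
      split_ifs
      · exact h ω'
      · simp
    have h4 : 0 < Pr μ X (X ω) := by
      by_contra hh
      push Not at hh
      have := mul_nonpos_of_nonneg_of_nonpos hC.le hh
      linarith
    have h5 := log_le_log h2 h3
    rw [log_mul hC.ne' h4.ne'] at h5
    linarith

/-- the relative entropy of the law of `X` is nonnegative: `H_ν(X) ≤ E_ν [-log μ(X)]` -/
lemma H_le_cross {μ ν : Ω → ℝ} (hμ : IsProb μ) (hν : IsProb ν)
    (h : ∀ ω, 0 < ν ω → 0 < μ ω) (X : Ω → α) :
    H ν X ≤ ∑ ω, ν ω * (- log (Pr μ X (X ω))) := by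
  classical
  have h1 := gibbs hν X (fun _ => ()) (fun _ x => Pr μ X x) (fun ω h0 => Pr_pos hμ X (h ω h0))
    (fun ω x _ => Pr_nonneg hμ X x) (fun ω => (sum_Pr hμ X).le)
  rwa [Hc_const hν] at h1

/-- the chain rule along nested variables -/
lemma H_path {μ : Ω → ℝ} {w : ℕ → Type*} (W : ∀ i, Ω → w i)
    (hW : ∀ i, Det (W (i + 1)) (W i)) (n : ℕ) :
    H μ (W n) = H μ (W 0) + ∑ i ∈ range n, Hc μ (W (i + 1)) (W i) := by
  induction n with
  | zero => simp
  | succ n ih =>
    rw [sum_range_succ, ← add_assoc, ← ih, Hc_eq (Det.refl (W (n + 1))) (hW n) (det_fst _ _)]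
    ring

/-- for a law `ν ≤ C μ` and nested `W 0, ..., W n`:
`E_ν [-log μ(W n | W 0)] ≤ ∑ i < n, H_ν(W (i+1) | W i) + log C` -/
theorem path_le {μ ν : Ω → ℝ} (hμ : IsProb μ) (hν : IsProb ν) {C : ℝ} (hC : 0 < C)
    (h : ∀ ω, ν ω ≤ C * μ ω) {w : ℕ → Type*} (W : ∀ i, Ω → w i)
    (hW : ∀ i, Det (W (i + 1)) (W i)) (n : ℕ) :
    ∑ ω, ν ω * (- log (Pr μ (W n) (W n ω) / Pr μ (W 0) (W 0 ω))) ≤
      ∑ i ∈ range n, Hc ν (W (i + 1)) (W i) + log C := by
  have h1 := cross_le hν hC h (W n)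
  rw [H_path W hW n] at h1
  have hpos : ∀ ω, 0 < ν ω → 0 < μ ω := by
    intro ω h0
    by_contra hh
    push Not at hh
    have := h ω
    have := mul_nonpos_of_nonneg_of_nonpos hC.le hh
    linarith
  have h2 := H_le_cross hμ hν hpos (W 0)
  have h3 : ∑ ω, ν ω * (- log (Pr μ (W n) (W n ω) / Pr μ (W 0) (W 0 ω))) =
      ∑ ω, ν ω * (- log (Pr μ (W n) (W n ω))) - ∑ ω, ν ω * (- log (Pr μ (W 0) (W 0 ω))) := by
    rw [← sum_sub_distrib]
    refine sum_congr rfl fun ω _ => ?_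
    rcases (hν.nonneg ω).eq_or_lt with h0 | h0
    · rw [← h0]; ring
    · have h4 := Pr_pos hμ (W n) (hpos ω h0)
      have h5 := Pr_pos hμ (W 0) (hpos ω h0)
      rw [log_div h4.ne' h5.ne']; ring
  rw [h3]
  linarith

/-- **Kraft along a path**, for a law `ν ≤ C μ`: the expected surprise of the position is at
most the sum of the expected truncated metric lengths, up to small errors. -/
theorem kraft_path {μ ν : Ω → ℝ} (hμ : IsProb μ) (hν : IsProb ν) {C : ℝ} (hC : 0 < C)
    (h : ∀ ω, ν ω ≤ C * μ ω) {w : ℕ → Type*} [∀ i, DecidableEq (w i)] (W : ∀ i, Ω → w i)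
    (hW : ∀ i, Det (W (i + 1)) (W i)) (n : ℕ)
    (r : ∀ i, w i → w (i + 1) → ℝ) (D τ : ℕ → ℝ) (hD0 : ∀ i, 0 < D i)
    (hrpos : ∀ i ω, 0 < ν ω → 0 < r i (W i ω) (W (i + 1) ω))
    (ch : ∀ i, w i → Finset (w (i + 1))) (hch : ∀ i ω, W (i + 1) ω ∈ ch i (W i ω))
    (hr0 : ∀ i ω, ∀ x ∈ ch i (W i ω), 0 ≤ r i (W i ω) x)
    (hr1 : ∀ i ω, ∑ x ∈ ch i (W i ω), r i (W i ω) x ≤ 1)
    (hD : ∀ i ω, ((ch i (W i ω)).card : ℝ) ≤ D i) :
    ∑ ω, ν ω * (- log (Pr μ (W n) (W n ω) / Pr μ (W 0) (W 0 ω))) ≤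
      ∑ ω, ν ω * ∑ i ∈ range n, min (- log (r i (W i ω) (W (i + 1) ω))) (log (D i) + τ i) +
        ∑ i ∈ range n, log (1 + exp (-(τ i))) + log C := by
  refine (path_le hμ hν hC h W hW n).trans ?_
  have h1 : ∑ ω, ν ω * ∑ i ∈ range n, min (- log (r i (W i ω) (W (i + 1) ω))) (log (D i) + τ i) =
      ∑ i ∈ range n, ∑ ω, ν ω * min (- log (r i (W i ω) (W (i + 1) ω))) (log (D i) + τ i) := by
    rw [sum_comm]
    exact sum_congr rfl fun ω _ => mul_sum _ _ _
  rw [h1, ← sum_add_distrib]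
  refine add_le_add (sum_le_sum fun i _ => ?_) le_rfl
  exact kraft_trunc hν (W (i + 1)) (W i) (r i) (D i) (τ i) (hD0 i) (hrpos i) (ch i) (hch i)
    (hr0 i) (hr1 i) (hD i)

end Vale.Agent.P065.Ent
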