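import Vale.Agent.P065.H268.TimeGeo
import Vale.Agent.P065.H353.Kraft

/-!
# P065, package TIME: geometric form of Kraft's inequality (helper353)

`blk P j ω = (tm, D tm, W j)` is the position of the flag at the end of block `j`. For every law
`ν` of the flags (also relative to any further variable `Z`)
`H_ν (W n | Z, W 0) ≤ E_ν ∑ j < n, min ((tm (j+1) - tm j) log 2) (log (9 B)) + n log 36 + log 9`
where `B` is the maximal number of children of a piece.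
-/

set_option autoImplicit false

open Finset Real

noncomputable section

namespace Vale.Agent.P065.H353

open Vale.Agent.P065.Ent Vale.Agent.P065.H268

variable {Ω : Type*} [Fintype Ω] (P : Pcs Ω)

/-- position of a flag at the level `j`: scale, dyadic cell of this scale, piece -/
def blk (P : Pcs Ω) (j : ℕ) (ω : Ω) : ℕ × ℤ × ℕ := (P.tm j ω, P.D (P.tm j ω) ω, P.W j ω)

lemma blk_eq {j : ℕ} {ω ω' : Ω} (h : blk P j ω = blk P j ω') :
    P.tm j ω = P.tm j ω' ∧ P.D (P.tm j ω) ω = P.D (P.tm j ω) ω' ∧ P.W j ω = P.W j ω' := by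
  unfold blk at h
  rw [Prod.mk.injEq, Prod.mk.injEq] at h
  refine ⟨h.1, ?_, h.2.2⟩
  rw [h.2.1, h.1]

lemma blk_mk {j : ℕ} {ω ω' : Ω} (h : P.W j ω = P.W j ω')
    (h' : P.D (P.tm j ω) ω = P.D (P.tm j ω) ω') : blk P j ω = blk P j ω' := by
  have h1 := P.tm_congr h
  unfold blk
  rw [Prod.mk.injEq, Prod.mk.injEq]
  exact ⟨h1, by rw [h', h1], h⟩

lemma blk_nest {j : ℕ} : Det (blk P (j + 1)) (blk P j) := by
  intro ω ω' h
  obtain ⟨-, h2, h3⟩ := blk_eq P h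
  exact blk_mk P (P.nest j ω ω' h3) (P.D_nest (P.tm_mono (Nat.le_succ j) ω) h2)

/-- the cells which meet a piece -/
lemma cell_mem {j : ℕ} {ω ω' : Ω} (h : P.W j ω' = P.W j ω) :
    P.D (P.tm j ω) ω' ∈ Icc ⌊(2 : ℝ) ^ P.tm j ω * P.lo j ω⌋ (⌊(2 : ℝ) ^ P.tm j ω * P.lo j ω⌋ + 8) := by
  have hp : (0 : ℝ) < 2 ^ P.tm j ω := by positivity
  rw [mem_Icc]
  constructor
  · exact Int.floor_mono (mul_le_mul_of_nonneg_left (P.lo_le h) hp.le)
  · have h1 : P.D (P.tm j ω) ω' < ⌊(2 : ℝ) ^ P.tm j ω * P.lo j ω⌋ + 9 := by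
      unfold Pcs.D
      rw [Int.floor_lt]
      push_cast
      have h2 := P.tm_lt j ω
      have h3 := P.le_hi h
      have h4 := Int.lt_floor_add_one ((2 : ℝ) ^ P.tm j ω * P.lo j ω)
      have h5 : (2 : ℝ) ^ P.tm j ω * P.x ω' ≤ 2 ^ P.tm j ω * P.hi j ω :=
        mul_le_mul_of_nonneg_left h3 hp.le
      have h6 : (2 : ℝ) ^ P.tm j ω * P.len j ω =
          2 ^ P.tm j ω * P.hi j ω - 2 ^ P.tm j ω * P.lo j ω + 2 ^ P.tm j ω * P.δ := by
        unfold Pcs.len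
        ring
      have h7 : 0 < (2 : ℝ) ^ P.tm j ω * P.δ := mul_pos hp P.δ_pos
      linarith
    omega

/-- the total length of different pieces -/
lemma sum_len (j : ℕ) (S : Finset Ω) : ∀ a b : ℝ, (∀ ω ∈ S, ∀ ω' ∈ S, P.W j ω = P.W j ω' → ω = ω') →
    (∀ ω ∈ S, a ≤ P.lo j ω) → (∀ ω ∈ S, P.hi j ω ≤ b) → a ≤ b + P.δ →
    ∑ ω ∈ S, P.len j ω ≤ b - a + P.δ := by
  classical
  induction S using Finset.induction_on_max_value (P.W j) with
  | empty =>
    intro a b _ _ _ hab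
    rw [sum_empty]
    linarith
  | insert m S hm hmax ih =>
    intro a b hinj ha hb hab
    rw [sum_insert hm]
    have h1 : ∀ ω ∈ S, P.hi j ω ≤ P.lo j m - P.δ := by
      intro ω hω
      have h2 : P.W j ω < P.W j m := by
        refine lt_of_le_of_ne (hmax ω hω) fun h => hm ?_
        rw [← hinj ω (mem_insert_of_mem hω) m (mem_insert_self _ _) h]
        exact hω
      obtain ⟨p, hp, hp'⟩ := P.exists_hi j ω
      obtain ⟨q, hq, hq'⟩ := P.exists_lo j m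
      have h3 := P.sep p q (P.x_lt (by rw [hp, hq]; exact h2))
      rw [hp', hq'] at h3
      linarith
    have h2 := ih a (P.lo j m - P.δ)
      (fun ω hω ω' hω' => hinj ω (mem_insert_of_mem hω) ω' (mem_insert_of_mem hω'))
      (fun ω hω => ha ω (mem_insert_of_mem hω)) h1
      (by have := ha m (mem_insert_self _ _); linarith)
    have h3 := hb m (mem_insert_self _ _)
    have h4 : P.len j m = P.hi j m - P.lo j m + P.δ := rfl
    linarith

/-- the children of a position -/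
def chd (P : Pcs Ω) (j : ℕ) (y : ℕ × ℤ × ℕ) : Finset (ℕ × ℤ × ℕ) := by
  classical exact ((univ.filter fun ω => blk P j ω = y).image (blk P (j + 1)))

lemma mem_chd {j : ℕ} {y x : ℕ × ℤ × ℕ} : x ∈ chd P j y ↔
    ∃ ω, blk P j ω = y ∧ blk P (j + 1) ω = x := by
  classical
  unfold chd
  rw [mem_image]
  constructor
  · rintro ⟨ω, h1, h2⟩
    exact ⟨ω, (mem_filter.1 h1).2, h2⟩
  · rintro ⟨ω, h1, h2⟩
    exact ⟨ω, mem_filter.2 ⟨mem_univ _, h1⟩, h2⟩

/-- labels of the children -/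
def lbl (P : Pcs Ω) (j : ℕ) (ω : Ω) : Finset ℕ := by
  classical exact ((univ.filter fun ω' => P.W j ω' = P.W j ω).image (P.W (j + 1)))

lemma mem_lbl {j : ℕ} {ω : Ω} {u : ℕ} : u ∈ lbl P j ω ↔
    ∃ ω', P.W j ω' = P.W j ω ∧ P.W (j + 1) ω' = u := by
  classical
  unfold lbl
  rw [mem_image]
  constructor
  · rintro ⟨ω, h1, h2⟩
    exact ⟨ω, (mem_filter.1 h1).2, h2⟩
  · rintro ⟨ω, h1, h2⟩
    exact ⟨ω, mem_filter.2 ⟨mem_univ _, h1⟩, h2⟩

/-- sum over the children of a position: at most nine children in each piece -/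
lemma sum_chd (j : ℕ) (ω₀ : Ω) (f : ℕ → Ω → ℝ) (hf : ∀ u ω, 0 ≤ f u ω)
    (hf' : ∀ ω ω', P.W (j + 1) ω = P.W (j + 1) ω' → f (P.W (j + 1) ω) ω = f (P.W (j + 1) ω) ω')
    (g : ℕ × ℤ × ℕ → ℝ)
    (hg : ∀ ω, P.W j ω = P.W j ω₀ → g (blk P (j + 1) ω) ≤ f (P.W (j + 1) ω) ω)
    (rep : ℕ → Ω) (hrep : ∀ u ∈ lbl P j ω₀, P.W j (rep u) = P.W j ω₀ ∧ P.W (j + 1) (rep u) = u) :
    ∑ x ∈ chd P j (blk P j ω₀), g x ≤ ∑ u ∈ lbl P j ω₀, 9 * f u (rep u) := by
  classical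
  have h1 : ∀ x ∈ chd P j (blk P j ω₀), x.2.2 ∈ lbl P j ω₀ := by
    intro x hx
    obtain ⟨ω, h2, rfl⟩ := (mem_chd P).1 hx
    exact (mem_lbl P).2 ⟨ω, (blk_eq P h2).2.2, rfl⟩
  rw [← sum_fiberwise_of_maps_to h1]
  refine sum_le_sum fun u hu => ?_
  obtain ⟨hr1, hr2⟩ := hrep u hu
  have h3 : ∀ x ∈ (chd P j (blk P j ω₀)).filter (fun x => x.2.2 = u), g x ≤ f u (rep u) := by
    intro x hx
    obtain ⟨hx1, hx2⟩ := mem_filter.1 hx
    obtain ⟨ω, h2, rfl⟩ := (mem_chd P).1 hx1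
    have h4 : P.W (j + 1) ω = u := hx2
    refine (hg ω (blk_eq P h2).2.2).trans ?_
    have h5 := hf' ω (rep u) (by rw [hr2, h4])
    rw [h5, h4]
  have h4 : (((chd P j (blk P j ω₀)).filter (fun x => x.2.2 = u)).card : ℝ) ≤ 9 := by
    have h5 : (chd P j (blk P j ω₀)).filter (fun x => x.2.2 = u) ⊆
        (Icc ⌊(2 : ℝ) ^ P.tm (j + 1) (rep u) * P.lo (j + 1) (rep u)⌋
          (⌊(2 : ℝ) ^ P.tm (j + 1) (rep u) * P.lo (j + 1) (rep u)⌋ + 8)).image
          (fun d => (P.tm (j + 1) (rep u), d, u)) := by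
      intro x hx
      obtain ⟨hx1, hx2⟩ := mem_filter.1 hx
      obtain ⟨ω, h2, rfl⟩ := (mem_chd P).1 hx1
      have h6 : P.W (j + 1) ω = P.W (j + 1) (rep u) := by rw [hr2]; exact hx2
      have h7 := P.tm_congr h6
      rw [mem_image]
      refine ⟨P.D (P.tm (j + 1) ω) ω, ?_, ?_⟩
      · rw [h7]
        exact cell_mem P h6
      · unfold blk
        rw [← h7, h6, hr2]
    have h6 := (card_le_card h5).trans card_image_le
    rw [Int.card_Icc] at h6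
    have h7 : (⌊(2 : ℝ) ^ P.tm (j + 1) (rep u) * P.lo (j + 1) (rep u)⌋ + 8 + 1 -
      ⌊(2 : ℝ) ^ P.tm (j + 1) (rep u) * P.lo (j + 1) (rep u)⌋).toNat = 9 := by
      rw [show ∀ z : ℤ, z + 8 + 1 - z = 9 from fun z => by ring]
      rfl
    rw [h7] at h6
    exact_mod_cast h6
  calc ∑ x ∈ (chd P j (blk P j ω₀)).filter (fun x => x.2.2 = u), g x
      ≤ ∑ _x ∈ (chd P j (blk P j ω₀)).filter (fun x => x.2.2 = u), f u (rep u) := sum_le_sum h3
    _ = (((chd P j (blk P j ω₀)).filter (fun x => x.2.2 = u)).card : ℝ) * f u (rep u) := by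
        rw [sum_const, nsmul_eq_mul]
    _ ≤ 9 * f u (rep u) := mul_le_mul_of_nonneg_right h4 (hf _ _)

/-- the number of children -/
lemma card_chd {B : ℕ} (j : ℕ) (ω₀ : Ω) (hB : (lbl P j ω₀).card ≤ B) :
    ((chd P j (blk P j ω₀)).card : ℝ) ≤ 9 * B := by
  classical
  have : Nonempty Ω := ⟨ω₀⟩
  have hrep : ∀ u ∈ lbl P j ω₀, ∃ ω, P.W j ω = P.W j ω₀ ∧ P.W (j + 1) ω = u := fun u hu =>
    (mem_lbl P).1 hu
  choose! rep hr1 hr2 using hrep
  have h1 := sum_chd P j ω₀ (fun _ _ => 1) (fun _ _ => zero_le_one) (fun _ _ _ => rfl)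
    (fun _ => 1) (fun _ _ => le_rfl) rep (fun u hu => ⟨hr1 u hu, hr2 u hu⟩)
  simp only [sum_const, nsmul_eq_mul, mul_one] at h1
  have h2 : ((lbl P j ω₀).card : ℝ) ≤ B := by exact_mod_cast hB
  linarith

/-- **Kraft's inequality for the children** -/
lemma kraft_chd (j : ℕ) (ω₀ : Ω) :
    ∑ x ∈ chd P j (blk P j ω₀), ((2 : ℝ) ^ x.1)⁻¹ ≤ 18 * ((2 : ℝ) ^ P.tm j ω₀)⁻¹ := by
  classical
  have : Nonempty Ω := ⟨ω₀⟩
  have hrep : ∀ u ∈ lbl P j ω₀, ∃ ω, P.W j ω = P.W j ω₀ ∧ P.W (j + 1) ω = u := fun u hu =>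
    (mem_lbl P).1 hu
  choose! rep hr1 hr2 using hrep
  have hlen : ∀ i ω, ((2 : ℝ) ^ P.tm i ω)⁻¹ ≤ P.len i ω / 4 := by
    intro i ω
    have h1 := P.tm_spec i ω
    rw [inv_le_iff_one_le_mul₀ (by positivity)]
    linarith
  have h1 := sum_chd P j ω₀ (fun _ ω => P.len (j + 1) ω / 4)
    (fun _ ω => by have := P.len_pos (j + 1) ω; positivity)
    (fun ω ω' h => by
      show P.len (j + 1) ω / 4 = P.len (j + 1) ω' / 4
      rw [P.len_congr h])
    (fun x => ((2 : ℝ) ^ x.1)⁻¹) (fun ω _ => hlen (j + 1) ω) rep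
    (fun u hu => ⟨hr1 u hu, hr2 u hu⟩)
  refine h1.trans ?_
  have h2 : ∑ u ∈ lbl P j ω₀, P.len (j + 1) (rep u) ≤ P.len j ω₀ := by
    have h3 : ∑ u ∈ lbl P j ω₀, P.len (j + 1) (rep u) =
        ∑ ω ∈ (lbl P j ω₀).image rep, P.len (j + 1) ω := by
      rw [sum_image]
      intro u hu u' hu' h
      rw [← hr2 u hu, ← hr2 u' hu', h]
    rw [h3]
    have h4 := sum_len P (j + 1) ((lbl P j ω₀).image rep) (P.lo j ω₀) (P.hi j ω₀) ?_ ?_ ?_ ?_
    · exact h4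
    · intro ω hω ω' hω' h
      obtain ⟨u, hu, rfl⟩ := mem_image.1 hω
      obtain ⟨u', hu', rfl⟩ := mem_image.1 hω'
      rw [hr2 u hu, hr2 u' hu'] at h
      rw [h]
    · intro ω hω
      obtain ⟨u, hu, rfl⟩ := mem_image.1 hω
      obtain ⟨p, hp, hp'⟩ := P.exists_lo (j + 1) (rep u)
      rw [← hp']
      exact P.lo_le ((P.nest j _ _ hp).trans (hr1 u hu))
    · intro ω hω
      obtain ⟨u, hu, rfl⟩ := mem_image.1 hω
      obtain ⟨p, hp, hp'⟩ := P.exists_hi (j + 1) (rep u)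
      rw [← hp']
      exact P.le_hi ((P.nest j _ _ hp).trans (hr1 u hu))
    · have h5 := P.lo_le (j := j) (ω := ω₀) rfl
      have h6 := P.le_hi (j := j) (ω := ω₀) rfl
      have := P.δ_pos
      linarith
  have h3 : ∑ u ∈ lbl P j ω₀, 9 * (P.len (j + 1) (rep u) / 4) =
      9 / 4 * ∑ u ∈ lbl P j ω₀, P.len (j + 1) (rep u) := by
    rw [mul_sum]
    exact sum_congr rfl fun u _ => by ring
  rw [h3]
  have h4 := P.tm_lt j ω₀
  have h5 : P.len j ω₀ ≤ 8 * ((2 : ℝ) ^ P.tm j ω₀)⁻¹ := by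
    rw [← div_eq_mul_inv, le_div_iff₀ (by positivity)]
    linarith
  linarith

variable {Ω' ζ : Type*} [Fintype Ω'] {ν : Ω' → ℝ}

/-- one block: `H_ν (blk (j+1) | blk j) ≤ E_ν min ((tm (j+1) - tm j) log 2) (log (9 B)) + log 36` -/
theorem kraft_blk (hν : IsProb ν) (f : Ω' → Ω) (j : ℕ) {B : ℕ} (hB0 : 0 < B)
    (hB : ∀ ω, (lbl P j ω).card ≤ B) :
    Hc ν (fun ω => blk P (j + 1) (f ω)) (fun ω => blk P j (f ω)) ≤
      ∑ ω, ν ω * min (((P.tm (j + 1) (f ω) : ℝ) - P.tm j (f ω)) * log 2) (log (9 * B)) +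
        log 36 := by
  classical
  have h1 := kraft_trunc hν (fun ω => blk P (j + 1) (f ω)) (fun ω => blk P j (f ω))
    (fun y x => (2 : ℝ) ^ y.1 * ((2 : ℝ) ^ x.1)⁻¹ / 18) (9 * B) 0 (by positivity)
    (fun ω _ => by positivity) (chd P j) (fun ω => (mem_chd P).2 ⟨f ω, rfl, rfl⟩)
    (fun ω x _ => by positivity)
    (fun ω => by
      rw [← sum_div, ← mul_sum, div_le_one (by norm_num)]
      have h2 := kraft_chd P j (f ω)
      have h3 : (0 : ℝ) < 2 ^ P.tm j (f ω) := by positivity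
      calc (2 : ℝ) ^ (blk P j (f ω)).1 * ∑ x ∈ chd P j (blk P j (f ω)), ((2 : ℝ) ^ x.1)⁻¹
          ≤ (2 : ℝ) ^ P.tm j (f ω) * (18 * ((2 : ℝ) ^ P.tm j (f ω))⁻¹) :=
            mul_le_mul_of_nonneg_left h2 h3.le
        _ = 18 := by field_simp)
    (fun ω => card_chd P j (f ω) (hB (f ω)))
  refine h1.trans ?_
  have h36 : log 36 = log 18 + log 2 := by
    rw [← log_mul (by norm_num) (by norm_num)]
    norm_num
  have hs : log 18 = ∑ ω, ν ω * log 18 := by rw [← sum_mul, hν.sum, one_mul]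
  have hexp : log (1 + exp (-0)) = log 2 := by norm_num
  rw [hexp, h36, ← add_assoc]
  refine add_le_add ?_ le_rfl
  rw [hs, ← sum_add_distrib]
  refine sum_le_sum fun ω _ => ?_
  rw [← mul_add]
  refine mul_le_mul_of_nonneg_left ?_ (hν.nonneg ω)
  have h3 : -log ((2 : ℝ) ^ (blk P j (f ω)).1 * ((2 : ℝ) ^ (blk P (j + 1) (f ω)).1)⁻¹ / 18) =
      ((P.tm (j + 1) (f ω) : ℝ) - P.tm j (f ω)) * log 2 + log 18 := by
    show -log ((2 : ℝ) ^ P.tm j (f ω) * ((2 : ℝ) ^ P.tm (j + 1) (f ω))⁻¹ / 18) = _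
    rw [log_div (by positivity) (by norm_num), log_mul (by positivity) (by positivity), log_inv,
      log_pow, log_pow]
    ring
  rw [h3, add_zero]
  have h18 : 0 ≤ log (18 : ℝ) := log_nonneg (by norm_num)
  rw [← min_add_add_right]
  exact min_le_min le_rfl (by linarith)

/-- **Kraft's inequality for a window**, every law `ν`, relative to any variable `Z` -/
theorem kraft_geo (hν : IsProb ν) (f : Ω' → Ω) (Z : Ω' → ζ) (n : ℕ) {B : ℕ} (hB0 : 0 < B)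
    (hB : ∀ j < n, ∀ ω, (lbl P j ω).card ≤ B) :
    Hc ν (fun ω => blk P n (f ω)) (fun ω => (P.W 0 (f ω), Z ω)) ≤
      ∑ ω, ν ω * ∑ j ∈ range n,
        min (((P.tm (j + 1) (f ω) : ℝ) - P.tm j (f ω)) * log 2) (log (9 * B)) +
          n * log 36 + log 9 := by
  classical
  induction n with
  | zero =>
    simp only [range_zero, sum_empty, mul_zero, sum_const_zero, zero_add, Nat.cast_zero, zero_mul]
    refine (Hc_le_log hν _ _ 9 (by norm_num) fun ω => ?_).trans (le_of_eq (by norm_num))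
    refine ⟨(Icc ⌊(2 : ℝ) ^ P.tm 0 (f ω) * P.lo 0 (f ω)⌋
          (⌊(2 : ℝ) ^ P.tm 0 (f ω) * P.lo 0 (f ω)⌋ + 8)).image
          (fun d => (P.tm 0 (f ω), d, P.W 0 (f ω))), ?_, ?_⟩
    · refine card_image_le.trans (le_of_eq ?_)
      rw [Int.card_Icc, show ∀ z : ℤ, z + 8 + 1 - z = 9 from fun z => by ring]
      rfl
    · intro ω' h
      have h1 : P.W 0 (f ω') = P.W 0 (f ω) := (Prod.mk.inj h).1
      have h2 := P.tm_congr h1
      rw [mem_image]
      refine ⟨P.D (P.tm 0 (f ω')) (f ω'), ?_, ?_⟩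
      · rw [h2]
        exact cell_mem P h1
      · unfold blk
        rw [← h2, h1]
  | succ n ih =>
    have h1 := ih fun j hj => hB j (by omega)
    have h2 := kraft_blk P hν f n hB0 (hB n (Nat.lt_succ_self n))
    have h3 := Hc_pair ν (fun ω => blk P (n + 1) (f ω)) (fun ω => blk P n (f ω))
      (fun ω => (P.W 0 (f ω), Z ω))
    have h4 : Hc ν (fun ω => blk P (n + 1) (f ω)) (fun ω => (P.W 0 (f ω), Z ω)) =
        Hc ν (fun ω => (blk P (n + 1) (f ω), blk P n (f ω))) (fun ω => (P.W 0 (f ω), Z ω)) := by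
      refine Hc_congr ?_ (det_fst _ _) (Det.refl _) (Det.refl _)
      exact (Det.refl _).pair (fun ω ω' h => blk_nest P _ _ h)
    have h5 := Hc_anti hν (fun ω => blk P (n + 1) (f ω))
      (det_fst (fun ω => blk P n (f ω)) (fun ω => (P.W 0 (f ω), Z ω)))
    have h6 : ∑ ω, ν ω * ∑ j ∈ range (n + 1),
        min (((P.tm (j + 1) (f ω) : ℝ) - P.tm j (f ω)) * log 2) (log (9 * B)) =
        ∑ ω, ν ω * ∑ j ∈ range n,
          min (((P.tm (j + 1) (f ω) : ℝ) - P.tm j (f ω)) * log 2) (log (9 * B)) +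
        ∑ ω, ν ω * min (((P.tm (n + 1) (f ω) : ℝ) - P.tm n (f ω)) * log 2) (log (9 * B)) := by
      rw [← sum_add_distrib]
      refine sum_congr rfl fun ω _ => ?_
      rw [sum_range_succ, mul_add]
    rw [h6, h4, h3]
    push_cast
    linarith

/-- **Kraft's inequality for a window**, for any variable determined by the last piece -/
theorem kraft_win {α : Type*} (hν : IsProb ν) (f : Ω' → Ω) (Z : Ω' → ζ) (n : ℕ) {B : ℕ}
    (hB0 : 0 < B) (hB : ∀ j < n, ∀ ω, (lbl P j ω).card ≤ B) (X : Ω' → α)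
    (hX : Det (fun ω => P.W n (f ω)) X) :
    Hc ν X (fun ω => (P.W 0 (f ω), Z ω)) ≤
      ∑ ω, ν ω * ∑ j ∈ range n,
        min (((P.tm (j + 1) (f ω) : ℝ) - P.tm j (f ω)) * log 2) (log (9 * B)) +
          n * log 36 + log 9 := by
  refine (Hc_mono_left hν ?_).trans (kraft_geo P hν f Z n hB0 hB)
  intro ω ω' h
  exact hX ω ω' (blk_eq P h).2.2

end Vale.Agent.P065.H353
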