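import Vale.Agent.P065.H268.TimeAvg

/-!
# P065, package BOOK: mixed kernels (helper353)

On some boxes of a line the kernel of the line itself is used, on the others the kernel of the box.
-/

set_option autoImplicit false

open Finset Real

noncomputable section

namespace Vale.Agent.P065.H353

open Vale.Agent.P065.Ent Vale.Agent.P065.H268

variable {Ω β η : Type*} [Fintype Ω] {μ : Ω → ℝ} {Y : Ω → η} {R : ℕ → Ω → β}

omit [Fintype Ω] in
lemma ker_congr {κ κ' : ℕ → Ω → ℝ} (h : Avg.Ker μ Y R κ) (he : ∀ t ω, 0 < μ ω → κ' t ω = κ t ω) :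
    Avg.Ker μ Y R κ' where
  pos := fun t ω hω => by
    rw [he t ω hω]
    exact h.pos t ω hω
  congr := fun t ω ω' hω hω' e1 e2 => by
    rw [he t ω hω, he t ω' hω']
    exact h.congr t ω ω' hω hω' e1 e2
  sum_le := fun t y S hS h1 h2 => by
    rw [sum_congr rfl fun ω hω => he t ω (hS ω hω).2]
    exact h.sum_le t y S hS h1 h2

omit [Fintype Ω] in
/-- a mixed kernel: the choice `M` is a function of the box and the line -/
lemma ker_mix {κ₁ κ₂ : ℕ → Ω → ℝ} (h₁ : Avg.Ker μ Y R κ₁) (h₂ : Avg.Ker μ Y R κ₂)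
    (hR : ∀ t, Det (R (t + 1)) (R t)) (M : ℕ → Ω → Prop) [∀ t ω, Decidable (M t ω)]
    (hM : ∀ t ω ω', R t ω = R t ω' → Y ω = Y ω' → M t ω → M t ω') :
    Avg.Ker μ Y R (fun t ω => if M t ω then κ₁ t ω else κ₂ t ω) where
  pos := fun t ω hω => by
    show 0 < if M t ω then κ₁ t ω else κ₂ t ω
    split_ifs
    · exact h₁.pos t ω hω
    · exact h₂.pos t ω hω
  congr := fun t ω ω' hω hω' e1 e2 => by
    have e3 := hR t ω ω' e2
    show (if M t ω then κ₁ t ω else κ₂ t ω) = if M t ω' then κ₁ t ω' else κ₂ t ω'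
    by_cases hm : M t ω
    · rw [if_pos hm, if_pos (hM t ω ω' e3 e1 hm)]
      exact h₁.congr t ω ω' hω hω' e1 e2
    · rw [if_neg hm, if_neg fun hm' => hm (hM t ω' ω e3.symm e1.symm hm')]
      exact h₂.congr t ω ω' hω hω' e1 e2
  sum_le := fun t y S hS h1 h2 => by
    rcases S.eq_empty_or_nonempty with rfl | ⟨ω₁, hω₁⟩
    · simp
    by_cases hm : M t ω₁
    · rw [sum_congr rfl fun ω hω => if_pos (hM t ω₁ ω (h1 ω₁ hω₁ ω hω)
        ((hS ω₁ hω₁).1.trans (hS ω hω).1.symm) hm)]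
      exact h₁.sum_le t y S hS h1 h2
    · rw [sum_congr rfl fun ω hω => if_neg fun hm' => hm (hM t ω ω₁ (h1 ω hω ω₁ hω₁)
        ((hS ω hω).1.trans (hS ω₁ hω₁).1.symm) hm')]
      exact h₂.sum_le t y S hS h1 h2

/-- probability of the next dyadic cell, given the box and the line -/
noncomputable def kt (P : Pcs Ω) (μ : Ω → ℝ) (Y : Ω → η) (R : ℕ → Ω → β) (t : ℕ) (ω : Ω) : ℝ :=
  Pr μ (fun ω => ((P.D (t + 1) ω, R t ω), Y ω)) ((P.D (t + 1) ω, R t ω), Y ω) /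
    Pr μ (fun ω => (R t ω, Y ω)) (R t ω, Y ω)

variable {P : Pcs Ω}

lemma kt_pos (hμ : IsProb μ) (t : ℕ) {ω : Ω} (h : 0 < μ ω) : 0 < kt P μ Y R t ω :=
  div_pos (Pr_pos hμ _ h) (Pr_pos hμ _ h)

lemma kt_mul_kb (hμ : IsProb μ) (t : ℕ) {ω : Ω} (h : 0 < μ ω) :
    kt P μ Y R t ω * Avg.kb P μ Y R t ω = Avg.kl μ Y R t ω := by
  unfold kt Avg.kb Avg.kl
  have h1 := (Pr_pos hμ (fun ω => ((P.D (t + 1) ω, R t ω), Y ω)) h).ne'
  rw [div_mul_div_comm, mul_comm, mul_div_mul_right _ _ h1]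

/-- the kernel of the line, as time step and guard step -/
lemma ker_tb (hμ : IsProb μ) (hR : ∀ t, Det (R (t + 1)) (R t)) :
    Avg.Ker μ Y R (fun t ω => kt P μ Y R t ω * Avg.kb P μ Y R t ω) :=
  ker_congr (Avg.ker_l hμ hR) fun t _ hω => kt_mul_kb hμ t hω

/-- **the mixed kernel** -/
lemma ker_mixed (hμ : IsProb μ) (hRD : ∀ t, Det (R t) (P.D t)) (hR : ∀ t, Det (R (t + 1)) (R t))
    (M : ℕ → Ω → Prop) [∀ t ω, Decidable (M t ω)]
    (hM : ∀ t ω ω', R t ω = R t ω' → Y ω = Y ω' → M t ω → M t ω') :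
    Avg.Ker μ Y R (fun t ω => (if M t ω then kt P μ Y R t ω else Avg.ka P μ R t ω) *
      Avg.kb P μ Y R t ω) := by
  refine ker_congr (ker_mix (ker_tb (P := P) hμ hR) (Avg.ker_ab (P := P) hμ hRD hR) hR M hM) ?_
  intro t ω _
  show _ = if M t ω then _ else _
  split_ifs <;> rfl

omit [Fintype Ω] in
/-- a convex combination of kernels: the weight `s` is a function of the box and the line -/
lemma ker_conv {κ₁ κ₂ : ℕ → Ω → ℝ} (h₁ : Avg.Ker μ Y R κ₁) (h₂ : Avg.Ker μ Y R κ₂)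
    (hR : ∀ t, Det (R (t + 1)) (R t)) (s : ℕ → Ω → ℝ)
    (hs : ∀ t ω ω', R t ω = R t ω' → Y ω = Y ω' → s t ω = s t ω')
    (hs0 : ∀ t ω, 0 ≤ s t ω) (hs1 : ∀ t ω, s t ω ≤ 1) :
    Avg.Ker μ Y R (fun t ω => s t ω * κ₁ t ω + (1 - s t ω) * κ₂ t ω) where
  pos := fun t ω hω => by
    have p1 := h₁.pos t ω hω
    have p2 := h₂.pos t ω hω
    have a0 := hs0 t ω
    have a1 := hs1 t ω
    rcases a0.eq_or_lt with h | h
    · rw [← h]
      linarith
    · have := mul_pos h p1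
      have := mul_nonneg (show 0 ≤ 1 - s t ω by linarith) p2.le
      linarith
  congr := fun t ω ω' hω hω' e1 e2 => by
    rw [h₁.congr t ω ω' hω hω' e1 e2, h₂.congr t ω ω' hω hω' e1 e2, hs t ω ω' (hR t ω ω' e2) e1]
  sum_le := fun t y S hS h1 h2 => by
    rcases S.eq_empty_or_nonempty with rfl | ⟨ω₁, hω₁⟩
    · simp
    have e : ∀ ω ∈ S, s t ω * κ₁ t ω + (1 - s t ω) * κ₂ t ω =
        s t ω₁ * κ₁ t ω + (1 - s t ω₁) * κ₂ t ω := by
      intro ω hω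
      rw [hs t ω ω₁ (h1 ω hω ω₁ hω₁) ((hS ω hω).1.trans (hS ω₁ hω₁).1.symm)]
    rw [sum_congr rfl e, sum_add_distrib, ← mul_sum, ← mul_sum]
    have b1 := mul_le_mul_of_nonneg_left (h₁.sum_le t y S hS h1 h2) (hs0 t ω₁)
    have b2 := mul_le_mul_of_nonneg_left (h₂.sum_le t y S hS h1 h2)
      (show 0 ≤ 1 - s t ω₁ by linarith [hs1 t ω₁])
    linarith

/-- **convex combination of the kernel of the line and the kernel of the box** -/
lemma ker_convex (hμ : IsProb μ) (hRD : ∀ t, Det (R t) (P.D t)) (hR : ∀ t, Det (R (t + 1)) (R t))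
    (s : ℕ → Ω → ℝ) (hs : ∀ t ω ω', R t ω = R t ω' → Y ω = Y ω' → s t ω = s t ω')
    (hs0 : ∀ t ω, 0 ≤ s t ω) (hs1 : ∀ t ω, s t ω ≤ 1) :
    Avg.Ker μ Y R (fun t ω => (s t ω * kt P μ Y R t ω + (1 - s t ω) * Avg.ka P μ R t ω) *
      Avg.kb P μ Y R t ω) := by
  refine ker_congr (ker_conv (ker_tb (P := P) hμ hR) (Avg.ker_ab (P := P) hμ hRD hR) hR s hs
    hs0 hs1) ?_
  intro t ω _
  ring

open Classical in
/-- the surprise of a kernel `κ * kb` is the surprise of `κ`, plus the guard loss -/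
lemma surprise_le (hμ : IsProb μ) (hRD : ∀ t, Det (R t) (P.D t)) (hR : ∀ t, Det (R (t + 1)) (R t))
    (th : ℕ → Ω → Prop) {κ : ℕ → Ω → ℝ} (hκ : ∀ t ω, 0 < μ ω → 0 < κ t ω) (T : ℕ) :
    ∑ ω, μ ω * ∑ t ∈ range T with ¬ th t ω, -log (κ t ω * Avg.kb P μ Y R t ω) ≤
      ∑ ω, μ ω * ∑ t ∈ range T with ¬ th t ω, -log (κ t ω) +
        ∑ t ∈ range T, Hc μ (R (t + 1)) (fun ω => ((P.D (t + 1) ω, R t ω), Y ω)) := by
  have h1 : ∀ t, Hc μ (R (t + 1)) (fun ω => ((P.D (t + 1) ω, R t ω), Y ω)) =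
      ∑ ω, μ ω * -Real.log (Avg.kb P μ Y R t ω) := by
    intro t
    rw [Hc_eq_sum hμ]
    refine sum_congr rfl fun ω _ => ?_
    unfold Avg.kb
    rw [Pr_congr (X := fun ω => (R (t + 1) ω, ((P.D (t + 1) ω, R t ω), Y ω)))
      (Y := fun ω => (R (t + 1) ω, Y ω))
      ((det_fst _ _).pair ((det_snd _ _).trans (det_snd _ _)))
      ((det_fst _ _).pair ((((det_fst _ _).trans (hRD (t + 1))).pair
        ((det_fst _ _).trans (hR t))).pair (det_snd _ _))) ω]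
  rw [sum_congr rfl fun t _ => h1 t, sum_comm, ← sum_add_distrib]
  refine sum_le_sum fun ω _ => ?_
  rcases (hμ.nonneg ω).eq_or_lt with h0 | h0
  · rw [← h0]; simp
  have h2 : ∑ t ∈ range T with ¬ th t ω, -log (κ t ω * Avg.kb P μ Y R t ω) =
      ∑ t ∈ range T with ¬ th t ω, (-log (κ t ω) + -log (Avg.kb P μ Y R t ω)) := by
    refine sum_congr rfl fun t _ => ?_
    rw [log_mul (hκ t ω h0).ne' (Avg.kb_pos hμ t h0).ne']
    ring
  rw [h2, sum_add_distrib, mul_add, ← mul_sum]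
  refine add_le_add le_rfl (mul_le_mul_of_nonneg_left ?_ (hμ.nonneg ω))
  refine sum_le_sum_of_subset_of_nonneg (filter_subset _ _) fun t _ _ => ?_
  have h3 := log_nonpos (Avg.kb_pos (P := P) (Y := Y) (R := R) hμ t h0).le
    (Avg.kb_le_one hμ hRD hR t ω)
  linarith

end Vale.Agent.P065.H353
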