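import Vale.Agent.P065.H700.Budget2

/-!
# P065, package BOOK: transfer of the growth along the lines to the auxiliary law (helper353)

* `growth`: `H_q (W | column, line) ≥ E_q [surprise of W under ν given the line] - log (c N)`;
* `bad_transfer`: the expected number of blocks whose own child has small conditional mass under
  `ν` but not under `q` is at most `4 log (c N) / (ρ' - ρ) ^ 2`.
-/

set_option autoImplicit false

open Finset Real

noncomputable section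

namespace Vale.Agent.P065.H353

open Vale.Agent.P065.Ent Vale.Agent.P065.H700

variable {Ω : Type*} [Fintype Ω] {α β γ L : Type*}

/-- fibre formula for the conditional divergence -/
lemma KLc_fiber [DecidableEq β] {p q : Ω → ℝ} (hp : IsProb p) (hq : IsProb q) (hac : AC p q)
    (X : Ω → α) (Z : Ω → β) :
    KLc p q X Z = ∑ z ∈ univ.image Z, Pr p Z z * KL (cnd p Z z) (cnd q Z z) X := by
  rw [KLc_eq_sum hp hq hac]
  have h := sum_cnd_fiber hp Z (fun z ω => log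
      ((Pr p (fun ω => (X ω, Z ω)) (X ω, z) / Pr p Z z) /
        (Pr q (fun ω => (X ω, Z ω)) (X ω, z) / Pr q Z z)))
  refine h.trans (sum_congr rfl fun z _ => ?_)
  congr 1
  unfold KL
  refine sum_congr rfl fun ω _ => ?_
  rw [Pr_cnd, Pr_cnd]

/-- Pinsker for one value -/
lemma sq_le_KL {p q : Ω → ℝ} (hp : IsProb p) (hq : IsProb q) (hac : AC p q) (X : Ω → α)
    (ω₀ : Ω) {d : ℝ} (hd : 0 ≤ d) (h : d ≤ Pr p X (X ω₀) - Pr q X (X ω₀)) :
    d ^ 2 / 4 ≤ KL p q X := by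
  classical
  have h1 : KL p q X = ∑ x ∈ univ.image X, Pr p X x * log (Pr p X x / Pr q X x) :=
    sum_fiber p X (fun x => log (Pr p X x / Pr q X x))
  have h2 := tv_le (univ.image X) (Pr p X) (Pr q X) (fun x _ => Pr_nonneg hp X x)
    (fun x _ => Pr_nonneg hq X x) ?_ (sum_Pr hp X) (sum_Pr hq X).le
  · rw [← h1] at h2
    have h3 : |Pr p X (X ω₀) - Pr q X (X ω₀)| ≤ ∑ x ∈ univ.image X, |Pr p X x - Pr q X x| :=
      single_le_sum (f := fun x => |Pr p X x - Pr q X x|) (fun _ _ => abs_nonneg _)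
        (mem_image_of_mem X (mem_univ ω₀))
    have h4 : d ≤ 2 * √ (KL p q X) := (h.trans (le_abs_self _)).trans (h3.trans h2)
    have h5 : 0 ≤ KL p q X := KL_nonneg hp hq hac X
    have h6 := sq_sqrt h5
    nlinarith [sqrt_nonneg (KL p q X)]
  · intro x hx hpos
    obtain ⟨ω, hω, h0⟩ : ∃ ω, X ω = x ∧ 0 < p ω := by
      by_contra hcon
      push Not at hcon
      have : Pr p X x = 0 := by
        unfold Pr
        refine sum_eq_zero fun ω _ => ?_
        split_ifs with h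
        · exact le_antisymm (hcon ω h) (hp.nonneg ω)
        · rfl
      rw [this] at hpos
      exact lt_irrefl _ hpos
    rw [← hω]
    exact Pr_pos hq X (hac ω h0)

lemma AC_cnd {p q : Ω → ℝ} (hp : IsProb p) (hac : AC p q) (Z : Ω → β) (z : β)
    (hz : 0 < Pr q Z z) : AC (cnd p Z z) (cnd q Z z) := by
  classical
  intro ω h
  have h1 := cnd_pos h
  unfold cnd at h ⊢
  rw [if_pos h1] at h ⊢
  have h2 : 0 < p ω := by
    rcases (hp.nonneg ω).eq_or_lt with h3 | h3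
    · rw [← h3, zero_div] at h
      exact absurd h (lt_irrefl _)
    · exact h3
  exact div_pos (hac ω h2) hz

open Classical in
/-- one step: flags whose own child is small under `q` and large under `p` -/
lemma bad_step {p q : Ω → ℝ} (hp : IsProb p) (hq : IsProb q) (hac : AC p q) (X : Ω → α)
    (Z : Ω → β) {ρ ρ' : ℝ} (hρ : ρ < ρ') :
    ∑ ω, p ω * (if Pr q (fun ω => (X ω, Z ω)) (X ω, Z ω) ≤ ρ * Pr q Z (Z ω) ∧
        ρ' * Pr p Z (Z ω) < Pr p (fun ω => (X ω, Z ω)) (X ω, Z ω) then 1 else 0) ≤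
      4 / (ρ' - ρ) ^ 2 * KLc p q X Z := by
  have hd : 0 < ρ' - ρ := by linarith
  rw [KLc_fiber hp hq hac, mul_sum]
  have h1 := sum_cnd_fiber hp Z (fun z ω => if Pr q (fun ω => (X ω, Z ω)) (X ω, z) ≤ ρ * Pr q Z z ∧
        ρ' * Pr p Z z < Pr p (fun ω => (X ω, Z ω)) (X ω, z) then (1 : ℝ) else 0)
  refine h1.trans_le (sum_le_sum fun z hz => ?_)
  rw [mul_left_comm]
  rcases (Pr_nonneg hp Z z).eq_or_lt with h0 | h0
  · rw [← h0, zero_mul, zero_mul]
  refine mul_le_mul_of_nonneg_left ?_ h0.le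
  have hcp := cnd_isProb hp h0
  have hqz : 0 < Pr q Z z := by
    obtain ⟨ω, hω, h2⟩ : ∃ ω, Z ω = z ∧ 0 < p ω := by
      by_contra hcon
      push Not at hcon
      have : Pr p Z z = 0 := by
        unfold Pr
        refine sum_eq_zero fun ω _ => ?_
        split_ifs with h
        · exact le_antisymm (hcon ω h) (hp.nonneg ω)
        · rfl
      rw [this] at h0
      exact lt_irrefl _ h0
    rw [← hω]
    exact Pr_pos hq Z (hac ω h2)
  have hcq := cnd_isProb hq hqz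
  have hcac := AC_cnd hp hac Z z hqz
  have hKL := KL_nonneg hcp hcq hcac X
  by_cases hex : ∃ ω, 0 < cnd p Z z ω ∧ (Pr q (fun ω => (X ω, Z ω)) (X ω, z) ≤ ρ * Pr q Z z ∧
        ρ' * Pr p Z z < Pr p (fun ω => (X ω, Z ω)) (X ω, z))
  · obtain ⟨ω₀, -, h2, h3⟩ := hex
    have h4 : ∑ ω, cnd p Z z ω * (if Pr q (fun ω => (X ω, Z ω)) (X ω, z) ≤ ρ * Pr q Z z ∧
        ρ' * Pr p Z z < Pr p (fun ω => (X ω, Z ω)) (X ω, z) then (1 : ℝ) else 0) ≤ 1 := by
      refine le_trans (sum_le_sum fun ω _ => ?_) hcp.sum.le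
      split_ifs
      · rw [mul_one]
      · rw [mul_zero]
        exact hcp.nonneg ω
    have h5 : (ρ' - ρ) ^ 2 / 4 ≤ KL (cnd p Z z) (cnd q Z z) X := by
      refine sq_le_KL hcp hcq hcac X ω₀ hd.le ?_
      rw [Pr_cnd, Pr_cnd]
      have h6 : Pr q (fun ω => (X ω, Z ω)) (X ω₀, z) / Pr q Z z ≤ ρ := by
        rwa [div_le_iff₀ hqz]
      have h7 : ρ' ≤ Pr p (fun ω => (X ω, Z ω)) (X ω₀, z) / Pr p Z z := by
        rw [le_div_iff₀ h0]
        exact h3.le
      linarith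
    refine h4.trans ?_
    rw [div_mul_eq_mul_div, le_div_iff₀ (by positivity)]
    linarith
  · push Not at hex
    have h4 : ∑ ω, cnd p Z z ω * (if Pr q (fun ω => (X ω, Z ω)) (X ω, z) ≤ ρ * Pr q Z z ∧
        ρ' * Pr p Z z < Pr p (fun ω => (X ω, Z ω)) (X ω, z) then (1 : ℝ) else 0) = 0 := by
      refine sum_eq_zero fun ω _ => ?_
      rcases (hcp.nonneg ω).eq_or_lt with h5 | h5
      · rw [← h5, zero_mul]
      · rw [if_neg, mul_zero]
        rintro ⟨h6, h7⟩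
        exact absurd h7 (not_lt.2 (hex ω h5 h6))
    rw [h4]
    positivity

variable {κ : Type*} [Fintype κ] [Nonempty κ]

omit [Fintype Ω] in
lemma AC_lft {q : κ × Ω → ℝ} {ν : Ω → ℝ} {c : ℝ}
    (hc : 0 < c) (hle : ∀ t, q t ≤ c * ν t.2) : AC q (lft κ ν) := by
  intro t ht
  have h1 := ht.trans_le (hle t)
  have hcard : (0 : ℝ) < Fintype.card κ := Nat.cast_pos.mpr Fintype.card_pos
  exact div_pos (pos_of_mul_pos_right h1 hc.le) hcard

open Classical in
/-- **growth along the lines** under the auxiliary law -/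
theorem growth {q : κ × Ω → ℝ} {ν : Ω → ℝ} (hq : IsProb q) (hν : IsProb ν) {c : ℝ} (hc : 0 < c)
    (hle : ∀ t, q t ≤ c * ν t.2) (W : Ω → α) (ln : Ω → L) (N : ℕ)
    (hN : ∀ ω, 0 < ν ω → ((univ : Finset κ).filter fun k => ∃ ω', ln ω' = ln ω ∧ 0 < q (k, ω')).card
      ≤ N) {s : ℝ}
    (hs : ∀ t, 0 < q t → s ≤ - log (Pr ν (fun ω => (W ω, ln ω)) (W t.2, ln t.2) / Pr ν ln (ln t.2))) :
    s - log (c * N) ≤ Hc q (fun t => W t.2) (fun t => (t.1, ln t.2)) := by
  have hL := isProb_lft (κ := κ) hν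
  have hac := AC_lft (κ := κ) hc hle
  have h1 := transfer hq hν hc hle W ln N hN
  rw [KLc_eq_sum hq hL hac] at h1
  rw [Hc_eq_sum hq]
  have h2 : ∑ t, q t * s ≤ ∑ t, q t *
      (- log (Pr q (fun t => (W t.2, (t.1, ln t.2))) (W t.2, (t.1, ln t.2)) /
        Pr q (fun t => (t.1, ln t.2)) (t.1, ln t.2)) +
      log ((Pr q (fun t => (W t.2, (t.1, ln t.2))) (W t.2, (t.1, ln t.2)) /
        Pr q (fun t => (t.1, ln t.2)) (t.1, ln t.2)) /
        (Pr (lft κ ν) (fun t => (W t.2, (t.1, ln t.2))) (W t.2, (t.1, ln t.2)) /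
          Pr (lft κ ν) (fun t => (t.1, ln t.2)) (t.1, ln t.2)))) := by
    refine sum_le_sum fun t _ => ?_
    rcases (hq.nonneg t).eq_or_lt with h0 | h0
    · rw [← h0]; simp
    · refine mul_le_mul_of_nonneg_left ?_ h0.le
      have p1 := Pr_pos hq (fun t => (W t.2, (t.1, ln t.2))) h0
      have p2 := Pr_pos hq (fun t => (t.1, ln t.2)) h0
      have p3 := Pr_pos hL (fun t => (W t.2, (t.1, ln t.2))) (hac t h0)
      have p4 := Pr_pos hL (fun t => (t.1, ln t.2)) (hac t h0)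
      rw [log_div (div_pos p1 p2).ne' (div_pos p3 p4).ne',
        show ∀ a b : ℝ, -a + (a - b) = -b from fun a b => by ring]
      have e1 : Pr (lft κ ν) (fun t => (W t.2, (t.1, ln t.2))) (W t.2, (t.1, ln t.2)) =
          Pr ν (fun ω => (W ω, ln ω)) (W t.2, ln t.2) / Fintype.card κ := by
        rw [← Pr_lft ν (fun _ ω => (W ω, ln ω)) t.1 (W t.2, ln t.2)]
        unfold Pr
        refine sum_congr rfl fun t' _ => ?_
        have h5 : ((W t'.2, (t'.1, ln t'.2)) = (W t.2, (t.1, ln t.2))) ↔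
            ((t'.1, (W t'.2, ln t'.2)) = (t.1, (W t.2, ln t.2))) := by
          simp only [Prod.mk.injEq]
          tauto
        by_cases h6 : (W t'.2, (t'.1, ln t'.2)) = (W t.2, (t.1, ln t.2))
        · rw [if_pos h6, if_pos (h5.1 h6)]
        · rw [if_neg h6, if_neg (mt h5.2 h6)]
      have e2 : Pr (lft κ ν) (fun t => (t.1, ln t.2)) (t.1, ln t.2) =
          Pr ν ln (ln t.2) / Fintype.card κ := Pr_lft ν (fun _ => ln) t.1 (ln t.2)
      have hcard : (0 : ℝ) < Fintype.card κ := Nat.cast_pos.mpr Fintype.card_pos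
      rw [e1, e2, div_div_div_cancel_right₀ hcard.ne']
      exact hs t h0
  rw [← sum_mul, hq.sum, one_mul] at h2
  have h3 : ∑ t, q t *
      (- log (Pr q (fun t => (W t.2, (t.1, ln t.2))) (W t.2, (t.1, ln t.2)) /
        Pr q (fun t => (t.1, ln t.2)) (t.1, ln t.2)) +
      log ((Pr q (fun t => (W t.2, (t.1, ln t.2))) (W t.2, (t.1, ln t.2)) /
        Pr q (fun t => (t.1, ln t.2)) (t.1, ln t.2)) /
        (Pr (lft κ ν) (fun t => (W t.2, (t.1, ln t.2))) (W t.2, (t.1, ln t.2)) /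
          Pr (lft κ ν) (fun t => (t.1, ln t.2)) (t.1, ln t.2)))) =
      ∑ t, q t * (- log (Pr q (fun t => (W t.2, (t.1, ln t.2))) (W t.2, (t.1, ln t.2)) /
        Pr q (fun t => (t.1, ln t.2)) (t.1, ln t.2))) +
      ∑ t, q t * log ((Pr q (fun t => (W t.2, (t.1, ln t.2))) (W t.2, (t.1, ln t.2)) /
        Pr q (fun t => (t.1, ln t.2)) (t.1, ln t.2)) /
        (Pr (lft κ ν) (fun t => (W t.2, (t.1, ln t.2))) (W t.2, (t.1, ln t.2)) /
          Pr (lft κ ν) (fun t => (t.1, ln t.2)) (t.1, ln t.2))) := by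
    rw [← sum_add_distrib]
    exact sum_congr rfl fun t _ => mul_add _ _ _
  rw [h3] at h2
  linarith

open Classical in
/-- **transfer of the splitting of the blocks** -/
theorem bad_transfer {q : κ × Ω → ℝ} {ν : Ω → ℝ} (hq : IsProb q) (hν : IsProb ν) {c : ℝ}
    (hc : 0 < c) (hle : ∀ t, q t ≤ c * ν t.2) (W : ℕ → Ω → α) (hW : ∀ j, Det (W (j + 1)) (W j))
    (ln : Ω → L) (N : ℕ)
    (hN : ∀ ω, 0 < ν ω → ((univ : Finset κ).filter fun k => ∃ ω', ln ω' = ln ω ∧ 0 < q (k, ω')).card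
      ≤ N) (n : ℕ) {ρ ρ' : ℝ} (hρ : ρ < ρ') :
    ∑ t, q t * ∑ j ∈ range n,
      (if Pr ν (fun ω => (W (j + 1) ω, ln ω)) (W (j + 1) t.2, ln t.2) ≤
          ρ * Pr ν (fun ω => (W j ω, ln ω)) (W j t.2, ln t.2) ∧
        ρ' * Pr q (fun t => (W j t.2, (t.1, ln t.2))) (W j t.2, (t.1, ln t.2)) <
          Pr q (fun t => (W (j + 1) t.2, (t.1, ln t.2))) (W (j + 1) t.2, (t.1, ln t.2))
        then (1 : ℝ) else 0) ≤
      4 / (ρ' - ρ) ^ 2 * log (c * N) := by
  have hL := isProb_lft (κ := κ) hν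
  have hac := AC_lft (κ := κ) hc hle
  have hcard : (0 : ℝ) < Fintype.card κ := Nat.cast_pos.mpr Fintype.card_pos
  set Z : ℕ → κ × Ω → α × (κ × L) := fun j t => (W j t.2, (t.1, ln t.2)) with hZ
  have hZd : ∀ j, Det (Z (j + 1)) (Z j) := fun j t t' h => by
    simp only [hZ, Prod.mk.injEq] at h ⊢
    exact ⟨hW j _ _ h.1, h.2⟩
  have hstep : ∀ j, ∑ t, q t * (if Pr ν (fun ω => (W (j + 1) ω, ln ω)) (W (j + 1) t.2, ln t.2) ≤
          ρ * Pr ν (fun ω => (W j ω, ln ω)) (W j t.2, ln t.2) ∧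
        ρ' * Pr q (Z j) (Z j t) < Pr q (Z (j + 1)) (Z (j + 1) t) then (1 : ℝ) else 0) ≤
      4 / (ρ' - ρ) ^ 2 * KLc q (lft κ ν) (Z (j + 1)) (Z j) := by
    intro j
    refine le_trans (le_of_eq ?_) (bad_step hq hL hac (Z (j + 1)) (Z j) hρ)
    refine sum_congr rfl fun t _ => ?_
    have e0 : ∀ i, Pr (lft κ ν) (Z i) (Z i t) =
        Pr ν (fun ω => (W i ω, ln ω)) (W i t.2, ln t.2) / Fintype.card κ := by
      intro i
      rw [← Pr_lft ν (fun _ ω => (W i ω, ln ω)) t.1 (W i t.2, ln t.2)]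
      unfold Pr
      refine sum_congr rfl fun t' _ => ?_
      have h5 : (Z i t' = Z i t) ↔
          ((t'.1, (W i t'.2, ln t'.2)) = (t.1, (W i t.2, ln t.2))) := by
        simp only [hZ, Prod.mk.injEq]
        tauto
      by_cases h6 : Z i t' = Z i t
      · rw [if_pos h6, if_pos (h5.1 h6)]
      · rw [if_neg h6, if_neg (mt h5.2 h6)]
    have e1 : Pr (lft κ ν) (fun t => (Z (j + 1) t, Z j t)) (Z (j + 1) t, Z j t) =
        Pr (lft κ ν) (Z (j + 1)) (Z (j + 1) t) :=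
      Pr_congr (det_fst _ _) ((Det.refl _).pair (hZd j)) t
    have e2 : Pr q (fun t => (Z (j + 1) t, Z j t)) (Z (j + 1) t, Z j t) =
        Pr q (Z (j + 1)) (Z (j + 1) t) :=
      Pr_congr (det_fst _ _) ((Det.refl _).pair (hZd j)) t
    rw [e1, e2, e0, e0, mul_div_assoc']
    simp only [div_le_div_iff_of_pos_right hcard]
  have h1 : ∑ t, q t * ∑ j ∈ range n,
      (if Pr ν (fun ω => (W (j + 1) ω, ln ω)) (W (j + 1) t.2, ln t.2) ≤
          ρ * Pr ν (fun ω => (W j ω, ln ω)) (W j t.2, ln t.2) ∧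
        ρ' * Pr q (Z j) (Z j t) < Pr q (Z (j + 1)) (Z (j + 1) t) then (1 : ℝ) else 0) ≤
      ∑ j ∈ range n, 4 / (ρ' - ρ) ^ 2 * KLc q (lft κ ν) (Z (j + 1)) (Z j) := by
    have h2 : ∀ t, q t * ∑ j ∈ range n,
      (if Pr ν (fun ω => (W (j + 1) ω, ln ω)) (W (j + 1) t.2, ln t.2) ≤
          ρ * Pr ν (fun ω => (W j ω, ln ω)) (W j t.2, ln t.2) ∧
        ρ' * Pr q (Z j) (Z j t) < Pr q (Z (j + 1)) (Z (j + 1) t) then (1 : ℝ) else 0) =
      ∑ j ∈ range n, q t *
      (if Pr ν (fun ω => (W (j + 1) ω, ln ω)) (W (j + 1) t.2, ln t.2) ≤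
          ρ * Pr ν (fun ω => (W j ω, ln ω)) (W j t.2, ln t.2) ∧
        ρ' * Pr q (Z j) (Z j t) < Pr q (Z (j + 1)) (Z (j + 1) t) then (1 : ℝ) else 0) :=
      fun t => mul_sum _ _ _
    simp only [h2]
    rw [sum_comm]
    exact sum_le_sum fun j _ => hstep j
  refine h1.trans ?_
  rw [← mul_sum]
  refine mul_le_mul_of_nonneg_left ?_ (by positivity)
  rw [sum_KLc_filtration Z hZd n]
  have h3 := transfer hq hν hc hle (W n) ln N hN
  have h4 : KLc q (lft κ ν) (fun t => W n t.2) (fun t => (t.1, ln t.2)) =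
      KL q (lft κ ν) (Z n) - KL q (lft κ ν) (fun t => (t.1, ln t.2)) := rfl
  have h5 := KL_mono hq hL hac (det_snd (fun t : κ × Ω => W 0 t.2) (fun t => (t.1, ln t.2)))
  have h6 : KL q (lft κ ν) (fun t => (W 0 t.2, (t.1, ln t.2))) = KL q (lft κ ν) (Z 0) := rfl
  linarith

end Vale.Agent.P065.H353
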