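import Vale.Agent.P065.H268.TimeAvg
import Vale.Agent.P065.H268.TimePull
import Vale.Agent.P065.H353.KraftGeo
import Vale.Agent.P065.H353.Transfer
import Vale.Agent.P065.H353.Guard2
import Vale.Agent.P065.H353.Mixed

/-!
# P065, package BOOK: the final bookkeeping theorem (helper353)

`Q` and `q` are laws on pairs (column, flag) with the same law of the fine box `rb`. The growth of
the rows (`mend`) is at least the growth of the time entropy along the lines (`G₀`), up to errors.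
-/

set_option autoImplicit false

open Finset Real

noncomputable section

namespace Vale.Agent.P065.H353

open Vale.Agent.P065.Ent Vale.Agent.P065.H268

section same

variable {Ω : Type*} [Fintype Ω] {α β γ : Type*} {Q q : Ω → ℝ} {rb : Ω → α}

/-- expectations of functions of `rb` agree -/
lemma sum_same (h : ∀ x, Pr q rb x = Pr Q rb x) {f : Ω → ℝ} (hf : Det rb f) :
    ∑ ω, q ω * f ω = ∑ ω, Q ω * f ω := by
  classical
  rcases isEmpty_or_nonempty Ω with hΩ | ⟨⟨ω₀⟩⟩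
  · simp
  let g : α → ℝ := fun x => if hx : ∃ ω, rb ω = x then f hx.choose else f ω₀
  have hg : ∀ ω, f ω = g (rb ω) := by
    intro ω
    have hx : ∃ ω', rb ω' = rb ω := ⟨ω, rfl⟩
    have h1 : g (rb ω) = f hx.choose := dif_pos hx
    rw [h1]
    exact (hf _ _ hx.choose_spec).symm
  simp only [hg]
  rw [sum_fiber q rb g, sum_fiber Q rb g]
  exact sum_congr rfl fun x _ => by rw [h x]

lemma Pr_same (h : ∀ x, Pr q rb x = Pr Q rb x) {X : Ω → β} (hX : Det rb X) (x : β) :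
    Pr q X x = Pr Q X x := by
  classical
  have h1 := sum_same h (f := fun ω => if X ω = x then 1 else 0)
    (fun ω ω' e => by simp only [hX ω ω' e])
  have h2 : ∀ (p : Ω → ℝ), Pr p X x = ∑ ω, p ω * (if X ω = x then 1 else 0) := by
    intro p
    unfold Pr
    refine sum_congr rfl fun ω _ => ?_
    by_cases hx : X ω = x
    · rw [if_pos hx, if_pos hx, mul_one]
    · rw [if_neg hx, if_neg hx, mul_zero]
  rw [h2, h2]
  exact h1

lemma H_same (h : ∀ x, Pr q rb x = Pr Q rb x) {X : Ω → β} (hX : Det rb X) :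
    H q X = H Q X := by
  unfold H
  simp only [Pr_same h hX]
  exact sum_same h fun ω ω' e => by simp only [hX ω ω' e]

lemma Hc_same (h : ∀ x, Pr q rb x = Pr Q rb x) {X : Ω → β} {Z : Ω → γ} (hX : Det rb X)
    (hZ : Det rb Z) : Hc q X Z = Hc Q X Z := by
  unfold Hc
  rw [H_same h (hX.pair hZ), H_same h hZ]

end same

variable {Ω κ : Type*} [Fintype Ω] [Fintype κ] [Nonempty κ] {α β β' L : Type*}

omit [Fintype Ω] [Fintype κ] [Nonempty κ] in
lemma det_le {R : ℕ → κ × Ω → β} (hR : ∀ t, Det (R (t + 1)) (R t)) {s t : ℕ} (h : s ≤ t) :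
    Det (R t) (R s) := by
  induction t, h using Nat.le_induction with
  | base => exact Det.refl _
  | succ n _ ih => exact (hR n).trans ih

open Classical in
/-- **the bookkeeping theorem**. Boxes `R` for the entropy identities, boxes `R'` for the account
of the lines, any kernel `kap` on the boxes `R'` of the lines. -/
theorem book_ker (P : Pcs Ω) {Q q : κ × Ω → ℝ} (hQ : IsProb Q) (hq : IsProb q) (rb : κ × Ω → α)
    (hsame : ∀ x, Pr q rb x = Pr Q rb x) (ln : Ω → L) (R : ℕ → κ × Ω → β)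
    (hR : ∀ t, Det (R (t + 1)) (R t)) (hRD : ∀ t, Det (R t) (fun p => P.D t p.2))
    (hRc : Det (R 0) (fun p : κ × Ω => p.1)) (hRr : Det rb (R P.T))
    (R' : ℕ → κ × Ω → β') (hR' : ∀ t, Det (R' (t + 1)) (R' t))
    (hRD' : ∀ t, Det (R' t) (fun p => P.D t p.2))
    -- the pieces
    (n : ℕ) (hWr : Det rb (fun p => P.W n p.2)) (hx : ∀ ω ω', P.W n ω = P.W n ω' → P.x ω = P.x ω')
    (hW0 : ∀ ω ω', P.W 0 ω = P.W 0 ω') {B L₀ : ℕ} (hB0 : 0 < B)
    (hB : ∀ j < n, ∀ ω, (lbl P j ω).card ≤ B) (hL₀ : log (9 * B) ≤ L₀ * log 2)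
    -- thick boxes and the constants of the cover lemma
    (th : ℕ → κ × Ω → Prop) (hth : ∀ t p p', R' t p = R' t p' → th t p → th t p')
    {ρ : ℝ} (hρ : 0 ≤ ρ) (hρ1 : ρ ≤ 1) (g₀ A₀ M : ℕ) (hM : g₀ + L₀ * (2 + A₀) ≤ M + 1)
    {c : ℝ} (hc : 0 < c) {ζ : ℝ} (hζ : ∑ i ∈ Icc A₀ n, 2 * (i : ℝ) * (exp c * ρ) ^ i ≤ ζ)
    -- the kernel
    {kap : ℕ → κ × Ω → ℝ} (hkap : Avg.Ker q (fun p => (p.1, ln p.2)) R' kap)
    -- inputs
    {G₀ mend err near lam bad thin thk r₀ : ℝ} (cov : κ × Ω → ℝ) (hcov : Det rb cov)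
    (hG : G₀ ≤ Hc q (fun p => P.W n p.2) (fun p => (p.1, ln p.2)))
    (hmend : Hc Q (R P.T) (fun p => (P.D P.T p.2, p.1)) ≤ mend)
    (hrows : log 2 * ∑ p, Q p * cov p - err ≤
      ∑ t ∈ range P.T, Hc Q (R (t + 1)) (fun p => (P.D (t + 1) p.2, R t p)))
    (hnear : ∑ p, q p * #(Cov (P.pull (Prod.snd : κ × Ω → Ω)) th M p) ≤ ∑ p, q p * cov p + near)
    (hlam : ∑ t ∈ range P.T, Hc q (R (t + 1))
      (fun p => ((P.D (t + 1) p.2, R t p), (p.1, ln p.2))) ≤ lam)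
    (hbad : ∑ p, q p * #{j ∈ range n | g₀ ≤ P.tm j p.2 ∧
      ¬ Good (P.pull (Prod.snd : κ × Ω → Ω)) q (fun p => (p.1, ln p.2)) R' ρ g₀ j p} ≤ bad)
    (hthin : ∑ p, q p * ∑ t ∈ range P.T with ¬ th t p, -log (kap t p) ≤ thin)
    (hthk : ∑ p, q p * #{t ∈ range P.T | th t p} ≤ thk)
    (hr₀ : Hc q (R 0) (fun p => (p.1, ln p.2)) ≤ r₀) :
    G₀ ≤ mend + err + lam + r₀ + n * log 36 + log 9 + log 2 * (near + L₀ * bad +
      L₀ * (c⁻¹ * thin + ζ * (1 + thk)) + (g₀ + L₀ * (2 + A₀))) := by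
  have hlog2 : 0 < log 2 := log_pos (by norm_num)
  have hRcol : ∀ t, Det (R t) (fun p : κ × Ω => p.1) := fun t =>
    (det_le hR (Nat.zero_le t)).trans hRc
  have hRr' : ∀ t, t ≤ P.T → Det rb (R t) := fun t ht => hRr.trans (det_le hR ht)
  have hDr : ∀ t, t ≤ P.T → Det rb (fun p => P.D t p.2) := fun t ht => (hRr' t ht).trans (hRD t)
  -- 1. the M-identity
  have h1 : ∑ t ∈ range P.T, Hc Q (fun p => P.D (t + 1) p.2) (R t) +
      ∑ t ∈ range P.T, Hc Q (R (t + 1)) (fun p => (P.D (t + 1) p.2, R t p)) ≤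
      Hc Q (fun p => P.D P.T p.2) (fun p => p.1) + mend := by
    have e1 : ∀ t, Hc Q (fun p => P.D (t + 1) p.2) (R t) +
        Hc Q (R (t + 1)) (fun p => (P.D (t + 1) p.2, R t p)) = H Q (R (t + 1)) - H Q (R t) := by
      intro t
      have f1 := Hc_pair Q (R (t + 1)) (fun p => P.D (t + 1) p.2) (R t)
      have f2 : Hc Q (fun p => (R (t + 1) p, P.D (t + 1) p.2)) (R t) =
          H Q (R (t + 1)) - H Q (R t) :=
        Hc_eq ((Det.refl _).pair (hRD (t + 1))) (hR t)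
          ((det_fst _ _).trans (det_fst _ _))
      linarith
    have e2 : ∑ t ∈ range P.T, Hc Q (fun p => P.D (t + 1) p.2) (R t) +
      ∑ t ∈ range P.T, Hc Q (R (t + 1)) (fun p => (P.D (t + 1) p.2, R t p)) =
        H Q (R P.T) - H Q (R 0) := by
      rw [← sum_add_distrib, sum_congr rfl fun t _ => e1 t]
      exact sum_range_sub (fun t => H Q (R t)) P.T
    have e3 : H Q (R P.T) = H Q (fun p : κ × Ω => p.1) +
        Hc Q (fun p => P.D P.T p.2) (fun p => p.1) +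
        Hc Q (R P.T) (fun p => (P.D P.T p.2, p.1)) := by
      have f1 : Hc Q (R P.T) (fun p => (P.D P.T p.2, p.1)) =
          H Q (R P.T) - H Q (fun p => (P.D P.T p.2, p.1)) :=
        Hc_eq (Det.refl _) ((hRD P.T).pair (hRcol P.T)) (det_fst _ _)
      have f2 := H_pair Q (fun p : κ × Ω => P.D P.T p.2) (fun p => p.1)
      linarith
    have e4 : H Q (fun p : κ × Ω => p.1) ≤ H Q (R 0) := H_mono hQ hRc
    linarith
  -- 2. time entropy along the lines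
  have h2 : G₀ - lam - r₀ ≤ ∑ t ∈ range P.T, Hc Q (fun p => P.D (t + 1) p.2) (R t) := by
    set Y : κ × Ω → κ × L := fun p => (p.1, ln p.2) with hY
    have e1 : ∀ t ∈ range P.T, Hc q (fun p => P.D (t + 1) p.2) (fun p => (R t p, Y p)) ≤
        Hc Q (fun p => P.D (t + 1) p.2) (R t) := by
      intro t ht
      have ht' := mem_range.1 ht
      rw [← Hc_same hsame (hDr (t + 1) ht') (hRr' t ht'.le)]
      exact Hc_anti hq _ (det_fst _ _)
    have e2 : ∀ t, Hc q (fun p => P.D (t + 1) p.2) (fun p => (R t p, Y p)) +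
        Hc q (R (t + 1)) (fun p => ((P.D (t + 1) p.2, R t p), Y p)) =
        H q (fun p => (R (t + 1) p, Y p)) - H q (fun p => (R t p, Y p)) := by
      intro t
      have f1 : Hc q (fun p => P.D (t + 1) p.2) (fun p => (R t p, Y p)) =
          H q (fun p => ((P.D (t + 1) p.2, R t p), Y p)) - H q (fun p => (R t p, Y p)) := by
        refine Hc_eq ?_ ?_ ?_
        · exact (det_fst _ _).trans (det_fst _ _)
        · exact ((det_fst _ _).trans (det_snd _ _)).pair (det_snd _ _)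
        · exact ((det_fst _ _).pair ((det_snd _ _).trans (det_fst _ _))).pair
            ((det_snd _ _).trans (det_snd _ _))
      have f2 : Hc q (R (t + 1)) (fun p => ((P.D (t + 1) p.2, R t p), Y p)) =
          H q (fun p => (R (t + 1) p, Y p)) - H q (fun p => ((P.D (t + 1) p.2, R t p), Y p)) := by
        refine Hc_eq (det_fst _ _) ?_ ?_
        · exact (((det_fst _ _).trans (hRD (t + 1))).pair ((det_fst _ _).trans (hR t))).pair
            (det_snd _ _)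
        · exact (det_fst _ _).pair ((det_snd _ _).trans (det_snd _ _))
      rw [f1, f2]; ring
    have e3 : ∑ t ∈ range P.T, Hc q (fun p => P.D (t + 1) p.2) (fun p => (R t p, Y p)) +
        ∑ t ∈ range P.T, Hc q (R (t + 1)) (fun p => ((P.D (t + 1) p.2, R t p), Y p)) =
        H q (fun p => (R P.T p, Y p)) - H q (fun p => (R 0 p, Y p)) := by
      rw [← sum_add_distrib, sum_congr rfl fun t _ => e2 t]
      exact sum_range_sub (fun t => H q (fun p => (R t p, Y p))) P.T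
    have e4 : H q (fun p => (P.W n p.2, Y p)) ≤ H q (fun p => (R P.T p, Y p)) := by
      refine H_mono hq (((det_fst _ _).trans ((hRD P.T).trans ?_)).pair (det_snd _ _))
      intro p p' h
      exact P.W_eq_of_x (P.x_eq_of_D h)
    have e5 : H q (fun p => (R 0 p, Y p)) = H q Y + Hc q (R 0) Y := H_pair q (R 0) Y
    have e6 : H q (fun p => (P.W n p.2, Y p)) = H q Y + Hc q (fun p => P.W n p.2) Y :=
      H_pair q (fun p => P.W n p.2) Y
    have e7 := sum_le_sum e1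
    linarith
  -- 3. the code of the blocks
  have h3 : Hc Q (fun p => P.D P.T p.2) (fun p => p.1) ≤
      log 2 * ∑ p, q p * ∑ j ∈ range n, min (L₀ : ℝ) ((P.tm (j + 1) p.2 : ℝ) - P.tm j p.2) +
        n * log 36 + log 9 := by
    have e1 := kraft_win (ν := Q) P hQ (Prod.snd : κ × Ω → Ω) (Prod.fst : κ × Ω → κ) n hB0 hB
      (fun p => P.D P.T p.2) (fun p p' h => by
        have h' : P.x p.2 = P.x p'.2 := hx _ _ h
        show ⌊(2 : ℝ) ^ P.T * P.x p.2⌋ = ⌊(2 : ℝ) ^ P.T * P.x p'.2⌋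
        rw [h'])
    have e2 : Hc Q (fun p => P.D P.T p.2) (fun p => p.1) =
        Hc Q (fun p => P.D P.T p.2) (fun p : κ × Ω => (P.W 0 p.2, p.1)) :=
      Hc_congr (Det.refl _) (Det.refl _)
        ((fun p p' (h : p.1 = p'.1) => Prod.ext (hW0 _ _) h)) (det_snd _ _)
    rw [e2]
    refine e1.trans ?_
    have e3 : ∑ p, Q p * ∑ j ∈ range n,
        min (((P.tm (j + 1) p.2 : ℝ) - P.tm j p.2) * log 2) (log (9 * B)) ≤
        ∑ p, Q p * (log 2 * ∑ j ∈ range n, min (L₀ : ℝ) ((P.tm (j + 1) p.2 : ℝ) - P.tm j p.2)) := by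
      refine sum_le_sum fun p _ => mul_le_mul_of_nonneg_left ?_ (hQ.nonneg p)
      rw [mul_sum]
      refine sum_le_sum fun j _ => ?_
      rw [mul_min_of_nonneg _ _ hlog2.le, min_comm]
      refine min_le_min ?_ ?_
      · rw [mul_comm (log 2)]
        exact hL₀
      · rw [mul_comm]
    have e4 : ∑ p, Q p * (log 2 * ∑ j ∈ range n,
        min (L₀ : ℝ) ((P.tm (j + 1) p.2 : ℝ) - P.tm j p.2)) =
        log 2 * ∑ p, q p * ∑ j ∈ range n, min (L₀ : ℝ) ((P.tm (j + 1) p.2 : ℝ) - P.tm j p.2) := by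
      have f1 : ∀ p, Q p * (log 2 * ∑ j ∈ range n,
          min (L₀ : ℝ) ((P.tm (j + 1) p.2 : ℝ) - P.tm j p.2)) =
          log 2 * (Q p * ∑ j ∈ range n,
            min (L₀ : ℝ) ((P.tm (j + 1) p.2 : ℝ) - P.tm j p.2)) := fun p => by ring
      rw [sum_congr rfl fun p _ => f1 p, ← mul_sum]
      congr 1
      symm
      refine sum_same hsame (f := fun p => ∑ j ∈ range n,
          min (L₀ : ℝ) ((P.tm (j + 1) p.2 : ℝ) - P.tm j p.2)) ?_
      intro p p' h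
      refine sum_congr rfl fun j hj => ?_
      have hj' := mem_range.1 hj
      have hW := hWr p p' h
      rw [P.tm_congr (P.nest_le (show j ≤ n by omega) hW),
        P.tm_congr (P.nest_le (show j + 1 ≤ n by omega) hW)]
    linarith
  -- 4. the time account
  have hsurj : Function.Surjective (Prod.snd : κ × Ω → Ω) := Prod.snd_surjective
  have h4 := time_account_ker (P.pull (Prod.snd : κ × Ω → Ω)) hq (fun p => (p.1, ln p.2)) R' hRD'
    hR' th hth hkap hρ hρ1 g₀ n A₀ L₀ M hM hc hζ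
  simp only [Pcs.pull_T, P.pull_tm hsurj] at h4
  have hL₀0 : (0 : ℝ) ≤ L₀ := Nat.cast_nonneg _
  have hc0 : 0 ≤ c⁻¹ := by positivity
  have hζ0 : 0 ≤ ζ := le_trans (sum_nonneg fun i _ => by positivity) hζ
  have e1 : (L₀ : ℝ) * ∑ p, q p * #{j ∈ range n | g₀ ≤ P.tm j p.2 ∧
      ¬ Good (P.pull (Prod.snd : κ × Ω → Ω)) q (fun p => (p.1, ln p.2)) R' ρ g₀ j p} ≤ L₀ * bad :=
    mul_le_mul_of_nonneg_left hbad hL₀0
  have e2 : c⁻¹ * ∑ p, q p * ∑ t ∈ range P.T with ¬ th t p, -log (kap t p) ≤ c⁻¹ * thin :=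
    mul_le_mul_of_nonneg_left hthin hc0
  have e3 : ζ * (1 + ∑ p, q p * #{t ∈ range P.T | th t p}) ≤ ζ * (1 + thk) :=
    mul_le_mul_of_nonneg_left (by linarith) hζ0
  have e4 := mul_le_mul_of_nonneg_left (add_le_add e2 e3) hL₀0
  have e5 : ∑ p, q p * cov p = ∑ p, Q p * cov p := sum_same hsame hcov
  have h5 : ∑ p, q p * ∑ j ∈ range n, min (L₀ : ℝ) ((P.tm (j + 1) p.2 : ℝ) - P.tm j p.2) ≤
      ∑ p, Q p * cov p + (near + L₀ * bad + L₀ * (c⁻¹ * thin + ζ * (1 + thk)) +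
        (g₀ + L₀ * (2 + A₀))) := by
    linarith
  have h6 := mul_le_mul_of_nonneg_left h5 hlog2.le
  rw [mul_add] at h6
  linarith

open Classical in
/-- **the bookkeeping theorem**, a kernel `kap * kb` (time step and guard step) -/
theorem book_kb
    (P : Pcs Ω) {Q q : κ × Ω → ℝ} (hQ : IsProb Q) (hq : IsProb q) (rb : κ × Ω → α)
    (hsame : ∀ x, Pr q rb x = Pr Q rb x) (ln : Ω → L) (R : ℕ → κ × Ω → β)
    (hR : ∀ t, Det (R (t + 1)) (R t)) (hRD : ∀ t, Det (R t) (fun p => P.D t p.2))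
    (hRc : Det (R 0) (fun p : κ × Ω => p.1)) (hRr : Det rb (R P.T))
    (R' : ℕ → κ × Ω → β') (hR' : ∀ t, Det (R' (t + 1)) (R' t))
    (hRD' : ∀ t, Det (R' t) (fun p => P.D t p.2))
    -- the pieces
    (n : ℕ) (hWr : Det rb (fun p => P.W n p.2)) (hx : ∀ ω ω', P.W n ω = P.W n ω' → P.x ω = P.x ω')
    (hW0 : ∀ ω ω', P.W 0 ω = P.W 0 ω') {B L₀ : ℕ} (hB0 : 0 < B)
    (hB : ∀ j < n, ∀ ω, (lbl P j ω).card ≤ B) (hL₀ : log (9 * B) ≤ L₀ * log 2)
    -- thick boxes and the constants of the cover lemma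
    (th : ℕ → κ × Ω → Prop) (hth : ∀ t p p', R' t p = R' t p' → th t p → th t p')
    {ρ : ℝ} (hρ : 0 ≤ ρ) (hρ1 : ρ ≤ 1) (g₀ A₀ M : ℕ) (hM : g₀ + L₀ * (2 + A₀) ≤ M + 1)
    {c : ℝ} (hc : 0 < c) {ζ : ℝ} (hζ : ∑ i ∈ Icc A₀ n, 2 * (i : ℝ) * (exp c * ρ) ^ i ≤ ζ)
    -- the kernel
    {kap : ℕ → κ × Ω → ℝ} (hkap : Avg.Ker q (fun p => (p.1, ln p.2)) R' (fun t p => kap t p *
      Avg.kb (P.pull (Prod.snd : κ × Ω → Ω)) q (fun p => (p.1, ln p.2)) R' t p))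
    (hpos : ∀ t p, 0 < q p → 0 < kap t p)
    -- inputs
    {G₀ mend err near lam lam' bad thin thk r₀ : ℝ} (cov : κ × Ω → ℝ) (hcov : Det rb cov)
    (hG : G₀ ≤ Hc q (fun p => P.W n p.2) (fun p => (p.1, ln p.2)))
    (hmend : Hc Q (R P.T) (fun p => (P.D P.T p.2, p.1)) ≤ mend)
    (hrows : log 2 * ∑ p, Q p * cov p - err ≤
      ∑ t ∈ range P.T, Hc Q (R (t + 1)) (fun p => (P.D (t + 1) p.2, R t p)))
    (hnear : ∑ p, q p * #(Cov (P.pull (Prod.snd : κ × Ω → Ω)) th M p) ≤ ∑ p, q p * cov p + near)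
    (hlam : ∑ t ∈ range P.T, Hc q (R (t + 1))
      (fun p => ((P.D (t + 1) p.2, R t p), (p.1, ln p.2))) ≤ lam)
    (hlam' : ∑ t ∈ range P.T, Hc q (R' (t + 1))
      (fun p => ((P.D (t + 1) p.2, R' t p), (p.1, ln p.2))) ≤ lam')
    (hbad : ∑ p, q p * #{j ∈ range n | g₀ ≤ P.tm j p.2 ∧
      ¬ Good (P.pull (Prod.snd : κ × Ω → Ω)) q (fun p => (p.1, ln p.2)) R' ρ g₀ j p} ≤ bad)
    (hthin : ∑ p, q p * ∑ t ∈ range P.T with ¬ th t p, -log (kap t p) ≤ thin)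
    (hthk : ∑ p, q p * #{t ∈ range P.T | th t p} ≤ thk)
    (hr₀ : Hc q (R 0) (fun p => (p.1, ln p.2)) ≤ r₀) :
    G₀ ≤ mend + err + lam + r₀ + n * log 36 + log 9 + log 2 * (near + L₀ * bad +
      L₀ * (c⁻¹ * (thin + lam') + ζ * (1 + thk)) + (g₀ + L₀ * (2 + A₀))) :=
  book_ker P hQ hq rb hsame ln R hR hRD hRc hRr R' hR' hRD' n hWr hx hW0 hB0 hB hL₀ th hth hρ hρ1
    g₀ A₀ M hM hc hζ hkap cov hcov hG hmend hrows hnear hlam hbad
    ((surprise_le (P := P.pull (Prod.snd : κ × Ω → Ω)) (Y := fun p : κ × Ω => (p.1, ln p.2)) hq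
      hRD' hR' th hpos P.T).trans (add_le_add hthin hlam')) hthk hr₀

open Classical in
/-- **the bookkeeping theorem**, mixed form: on the boxes of the lines with `Mx` the kernel of the
line, on the others the kernel of the box -/
theorem book_mix
    (P : Pcs Ω) {Q q : κ × Ω → ℝ} (hQ : IsProb Q) (hq : IsProb q) (rb : κ × Ω → α)
    (hsame : ∀ x, Pr q rb x = Pr Q rb x) (ln : Ω → L) (R : ℕ → κ × Ω → β)
    (hR : ∀ t, Det (R (t + 1)) (R t)) (hRD : ∀ t, Det (R t) (fun p => P.D t p.2))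
    (hRc : Det (R 0) (fun p : κ × Ω => p.1)) (hRr : Det rb (R P.T))
    (R' : ℕ → κ × Ω → β') (hR' : ∀ t, Det (R' (t + 1)) (R' t))
    (hRD' : ∀ t, Det (R' t) (fun p => P.D t p.2))
    -- the pieces
    (n : ℕ) (hWr : Det rb (fun p => P.W n p.2)) (hx : ∀ ω ω', P.W n ω = P.W n ω' → P.x ω = P.x ω')
    (hW0 : ∀ ω ω', P.W 0 ω = P.W 0 ω') {B L₀ : ℕ} (hB0 : 0 < B)
    (hB : ∀ j < n, ∀ ω, (lbl P j ω).card ≤ B) (hL₀ : log (9 * B) ≤ L₀ * log 2)
    -- thick boxes and the constants of the cover lemma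
    (th : ℕ → κ × Ω → Prop) (hth : ∀ t p p', R' t p = R' t p' → th t p → th t p')
    {ρ : ℝ} (hρ : 0 ≤ ρ) (hρ1 : ρ ≤ 1) (g₀ A₀ M : ℕ) (hM : g₀ + L₀ * (2 + A₀) ≤ M + 1)
    {c : ℝ} (hc : 0 < c) {ζ : ℝ} (hζ : ∑ i ∈ Icc A₀ n, 2 * (i : ℝ) * (exp c * ρ) ^ i ≤ ζ)
    -- the choice of the kernel
    (Mx : ℕ → κ × Ω → Prop)
    (hMx : ∀ t p p', R' t p = R' t p' → p.1 = p'.1 → ln p.2 = ln p'.2 → Mx t p → Mx t p')
    -- inputs
    {G₀ mend err near lam lam' bad thin thk r₀ : ℝ} (cov : κ × Ω → ℝ) (hcov : Det rb cov)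
    (hG : G₀ ≤ Hc q (fun p => P.W n p.2) (fun p => (p.1, ln p.2)))
    (hmend : Hc Q (R P.T) (fun p => (P.D P.T p.2, p.1)) ≤ mend)
    (hrows : log 2 * ∑ p, Q p * cov p - err ≤
      ∑ t ∈ range P.T, Hc Q (R (t + 1)) (fun p => (P.D (t + 1) p.2, R t p)))
    (hnear : ∑ p, q p * #(Cov (P.pull (Prod.snd : κ × Ω → Ω)) th M p) ≤ ∑ p, q p * cov p + near)
    (hlam : ∑ t ∈ range P.T, Hc q (R (t + 1))
      (fun p => ((P.D (t + 1) p.2, R t p), (p.1, ln p.2))) ≤ lam)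
    (hlam' : ∑ t ∈ range P.T, Hc q (R' (t + 1))
      (fun p => ((P.D (t + 1) p.2, R' t p), (p.1, ln p.2))) ≤ lam')
    (hbad : ∑ p, q p * #{j ∈ range n | g₀ ≤ P.tm j p.2 ∧
      ¬ Good (P.pull (Prod.snd : κ × Ω → Ω)) q (fun p => (p.1, ln p.2)) R' ρ g₀ j p} ≤ bad)
    (hthin : ∑ p, q p * ∑ t ∈ range P.T with ¬ th t p,
      -log (if Mx t p then kt (P.pull (Prod.snd : κ × Ω → Ω)) q (fun p => (p.1, ln p.2)) R' t p
        else Avg.ka (P.pull (Prod.snd : κ × Ω → Ω)) q R' t p) ≤ thin)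
    (hthk : ∑ p, q p * #{t ∈ range P.T | th t p} ≤ thk)
    (hr₀ : Hc q (R 0) (fun p => (p.1, ln p.2)) ≤ r₀) :
    G₀ ≤ mend + err + lam + r₀ + n * log 36 + log 9 + log 2 * (near + L₀ * bad +
      L₀ * (c⁻¹ * (thin + lam') + ζ * (1 + thk)) + (g₀ + L₀ * (2 + A₀))) := by
  have hker := ker_mixed (P := P.pull (Prod.snd : κ × Ω → Ω)) (Y := fun p : κ × Ω => (p.1, ln p.2))
    hq hRD' hR' Mx (fun t p p' e1 e2 => hMx t p p' e1 (Prod.mk.inj e2).1 (Prod.mk.inj e2).2)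
  refine book_kb P hQ hq rb hsame ln R hR hRD hRc hRr R' hR' hRD' n hWr hx hW0 hB0 hB hL₀ th hth
    hρ hρ1 g₀ A₀ M hM hc hζ hker ?_ cov hcov hG hmend hrows hnear hlam hlam' hbad hthin hthk hr₀
  intro t p hp
  split_ifs
  · exact kt_pos hq t hp
  · exact Avg.ka_pos hq t hp

open Classical in
/-- **the bookkeeping theorem**, convex combination `s kt + (1 - s) ka` of the kernel of the line
and the kernel of the box -/
theorem book_conv
    (P : Pcs Ω) {Q q : κ × Ω → ℝ} (hQ : IsProb Q) (hq : IsProb q) (rb : κ × Ω → α)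
    (hsame : ∀ x, Pr q rb x = Pr Q rb x) (ln : Ω → L) (R : ℕ → κ × Ω → β)
    (hR : ∀ t, Det (R (t + 1)) (R t)) (hRD : ∀ t, Det (R t) (fun p => P.D t p.2))
    (hRc : Det (R 0) (fun p : κ × Ω => p.1)) (hRr : Det rb (R P.T))
    (R' : ℕ → κ × Ω → β') (hR' : ∀ t, Det (R' (t + 1)) (R' t))
    (hRD' : ∀ t, Det (R' t) (fun p => P.D t p.2))
    -- the pieces
    (n : ℕ) (hWr : Det rb (fun p => P.W n p.2)) (hx : ∀ ω ω', P.W n ω = P.W n ω' → P.x ω = P.x ω')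
    (hW0 : ∀ ω ω', P.W 0 ω = P.W 0 ω') {B L₀ : ℕ} (hB0 : 0 < B)
    (hB : ∀ j < n, ∀ ω, (lbl P j ω).card ≤ B) (hL₀ : log (9 * B) ≤ L₀ * log 2)
    -- thick boxes and the constants of the cover lemma
    (th : ℕ → κ × Ω → Prop) (hth : ∀ t p p', R' t p = R' t p' → th t p → th t p')
    {ρ : ℝ} (hρ : 0 ≤ ρ) (hρ1 : ρ ≤ 1) (g₀ A₀ M : ℕ) (hM : g₀ + L₀ * (2 + A₀) ≤ M + 1)
    {c : ℝ} (hc : 0 < c) {ζ : ℝ} (hζ : ∑ i ∈ Icc A₀ n, 2 * (i : ℝ) * (exp c * ρ) ^ i ≤ ζ)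
    -- the choice of the kernel
    (s : ℕ → κ × Ω → ℝ)
    (hs : ∀ t p p', R' t p = R' t p' → p.1 = p'.1 → ln p.2 = ln p'.2 → s t p = s t p')
    (hs0 : ∀ t p, 0 ≤ s t p) (hs1 : ∀ t p, s t p ≤ 1)
    -- inputs
    {G₀ mend err near lam lam' bad thin thk r₀ : ℝ} (cov : κ × Ω → ℝ) (hcov : Det rb cov)
    (hG : G₀ ≤ Hc q (fun p => P.W n p.2) (fun p => (p.1, ln p.2)))
    (hmend : Hc Q (R P.T) (fun p => (P.D P.T p.2, p.1)) ≤ mend)
    (hrows : log 2 * ∑ p, Q p * cov p - err ≤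
      ∑ t ∈ range P.T, Hc Q (R (t + 1)) (fun p => (P.D (t + 1) p.2, R t p)))
    (hnear : ∑ p, q p * #(Cov (P.pull (Prod.snd : κ × Ω → Ω)) th M p) ≤ ∑ p, q p * cov p + near)
    (hlam : ∑ t ∈ range P.T, Hc q (R (t + 1))
      (fun p => ((P.D (t + 1) p.2, R t p), (p.1, ln p.2))) ≤ lam)
    (hlam' : ∑ t ∈ range P.T, Hc q (R' (t + 1))
      (fun p => ((P.D (t + 1) p.2, R' t p), (p.1, ln p.2))) ≤ lam')
    (hbad : ∑ p, q p * #{j ∈ range n | g₀ ≤ P.tm j p.2 ∧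
      ¬ Good (P.pull (Prod.snd : κ × Ω → Ω)) q (fun p => (p.1, ln p.2)) R' ρ g₀ j p} ≤ bad)
    (hthin : ∑ p, q p * ∑ t ∈ range P.T with ¬ th t p,
      -log (s t p * kt (P.pull (Prod.snd : κ × Ω → Ω)) q (fun p => (p.1, ln p.2)) R' t p +
        (1 - s t p) * Avg.ka (P.pull (Prod.snd : κ × Ω → Ω)) q R' t p) ≤ thin)
    (hthk : ∑ p, q p * #{t ∈ range P.T | th t p} ≤ thk)
    (hr₀ : Hc q (R 0) (fun p => (p.1, ln p.2)) ≤ r₀) :
    G₀ ≤ mend + err + lam + r₀ + n * log 36 + log 9 + log 2 * (near + L₀ * bad +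
      L₀ * (c⁻¹ * (thin + lam') + ζ * (1 + thk)) + (g₀ + L₀ * (2 + A₀))) := by
  have hker := ker_convex (P := P.pull (Prod.snd : κ × Ω → Ω)) (Y := fun p : κ × Ω => (p.1, ln p.2))
    hq hRD' hR' s (fun t p p' e1 e2 => hs t p p' e1 (Prod.mk.inj e2).1 (Prod.mk.inj e2).2) hs0 hs1
  refine book_kb P hQ hq rb hsame ln R hR hRD hRc hRr R' hR' hRD' n hWr hx hW0 hB0 hB hL₀ th hth
    hρ hρ1 g₀ A₀ M hM hc hζ hker ?_ cov hcov hG hmend hrows hnear hlam hlam' hbad hthin hthk hr₀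
  intro t p hp
  have p1 := kt_pos (P := P.pull (Prod.snd : κ × Ω → Ω)) (Y := fun p : κ × Ω => (p.1, ln p.2))
    (R := R') hq t hp
  have p2 := Avg.ka_pos (P := P.pull (Prod.snd : κ × Ω → Ω)) (R := R') hq t hp
  rcases (hs0 t p).eq_or_lt with h | h
  · rw [← h]
    linarith
  · have := mul_pos h p1
    have := mul_nonneg (show 0 ≤ 1 - s t p by linarith [hs1 t p]) p2.le
    linarith

open Classical in
/-- **the bookkeeping theorem**, kernel of the boxes -/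
theorem book
    (P : Pcs Ω) {Q q : κ × Ω → ℝ} (hQ : IsProb Q) (hq : IsProb q) (rb : κ × Ω → α)
    (hsame : ∀ x, Pr q rb x = Pr Q rb x) (ln : Ω → L) (R : ℕ → κ × Ω → β)
    (hR : ∀ t, Det (R (t + 1)) (R t)) (hRD : ∀ t, Det (R t) (fun p => P.D t p.2))
    (hRc : Det (R 0) (fun p : κ × Ω => p.1)) (hRr : Det rb (R P.T))
    (R' : ℕ → κ × Ω → β') (hR' : ∀ t, Det (R' (t + 1)) (R' t))
    (hRD' : ∀ t, Det (R' t) (fun p => P.D t p.2))
    -- the pieces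
    (n : ℕ) (hWr : Det rb (fun p => P.W n p.2)) (hx : ∀ ω ω', P.W n ω = P.W n ω' → P.x ω = P.x ω')
    (hW0 : ∀ ω ω', P.W 0 ω = P.W 0 ω') {B L₀ : ℕ} (hB0 : 0 < B)
    (hB : ∀ j < n, ∀ ω, (lbl P j ω).card ≤ B) (hL₀ : log (9 * B) ≤ L₀ * log 2)
    -- thick boxes and the constants of the cover lemma
    (th : ℕ → κ × Ω → Prop) (hth : ∀ t p p', R' t p = R' t p' → th t p → th t p')
    {ρ : ℝ} (hρ : 0 ≤ ρ) (hρ1 : ρ ≤ 1) (g₀ A₀ M : ℕ) (hM : g₀ + L₀ * (2 + A₀) ≤ M + 1)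
    {c : ℝ} (hc : 0 < c) {ζ : ℝ} (hζ : ∑ i ∈ Icc A₀ n, 2 * (i : ℝ) * (exp c * ρ) ^ i ≤ ζ)
    -- inputs
    {G₀ mend err near lam lam' bad thin thk r₀ : ℝ} (cov : κ × Ω → ℝ) (hcov : Det rb cov)
    (hG : G₀ ≤ Hc q (fun p => P.W n p.2) (fun p => (p.1, ln p.2)))
    (hmend : Hc Q (R P.T) (fun p => (P.D P.T p.2, p.1)) ≤ mend)
    (hrows : log 2 * ∑ p, Q p * cov p - err ≤
      ∑ t ∈ range P.T, Hc Q (R (t + 1)) (fun p => (P.D (t + 1) p.2, R t p)))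
    (hnear : ∑ p, q p * #(Cov (P.pull (Prod.snd : κ × Ω → Ω)) th M p) ≤ ∑ p, q p * cov p + near)
    (hlam : ∑ t ∈ range P.T, Hc q (R (t + 1))
      (fun p => ((P.D (t + 1) p.2, R t p), (p.1, ln p.2))) ≤ lam)
    (hlam' : ∑ t ∈ range P.T, Hc q (R' (t + 1))
      (fun p => ((P.D (t + 1) p.2, R' t p), (p.1, ln p.2))) ≤ lam')
    (hbad : ∑ p, q p * #{j ∈ range n | g₀ ≤ P.tm j p.2 ∧
      ¬ Good (P.pull (Prod.snd : κ × Ω → Ω)) q (fun p => (p.1, ln p.2)) R' ρ g₀ j p} ≤ bad)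
    (hthin : ∑ p, q p * ∑ t ∈ range P.T with ¬ th t p,
      -log (Avg.ka (P.pull (Prod.snd : κ × Ω → Ω)) q R' t p) ≤ thin)
    (hthk : ∑ p, q p * #{t ∈ range P.T | th t p} ≤ thk)
    (hr₀ : Hc q (R 0) (fun p => (p.1, ln p.2)) ≤ r₀) :
    G₀ ≤ mend + err + lam + r₀ + n * log 36 + log 9 + log 2 * (near + L₀ * bad +
      L₀ * (c⁻¹ * (thin + lam') + ζ * (1 + thk)) + (g₀ + L₀ * (2 + A₀))) :=
  book_kb P hQ hq rb hsame ln R hR hRD hRc hRr R' hR' hRD' n hWr hx hW0 hB0 hB hL₀ th hth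
    hρ hρ1 g₀ A₀ M hM hc hζ (Avg.ker_ab (P := P.pull (Prod.snd : κ × Ω → Ω)) hq hRD' hR')
    (fun t _ hp => Avg.ka_pos hq t hp) cov hcov hG hmend hrows hnear hlam hlam' hbad hthin hthk hr₀

end Vale.Agent.P065.H353
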