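import Vale.Agent.P065.H353.GuardQ
import Vale.Agent.P065.H268.TimeGrid

/-!
# P065, package BOOK: guard lemma and row cuts for the auxiliary law (helper353)

`q` is a law on pairs (column, flag), a column is a pair (`k`, offset `i < nT`); `q` depends on the
offset only modulo the fine unit `υ 2 ^ (M k - τ ω)` of the flag.
-/

set_option autoImplicit false

open Finset Real

noncomputable section

namespace Vale.Agent.P065.H353

open Vale.Agent.P065.Ent Vale.Agent.P065.H268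

variable {Ω : Type*} [Fintype Ω] {α β δ L η : Type*}

/-- **the guard lemma without density** -/
theorem guardQ {κ' : Type*} [Fintype κ'] {nT : ℕ}
    {q : (κ' × Fin nT) × Ω → ℝ} (hq : IsProb q) (ln : Ω → L)
    (D : ℕ → Ω → δ) (hD : ∀ t, Det (D (t + 1)) (D t)) {T γ υ : ℕ} (hυ : 0 < υ)
    (M c₀ : κ' → ℕ) (hTM : ∀ k, T ≤ M k) (hM : ∀ k, c₀ k * (υ * 2 ^ (M k + γ)) = nT)
    (b : κ' → Ω → ℝ)
    (hb : ∀ k t, t < T → ∀ ω ω', ln ω = ln ω' → D t ω = D t ω' →
      b k ω' - b k ω ≤ υ * 2 ^ (M k - t))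
    (hbT : ∀ k ω ω', ln ω = ln ω' → D T ω = D T ω' → b k ω = b k ω') (τ : Ω → ℕ)
    (hτ : ∀ k t, t ≤ T → ∀ ω ω', ln ω = ln ω' → D t ω = D t ω' → b k ω ≠ b k ω' → t ≤ τ ω)
    (hper : ∀ k ω (i j : Fin nT), (i : ℕ) ≡ j [MOD υ * 2 ^ (M k - τ ω)] →
      q ((k, i), ω) = q ((k, j), ω))
    (R : ℕ → (κ' × Fin nT) × Ω → β)
    (hR : ∀ t, t < T → ∀ (k : κ' × Fin nT) ω ω', ln ω = ln ω' → D (t + 1) ω = D (t + 1) ω' →
      R t (k, ω) = R t (k, ω') →
      ⌊(b k.1 ω + (k.2 : ℕ)) / (υ * 2 ^ (M k.1 + γ - (t + 1)))⌋ =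
        ⌊(b k.1 ω' + (k.2 : ℕ)) / (υ * 2 ^ (M k.1 + γ - (t + 1)))⌋ →
      R (t + 1) (k, ω) = R (t + 1) (k, ω'))
    (Y : (κ' × Fin nT) × Ω → η) (hY : Det Y (fun p => (ln p.2, p.1))) :
    ∑ t ∈ range T, Hc q (R (t + 1)) (fun p => ((D (t + 1) p.2, R t p), Y p)) ≤
      2 / 2 ^ γ * Hc q (fun p => D T p.2) (fun p => (p.1, ln p.2)) := by
  classical
  -- the row of step `t + 1`
  set F : ℕ → (κ' × Fin nT) → Ω → ℤ := fun t k ω =>
    ⌊(b k.1 ω + (k.2 : ℕ)) / (υ * 2 ^ (M k.1 + γ - (t + 1)))⌋ with hF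
  set Z : ℕ → Ω → δ × L := fun t ω => (D t ω, ln ω) with hZ
  have hZd : ∀ t, Det (Z (t + 1)) (Z t) := fun t =>
    ((det_fst _ _).trans (hD t)).pair (det_snd _ _)
  have h1 : ∀ t ∈ range T, Hc q (R (t + 1)) (fun p => ((D (t + 1) p.2, R t p), Y p)) ≤
      ∑ c, Hc (fun ω => q (c, ω)) (F t c) (Z (t + 1)) := by
    intro t ht
    have ht' := mem_range.1 ht
    have e1 : Hc q (R (t + 1)) (fun p => ((D (t + 1) p.2, R t p), Y p)) ≤
        Hc q (R (t + 1)) (fun p => ((D (t + 1) p.2, R t p), (ln p.2, p.1))) :=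
      Hc_anti hq _ ((det_fst _ _).pair ((det_snd _ _).trans hY))
    have e2 : Hc q (R (t + 1)) (fun p => ((D (t + 1) p.2, R t p), (ln p.2, p.1))) ≤
        Hc q (fun p => F t p.1 p.2) (fun p => ((D (t + 1) p.2, R t p), (ln p.2, p.1))) := by
      have e3 := Hc_le_add hq (R (t + 1)) (fun p => F t p.1 p.2)
        (fun p => ((D (t + 1) p.2, R t p), (ln p.2, p.1)))
      have e4 : Hc q (R (t + 1)) (fun p => (F t p.1 p.2,
          ((D (t + 1) p.2, R t p), (ln p.2, p.1)))) = 0 := by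
        refine Hc_eq_zero ?_
        rintro ⟨k, ω⟩ ⟨k', ω'⟩ h
        simp only [Prod.mk.injEq] at h
        obtain ⟨f1, ⟨f2, f3⟩, f4, f5⟩ := h
        subst f5
        exact hR t ht' k ω ω' f4 f2 f3 f1
      rw [e4, zero_add] at e3
      exact e3
    have e3 : Hc q (fun p => F t p.1 p.2) (fun p => ((D (t + 1) p.2, R t p), (ln p.2, p.1))) ≤
        Hc q (fun p => F t p.1 p.2) (fun p => (Z (t + 1) p.2, p.1)) := by
      refine Hc_anti hq _ ?_
      intro p p' h
      simp only [Prod.mk.injEq] at h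
      obtain ⟨⟨f2, f3⟩, f4, f5⟩ := h
      simp only [hZ, f2, f4, f5]
    refine e1.trans (e2.trans (e3.trans (le_of_eq ?_)))
    exact Hc_col q (F t) (fun _ => Z (t + 1))
  have h2 : Hc q (fun p => D T p.2) (fun p => (Z 0 p.2, p.1)) ≤
      Hc q (fun p => D T p.2) (fun p => (p.1, ln p.2)) :=
    Hc_anti hq _ ((det_snd _ _).pair ((det_fst _ _).trans (fun p p' h =>
      (Prod.mk.inj h).2)))
  have h3 : ∑ c, Hc (fun ω => q (c, ω)) (Z T) (Z 0) =
      Hc q (fun p => D T p.2) (fun p => (Z 0 p.2, p.1)) := by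
    have e1 := Hc_col q (fun _ => Z T) (fun _ => Z 0)
    rw [← e1]
    have f1 := Hc_pair q (fun p => D T p.2) (fun p => ln p.2) (fun p => (Z 0 p.2, p.1))
    have f2 : Hc q (fun p => ln p.2) (fun p => (Z 0 p.2, p.1)) = 0 :=
      Hc_eq_zero ((det_fst _ _).trans (fun p p' h => (Prod.mk.inj h).2))
    have f3 : Hc q (fun p => D T p.2) (fun p => (ln p.2, (Z 0 p.2, p.1))) =
        Hc q (fun p => D T p.2) (fun p => (Z 0 p.2, p.1)) :=
      Hc_congr (Det.refl _) (Det.refl _) (det_snd _ _)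
        (((det_fst (fun p : (κ' × Fin nT) × Ω => Z 0 p.2) (fun p => p.1)).trans
          (fun p p' h => (Prod.mk.inj h).2)).pair (Det.refl _))
    rw [f2, f3, zero_add] at f1
    exact f1
  -- one `k`
  have h4 : ∀ k : κ', ∑ t ∈ range T, ∑ i : Fin nT, Hc (fun ω => q ((k, i), ω)) (F t (k, i))
      (Z (t + 1)) ≤ 2 / 2 ^ γ * ∑ i : Fin nT, Hc (fun ω => q ((k, i), ω)) (Z T) (Z 0) := by
    intro k
    set m : ℕ → Ω → ℝ := fun i ω => if h : i < nT then q ((k, ⟨i, h⟩), ω) else 0 with hm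
    have hm0 : ∀ i ω, 0 ≤ m i ω := by
      intro i ω
      rw [hm]
      show 0 ≤ if h : i < nT then q ((k, ⟨i, h⟩), ω) else 0
      split_ifs
      · exact hq.nonneg _
      · exact le_rfl
    have hmi : ∀ i : Fin nT, m i = fun ω => q ((k, i), ω) := by
      intro i
      funext ω
      rw [hm]
      show (if h : (i : ℕ) < nT then q ((k, ⟨i, h⟩), ω) else 0) = _
      rw [dif_pos i.2]
    have e2 := guardQ_line (m := m) hm0 Z hZd (γ := γ) (c₀ := c₀ k) (hTM k) hυ (b k)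
      (fun t ht ω ω' h => hb k t ht ω ω' (Prod.mk.inj h).2 (Prod.mk.inj h).1)
      (fun ω ω' h => hbT k ω ω' (Prod.mk.inj h).2 (Prod.mk.inj h).1) τ
      (fun t ht ω ω' h => hτ k t ht ω ω' (Prod.mk.inj h).2 (Prod.mk.inj h).1)
      (by
        intro ω i j hi hj hij
        rw [hM k] at hi hj
        rw [hmi ⟨i, hi⟩, hmi ⟨j, hj⟩]
        exact hper k ω ⟨i, hi⟩ ⟨j, hj⟩ hij)
    rw [hM k] at e2
    have e3 : ∑ t ∈ range T, ∑ i : Fin nT, Hc (fun ω => q ((k, i), ω)) (F t (k, i)) (Z (t + 1)) =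
        ∑ t ∈ range T, ∑ i ∈ range nT, Hc (m i)
          (fun ω => ⌊(b k ω + (i : ℝ)) / (υ * 2 ^ (M k + γ - (t + 1)))⌋) (Z (t + 1)) := by
      refine sum_congr rfl fun t _ => ?_
      rw [Finset.sum_range]
      refine sum_congr rfl fun i _ => ?_
      rw [hmi i]
    have e4 : ∑ i : Fin nT, Hc (fun ω => q ((k, i), ω)) (Z T) (Z 0) =
        ∑ i ∈ range nT, Hc (m i) (Z T) (Z 0) := by
      rw [Finset.sum_range]
      exact sum_congr rfl fun i _ => by rw [hmi i]
    rw [e3, e4]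
    exact e2
  calc ∑ t ∈ range T, Hc q (R (t + 1)) (fun p => ((D (t + 1) p.2, R t p), Y p))
      ≤ ∑ t ∈ range T, ∑ c, Hc (fun ω => q (c, ω)) (F t c) (Z (t + 1)) := sum_le_sum h1
    _ = ∑ k : κ', ∑ t ∈ range T, ∑ i : Fin nT, Hc (fun ω => q ((k, i), ω)) (F t (k, i))
          (Z (t + 1)) := by
        rw [sum_comm]
        rw [Fintype.sum_prod_type]
        exact sum_congr rfl fun k _ => sum_comm
    _ ≤ ∑ k : κ', 2 / 2 ^ γ * ∑ i : Fin nT, Hc (fun ω => q ((k, i), ω)) (Z T) (Z 0) :=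
        sum_le_sum fun k _ => h4 k
    _ = 2 / 2 ^ γ * ∑ c, Hc (fun ω => q (c, ω)) (Z T) (Z 0) := by
        rw [← mul_sum, Fintype.sum_prod_type]
    _ = 2 / 2 ^ γ * Hc q (fun p => D T p.2) (fun p => (Z 0 p.2, p.1)) := by rw [h3]
    _ ≤ _ := mul_le_mul_of_nonneg_left h2 (by positivity)

/-! ### Row cuts -/

/-- the piece of level `j` of the line of the flag is cut by the boxes -/
def BoxCut {κ : Type*} (P : Pcs Ω) (q : κ × Ω → ℝ) (ln : Ω → L) (R : ℕ → κ × Ω → β) (g j : ℕ)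
    (p : κ × Ω) : Prop :=
  g ≤ P.tm j p.2 ∧ ∃ p', 0 < q p' ∧ p'.1 = p.1 ∧ ln p'.2 = ln p.2 ∧ P.W j p'.2 = P.W j p.2 ∧
    R (P.tm j p.2 - g) p' ≠ R (P.tm j p.2 - g) p

/-- the piece of level `j` of the line of the flag is cut by the grid of time -/
def TimeCut (P : Pcs Ω) (g j : ℕ) (ω : Ω) : Prop := g ≤ P.tm j ω ∧ P.Cut (P.tm j ω - g) j ω

/-- the piece of level `j` of the line of the flag is cut by the boxes, inside one cell of time -/
def RowCut {κ : Type*} (P : Pcs Ω) (q : κ × Ω → ℝ) (ln : Ω → L) (R : ℕ → κ × Ω → β) (g j : ℕ)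
    (p : κ × Ω) : Prop :=
  g ≤ P.tm j p.2 ∧ ∃ p', 0 < q p' ∧ p'.1 = p.1 ∧ ln p'.2 = ln p.2 ∧ P.W j p'.2 = P.W j p.2 ∧
    P.D (P.tm j p.2 - g) p'.2 = P.D (P.tm j p.2 - g) p.2 ∧
    R (P.tm j p.2 - g) p' ≠ R (P.tm j p.2 - g) p

/-- few offsets have a point of the grid of step `d p` in an interval of `w p` integers, for weights
of period `p` -/
lemma sum_hit_le (G : ℕ → ℝ) (hG : ∀ i, 0 ≤ G i) {p d c : ℕ} (hp : 0 < p) (hd : 0 < d)
    (hc : 0 < c) (hper : ∀ i j, i < c * (d * p) → j < c * (d * p) → i ≡ j [MOD p] → G i = G j)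
    (y₀ : ℤ) (w : ℕ) (S : ℕ → Prop) [DecidablePred S]
    (hS : ∀ i, S i → ∃ y ∈ Ioc y₀ (y₀ + ((w * p : ℕ) : ℤ)), ((d * p : ℕ) : ℤ) ∣ y + (i : ℤ)) :
    d * ∑ i ∈ range (c * (d * p)), (if S i then G i else 0) ≤
      w * ∑ i ∈ range (c * (d * p)), G i := by
  classical
  set u : ℕ := d * p with hu
  have hu0 : 0 < u := Nat.mul_pos hd hp
  have hn0 : 0 < c * u := Nat.mul_pos hc hu0
  have hpu : p ∣ u := Nat.dvd_mul_left p d
  have hpn : p ∣ c * u := hpu.trans (Nat.dvd_mul_left u c)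
  -- replace the indicator by a sum over the grid points
  have h1 : ∀ i ∈ range (c * u), (if S i then G i else 0) ≤
      ∑ y ∈ Ioc y₀ (y₀ + ((w * p : ℕ) : ℤ)),
        (if ((u : ℕ) : ℤ) ∣ y + (i : ℤ) then G (idx (c * u) y) else 0) := by
    intro i hi
    have hnn : ∀ y ∈ Ioc y₀ (y₀ + ((w * p : ℕ) : ℤ)),
        (0 : ℝ) ≤ (if ((u : ℕ) : ℤ) ∣ y + (i : ℤ) then G (idx (c * u) y) else 0) := by
      intro y _
      split_ifs
      · exact hG _
      · exact le_rfl
    split_ifs with h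
    · obtain ⟨y, hy, hdvd⟩ := hS i h
      refine le_trans (le_of_eq ?_) (single_le_sum hnn hy)
      rw [if_pos hdvd]
      refine hper _ _ (mem_range.1 hi) (idx_lt hn0 y) ?_
      rw [← Int.natCast_modEq_iff]
      refine Int.ModEq.trans ?_ (idx_mod hn0 hpn y).symm
      refine (Int.modEq_iff_dvd).2 ?_
      have f3 : -y - (i : ℤ) = -(y + i) := by ring
      rw [f3, dvd_neg]
      exact (show ((p : ℕ) : ℤ) ∣ (u : ℤ) by exact_mod_cast hpu).trans hdvd
    · exact sum_nonneg hnn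
  have h2 : ∀ y : ℤ, ∑ i ∈ range (c * u), (if ((u : ℕ) : ℤ) ∣ y + (i : ℤ) then
      G (idx (c * u) y) else 0) ≤ c * G (idx (c * u) y) := by
    intro y
    rw [← sum_filter, sum_const, nsmul_eq_mul]
    refine mul_le_mul_of_nonneg_right ?_ (hG _)
    have h3 : ((range (c * u)).filter fun i : ℕ => ((u : ℕ) : ℤ) ∣ y + (i : ℤ)).card ≤
        (range c).card := by
      refine card_le_card_of_injOn (fun i => i / u) ?_ ?_
      · intro i hi
        have hi' := mem_range.1 (mem_filter.1 (mem_coe.1 hi)).1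
        rw [coe_range]
        show i / u < c
        rw [Nat.div_lt_iff_lt_mul hu0]
        exact hi'
      · intro i hi i' hi' heq
        have e1 := (mem_filter.1 (mem_coe.1 hi)).2
        have e2 := (mem_filter.1 (mem_coe.1 hi')).2
        have e3 : i / u = i' / u := heq
        have e4 : ((u : ℕ) : ℤ) ∣ (i : ℤ) - i' := by
          have := dvd_sub e1 e2
          rwa [show y + (i : ℤ) - (y + (i' : ℤ)) = (i : ℤ) - i' by ring] at this
        have hd1 := Nat.div_add_mod i u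
        have hd2 := Nat.div_add_mod i' u
        have hm1 := Nat.mod_lt i hu0
        have hm2 := Nat.mod_lt i' hu0
        rw [e3] at hd1
        obtain ⟨k, hk⟩ := e4
        have hu' : (0 : ℤ) < u := by exact_mod_cast hu0
        have f1 : ((i : ℕ) : ℤ) = u * (i' / u : ℕ) + (i % u : ℕ) := by exact_mod_cast hd1.symm
        have f2 : ((i' : ℕ) : ℤ) = u * (i' / u : ℕ) + (i' % u : ℕ) := by exact_mod_cast hd2.symm
        have hk0 : k = 0 := by
          by_contra hne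
          rcases lt_or_gt_of_ne hne with h4 | h4
          · have : (u : ℤ) * k ≤ u * (-1) := mul_le_mul_of_nonneg_left (by omega) hu'.le
            omega
          · have : (u : ℤ) * 1 ≤ u * k := mul_le_mul_of_nonneg_left (by omega) hu'.le
            omega
        rw [hk0, mul_zero] at hk
        omega
    rw [card_range] at h3
    exact_mod_cast h3
  -- sum over the windows
  have hcd : c * u = (c * d) * p := by rw [hu]; ring
  have h3 : ∀ a : ℕ, ((c * d : ℕ) : ℝ) * ∑ y ∈ Ioc y₀ (y₀ + ((a * p : ℕ) : ℤ)),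
      G (idx (c * u) y) ≤ a * ∑ i ∈ range (c * u), G i := by
    intro a
    induction a with
    | zero => simp
    | succ a ih =>
      have e1 : Ioc y₀ (y₀ + (((a + 1) * p : ℕ) : ℤ)) = Ioc y₀ (y₀ + ((a * p : ℕ) : ℤ)) ∪
          Ioc (y₀ + ((a * p : ℕ) : ℤ)) (y₀ + ((a * p : ℕ) : ℤ) + (p : ℤ)) := by
        ext y
        rw [mem_union, mem_Ioc, mem_Ioc, mem_Ioc]
        have e2 : (((a + 1) * p : ℕ) : ℤ) = ((a * p : ℕ) : ℤ) + p := by push_cast; ring
        rw [e2]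
        have e3 : (0 : ℤ) ≤ ((a * p : ℕ) : ℤ) := Int.natCast_nonneg _
        have e4 : (0 : ℤ) ≤ (p : ℤ) := Int.natCast_nonneg _
        omega
      have e2 : Disjoint (Ioc y₀ (y₀ + ((a * p : ℕ) : ℤ)))
          (Ioc (y₀ + ((a * p : ℕ) : ℤ)) (y₀ + ((a * p : ℕ) : ℤ) + (p : ℤ))) := by
        rw [Finset.disjoint_left]
        intro y h4 h5
        rw [mem_Ioc] at h4 h5
        omega
      rw [e1, sum_union e2, mul_add]
      have e3 := sum_idx_le G hG hp (Nat.mul_pos hc hd) (by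
        intro i j hi hj hij
        rw [← hcd] at hi hj
        exact hper i j hi hj hij) (y₀ + ((a * p : ℕ) : ℤ))
      rw [← hcd] at e3
      push_cast at e3 ih ⊢
      linarith
  have h4 : ∑ i ∈ range (c * u), (if S i then G i else 0) ≤
      c * ∑ y ∈ Ioc y₀ (y₀ + ((w * p : ℕ) : ℤ)), G (idx (c * u) y) := by
    refine (sum_le_sum h1).trans ?_
    rw [sum_comm, mul_sum]
    exact sum_le_sum fun y _ => h2 y
  have h5 := h3 w
  have h6 : (d : ℝ) * ∑ i ∈ range (c * u), (if S i then G i else 0) ≤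
      d * (c * ∑ y ∈ Ioc y₀ (y₀ + ((w * p : ℕ) : ℤ)), G (idx (c * u) y)) :=
    mul_le_mul_of_nonneg_left h4 (Nat.cast_nonneg d)
  refine h6.trans ((le_of_eq ?_).trans h5)
  push_cast
  ring

open Classical in
/-- **the blocks which are cut by the rows**. The scale `tm j` of the block is at most `τ + a`,
`τ` the scale of the period of `q`. -/
theorem rowcut_le {κ' : Type*} [Fintype κ'] {nT : ℕ} {q : (κ' × Fin nT) × Ω → ℝ} (hq : IsProb q)
    (P : Pcs Ω) (ln : Ω → L) (n g₀ γ w a : ℕ) (hag : a ≤ g₀) {υ : ℕ} (hυ : 0 < υ) (M c₀ : κ' → ℕ)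
    (hM : ∀ k, c₀ k * (υ * 2 ^ (M k + γ)) = nT)
    (htM : ∀ k j ω, j < n → P.tm j ω ≤ M k) (b : κ' → Ω → ℝ)
    (hb : ∀ k j, j < n → ∀ ω ω', g₀ ≤ P.tm j ω → ln ω = ln ω' → P.W j ω = P.W j ω' →
      b k ω' - b k ω ≤ w * (υ * 2 ^ (M k - (P.tm j ω - a))))
    (τ : Ω → ℕ)
    (hτ : ∀ k j ω ω', j < n → g₀ ≤ P.tm j ω → ln ω = ln ω' → P.W j ω = P.W j ω' →
      b k ω ≠ b k ω' → P.tm j ω ≤ τ ω + a)
    (hper : ∀ k ω (i i' : Fin nT), (i : ℕ) ≡ i' [MOD υ * 2 ^ (M k - τ ω)] →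
      q ((k, i), ω) = q ((k, i'), ω))
    (Row : ℕ → (κ' × Fin nT) × Ω → α)
    (hRow : ∀ (k : κ' × Fin nT) j ω ω', j < n → g₀ ≤ P.tm j ω → ln ω = ln ω' →
      P.W j ω = P.W j ω' → P.D (P.tm j ω - g₀) ω = P.D (P.tm j ω - g₀) ω' →
      ⌊(b k.1 ω + (k.2 : ℕ)) / (υ * 2 ^ (M k.1 + γ - (P.tm j ω - g₀)))⌋ =
        ⌊(b k.1 ω' + (k.2 : ℕ)) / (υ * 2 ^ (M k.1 + γ - (P.tm j ω - g₀)))⌋ →
      Row (P.tm j ω - g₀) (k, ω) = Row (P.tm j ω - g₀) (k, ω')) :
    ∑ p, q p * #{j ∈ range n | RowCut P q ln Row g₀ j p} ≤ n * (w / 2 ^ (g₀ - a + γ)) := by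
  -- the number of cut blocks as a sum
  set C : ℕ → (κ' × Fin nT) × Ω → Prop := fun j p => RowCut P q ln Row g₀ j p with hC
  have h1 : ∀ p, q p * (((range n).filter fun j => C j p).card : ℝ) =
      ∑ j ∈ range n, (if C j p then q p else 0) := by
    intro p
    rw [card_filter]
    push_cast
    rw [mul_sum]
    refine sum_congr rfl fun j _ => ?_
    split_ifs
    · rw [mul_one]
    · rw [mul_zero]
  rw [sum_congr rfl fun p _ => h1 p, sum_comm]
  have h2 : ∀ j ∈ range n, ∑ p, (if C j p then q p else 0) ≤ w / 2 ^ (g₀ - a + γ) := by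
    intro j hj
    have hj' := mem_range.1 hj
    rw [Fintype.sum_prod_type_right]
    have h3 : ∀ ω, ∑ c, (if C j (c, ω) then q (c, ω) else 0) ≤
        w / 2 ^ (g₀ - a + γ) * ∑ c, q (c, ω) := by
      intro ω
      rw [Fintype.sum_prod_type, Fintype.sum_prod_type, mul_sum]
      refine sum_le_sum fun k _ => ?_
      by_cases hg : g₀ ≤ P.tm j ω
      swap
      · rw [sum_eq_zero fun i _ => if_neg fun h => hg h.1]
        exact mul_nonneg (by positivity) (sum_nonneg fun i _ => hq.nonneg _)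
      -- the height is constant
      by_cases hcst : ∃ ω', ln ω = ln ω' ∧ P.W j ω = P.W j ω' ∧ b k ω ≠ b k ω'
      swap
      · push Not at hcst
        rw [sum_eq_zero fun i _ => if_neg ?_]
        · exact mul_nonneg (by positivity) (sum_nonneg fun i _ => hq.nonneg _)
        · rintro ⟨-, p', g1, g2, g3, g4, g5, g6⟩
          obtain ⟨c', ω'⟩ := p'
          simp only at g2 g3 g4 g5 g6
          subst g2
          refine g6 (hRow (k, i) j ω ω' hj' hg g3.symm g4.symm g5.symm ?_).symm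
          rw [hcst ω' g3.symm g4.symm]
      have hτω : P.tm j ω ≤ τ ω + a := by
        obtain ⟨ω', c1, c2, c3⟩ := hcst
        exact hτ k j ω ω' hj' hg c1 c2 c3
      set s : ℕ := P.tm j ω - g₀ with hs
      set e : ℕ := P.tm j ω - a with he
      set p₀ : ℕ := υ * 2 ^ (M k - e) with hp₀
      have htm := htM k j ω hj'
      have hp0 : 0 < p₀ := by positivity
      have hd0 : 0 < 2 ^ (g₀ - a + γ) := by positivity
      have e0 : υ * 2 ^ (M k + γ - s) = 2 ^ (g₀ - a + γ) * p₀ := by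
        rw [hp₀, mul_left_comm, ← pow_add]
        congr 2
        omega
      have e1 : nT = (c₀ k * 2 ^ s) * (2 ^ (g₀ - a + γ) * p₀) := by
        rw [← hM k, ← e0, mul_assoc, mul_left_comm (2 ^ s) υ, ← pow_add]
        congr 3
        omega
      rcases Nat.eq_zero_or_pos (c₀ k) with hc | hc
      · have hn0 : nT = 0 := by rw [e1, hc]; simp
        subst hn0
        simp
      have hc0 : 0 < c₀ k * 2 ^ s := by positivity
      set G : ℕ → ℝ := fun i => if h : i < nT then q ((k, ⟨i, h⟩), ω) else 0 with hG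
      have hG0 : ∀ i, 0 ≤ G i := by
        intro i
        rw [hG]
        show 0 ≤ if h : i < nT then q ((k, ⟨i, h⟩), ω) else 0
        split_ifs
        · exact hq.nonneg _
        · exact le_rfl
      have hGi : ∀ i : Fin nT, G i = q ((k, i), ω) := by
        intro i
        rw [hG]
        show (if h : (i : ℕ) < nT then q ((k, ⟨i, h⟩), ω) else 0) = _
        rw [dif_pos i.2]
      -- the window
      have hSne : (univ.filter fun ω' => ln ω' = ln ω ∧ P.W j ω' = P.W j ω).Nonempty :=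
        ⟨ω, mem_filter.2 ⟨mem_univ _, rfl, rfl⟩⟩
      obtain ⟨u, hu, hu'⟩ := exists_min_image _ (b k) hSne
      have hu1 := (mem_filter.1 hu).2
      have htmu : P.tm j u = P.tm j ω := P.tm_congr hu1.2
      have e2 := sum_hit_le G hG0 hp0 hd0 hc0 (fun i i' hi hi' hii => by
        rw [← e1] at hi hi'
        have f1 := hGi ⟨i, hi⟩
        have f2 := hGi ⟨i', hi'⟩
        rw [f1, f2]
        refine hper k ω ⟨i, hi⟩ ⟨i', hi'⟩ (hii.of_dvd ?_)
        exact Nat.mul_dvd_mul_left υ (pow_dvd_pow 2 (by omega))) ⌊b k u⌋ w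
        (fun i => ∃ h : i < nT, C j ((k, ⟨i, h⟩), ω)) (by
          rintro i ⟨hi, -, p', g1, g2, g3, g4, g5, g6⟩
          obtain ⟨c', ω'⟩ := p'
          simp only at g2 g3 g4 g5 g6
          subst g2
          have g7 : ⌊(b k ω' + (i : ℝ)) / (υ * 2 ^ (M k + γ - s))⌋ ≠
              ⌊(b k ω + (i : ℝ)) / (υ * 2 ^ (M k + γ - s))⌋ := by
            intro h
            exact g6 ((hRow (k, ⟨i, hi⟩) j ω ω' hj' hg g3.symm g4.symm g5.symm h.symm).symm)
          have e3 : (υ : ℝ) * 2 ^ (M k + γ - s) = ((2 ^ (g₀ - a + γ) * p₀ : ℕ) : ℝ) := by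
            rw [← e0]; push_cast; rfl
          rw [e3] at g7
          set U : ℕ := 2 ^ (g₀ - a + γ) * p₀ with hU
          have hU0 : 0 < U := Nat.mul_pos hd0 hp0
          have hU0' : (0 : ℝ) < U := by exact_mod_cast hU0
          -- the two points
          have key : ∀ ω₁ ω₂ : Ω, (ln ω₁ = ln ω ∧ P.W j ω₁ = P.W j ω) →
              (ln ω₂ = ln ω ∧ P.W j ω₂ = P.W j ω) →
              ⌊(b k ω₁ + (i : ℝ)) / U⌋ < ⌊(b k ω₂ + (i : ℝ)) / U⌋ →
              ∃ y ∈ Ioc ⌊b k u⌋ (⌊b k u⌋ + ((w * p₀ : ℕ) : ℤ)), (U : ℤ) ∣ y + (i : ℤ) := by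
            intro ω₁ ω₂ k1 k2 k3
            refine ⟨⌊(b k ω₂ + (i : ℝ)) / U⌋ * U - i, ?_, ⟨⌊(b k ω₂ + (i : ℝ)) / U⌋, by ring⟩⟩
            have l1 : b k ω₁ + i < ⌊(b k ω₂ + (i : ℝ)) / U⌋ * U := by
              have := (Int.floor_lt).1 k3
              rwa [div_lt_iff₀ hU0'] at this
            have l2 : (⌊(b k ω₂ + (i : ℝ)) / U⌋ : ℝ) * U ≤ b k ω₂ + i := by
              have := Int.floor_le ((b k ω₂ + (i : ℝ)) / U)
              rwa [le_div_iff₀ hU0'] at this
            have l3 := hu' ω₁ (mem_filter.2 ⟨mem_univ _, k1⟩)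
            have l4 := hb k j hj' u ω₂ (by rw [htmu]; exact hg) (by rw [hu1.1, k2.1])
              (by rw [hu1.2, k2.2])
            rw [htmu] at l4
            have l5 : ((w * p₀ : ℕ) : ℝ) = w * (υ * 2 ^ (M k - (P.tm j ω - a))) := by
              rw [hp₀, he]; push_cast; ring
            rw [mem_Ioc]
            constructor
            · rw [Int.floor_lt]
              push_cast
              linarith
            · rw [← Int.floor_add_intCast, Int.le_floor]
              push_cast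
              push_cast at l5
              linarith
          rcases lt_or_gt_of_ne g7 with h | h
          · exact key ω' ω ⟨g3, g4⟩ ⟨rfl, rfl⟩ h
          · exact key ω ω' ⟨rfl, rfl⟩ ⟨g3, g4⟩ h)
      rw [← e1] at e2
      have e3 : ∑ i : Fin nT, (if C j ((k, i), ω) then q ((k, i), ω) else 0) =
          ∑ i ∈ range nT, (if ∃ h : i < nT, C j ((k, ⟨i, h⟩), ω) then G i else 0) := by
        rw [Finset.sum_range]
        refine sum_congr rfl fun i _ => ?_
        by_cases h : C j ((k, i), ω)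
        · rw [if_pos h, if_pos ⟨i.2, h⟩, hGi]
        · rw [if_neg h, if_neg fun h' => h h'.2]
      have e4 : ∑ i : Fin nT, q ((k, i), ω) = ∑ i ∈ range nT, G i := by
        rw [Finset.sum_range]
        exact sum_congr rfl fun i _ => (hGi i).symm
      rw [e3, e4, div_mul_eq_mul_div, le_div_iff₀ (by positivity), mul_comm]
      have e5 : ((2 ^ (g₀ - a + γ) : ℕ) : ℝ) = 2 ^ (g₀ - a + γ) := by push_cast; rfl
      rw [← e5]
      exact e2
    refine (sum_le_sum fun ω _ => h3 ω).trans (le_of_eq ?_)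
    rw [← mul_sum, ← Fintype.sum_prod_type_right, hq.sum, mul_one]
  refine (sum_le_sum h2).trans (le_of_eq ?_)
  rw [sum_const, card_range, nsmul_eq_mul]

end Vale.Agent.P065.H353
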