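import Vale.Agent.P065.H353.Book
import Vale.Agent.P065.H353.GuardQ2
import Vale.Agent.P065.H268.TimeShift

/-!
# P065, package BOOK: the bad blocks (helper353)

The input `bad` of the bookkeeping theorem: blocks which are not split by the line, blocks which
are cut by the grid of time, blocks which are cut by the rows.
-/

set_option autoImplicit false

open Finset Real

noncomputable section

namespace Vale.Agent.P065.H353

open Vale.Agent.P065.Ent Vale.Agent.P065.H268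

variable {Ω κ : Type*} [Fintype Ω] [Fintype κ] {α β L : Type*}

open Classical in
/-- averages over the active columns of all lines -/
lemma sum_active_le {q : κ × Ω → ℝ} {ν : Ω → ℝ} {c : ℝ}
    (hle : ∀ t, q t ≤ c * ν t.2) {f : κ × Ω → ℝ} (hf : ∀ p, 0 ≤ f p) :
    ∑ p, q p * f p ≤ c * ∑ ω, ν ω * ∑ k ∈ univ.filter (fun k => 0 < q (k, ω)), f (k, ω) := by
  rw [Fintype.sum_prod_type_right, mul_sum]
  refine sum_le_sum fun ω _ => ?_
  calc ∑ k, q (k, ω) * f (k, ω)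
      ≤ ∑ k, (if 0 < q (k, ω) then c * ν ω * f (k, ω) else 0) := by
        refine sum_le_sum fun k _ => ?_
        split_ifs with h
        · exact mul_le_mul_of_nonneg_right (hle (k, ω)) (hf _)
        · exact mul_nonpos_of_nonpos_of_nonneg (not_lt.1 h) (hf _)
    _ = c * (ν ω * ∑ k ∈ univ.filter (fun k => 0 < q (k, ω)), f (k, ω)) := by
        rw [← sum_filter, ← mul_sum]
        ring

open Classical in
/-- functions of the flag under the auxiliary law -/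
lemma sum_flag_le {q : κ × Ω → ℝ} {ν : Ω → ℝ} (hν : IsProb ν) {c : ℝ} (hc : 0 ≤ c)
    (hle : ∀ t, q t ≤ c * ν t.2) (ln : Ω → L) (N : ℕ)
    (hN : ∀ ω, 0 < ν ω → ((univ : Finset κ).filter fun k => ∃ ω', ln ω' = ln ω ∧ 0 < q (k, ω')).card
      ≤ N) {f : Ω → ℝ} (hf : ∀ ω, 0 ≤ f ω) :
    ∑ p, q p * f p.2 ≤ c * N * ∑ ω, ν ω * f ω := by
  refine (sum_active_le hle (f := fun p => f p.2) fun p => hf p.2).trans ?_
  rw [mul_assoc]
  refine mul_le_mul_of_nonneg_left ?_ hc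
  rw [mul_sum]
  refine sum_le_sum fun ω _ => ?_
  show ν ω * ∑ _k ∈ univ.filter (fun k : κ => 0 < q (k, ω)), f ω ≤ N * (ν ω * f ω)
  rw [sum_const, nsmul_eq_mul]
  rcases (hν.nonneg ω).eq_or_lt with h0 | h0
  · rw [← h0]; simp
  have h1 : ((univ.filter fun k : κ => 0 < q (k, ω)).card : ℝ) ≤ N := by
    have h2 := (card_le_card (s := univ.filter fun k : κ => 0 < q (k, ω))
      (t := (univ : Finset κ).filter fun k => ∃ ω', ln ω' = ln ω ∧ 0 < q (k, ω'))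
      (fun k hk => mem_filter.2 ⟨mem_univ _, ω, rfl, (mem_filter.1 hk).2⟩)).trans (hN ω h0)
    exact_mod_cast h2
  have h3 : 0 ≤ ν ω * f ω := mul_nonneg h0.le (hf ω)
  nlinarith

variable [Nonempty κ]

open Classical in
/-- **the bad blocks**: not split, or cut by the boxes -/
theorem bad_le (P : Pcs Ω) {q : κ × Ω → ℝ} {ν : Ω → ℝ} (hq : IsProb q) (hν : IsProb ν) {c : ℝ}
    (hc : 0 < c) (hle : ∀ t, q t ≤ c * ν t.2) (ln : Ω → L) (N : ℕ)
    (hN : ∀ ω, 0 < ν ω → ((univ : Finset κ).filter fun k => ∃ ω', ln ω' = ln ω ∧ 0 < q (k, ω')).card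
      ≤ N) (R : ℕ → κ × Ω → β) (n g₀ : ℕ) {ρ ρ' : ℝ} (hρ : ρ < ρ') {e₂ cut : ℝ}
    (hspl : ∀ p : κ × Ω, 0 < q p →
      (#{j ∈ range n | ¬ Pr ν (fun ω => (P.W (j + 1) ω, ln ω)) (P.W (j + 1) p.2, ln p.2) ≤
        ρ * Pr ν (fun ω => (P.W j ω, ln ω)) (P.W j p.2, ln p.2)} : ℝ) ≤ e₂)
    (hcut : ∑ p, q p * #{j ∈ range n | BoxCut P q ln R g₀ j p} ≤ cut) :
    ∑ p, q p * #{j ∈ range n | g₀ ≤ P.tm j p.2 ∧
      ¬ Good (P.pull (Prod.snd : κ × Ω → Ω)) q (fun p => (p.1, ln p.2)) R ρ' g₀ j p} ≤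
      e₂ + 4 / (ρ' - ρ) ^ 2 * log (c * N) + cut := by
  have hsurj : Function.Surjective (Prod.snd : κ × Ω → Ω) := Prod.snd_surjective
  have h1 := bad_transfer hq hν hc hle P.W P.nest ln N hN n hρ
  have h2 : ∀ p : κ × Ω, 0 < q p → (#{j ∈ range n | g₀ ≤ P.tm j p.2 ∧
      ¬ Good (P.pull (Prod.snd : κ × Ω → Ω)) q (fun p => (p.1, ln p.2)) R ρ' g₀ j p} : ℝ) ≤
      e₂ + (∑ j ∈ range n,
        (if Pr ν (fun ω => (P.W (j + 1) ω, ln ω)) (P.W (j + 1) p.2, ln p.2) ≤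
            ρ * Pr ν (fun ω => (P.W j ω, ln ω)) (P.W j p.2, ln p.2) ∧
          ρ' * Pr q (fun t => (P.W j t.2, (t.1, ln t.2))) (P.W j p.2, (p.1, ln p.2)) <
            Pr q (fun t => (P.W (j + 1) t.2, (t.1, ln t.2))) (P.W (j + 1) p.2, (p.1, ln p.2))
          then (1 : ℝ) else 0)) +
      #{j ∈ range n | BoxCut P q ln R g₀ j p} := by
    intro p hp
    set S1 := (range n).filter (fun j => ¬ Pr ν (fun ω => (P.W (j + 1) ω, ln ω))
      (P.W (j + 1) p.2, ln p.2) ≤ ρ * Pr ν (fun ω => (P.W j ω, ln ω)) (P.W j p.2, ln p.2)) with hS1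
    set S2 := (range n).filter (fun j =>
      Pr ν (fun ω => (P.W (j + 1) ω, ln ω)) (P.W (j + 1) p.2, ln p.2) ≤
        ρ * Pr ν (fun ω => (P.W j ω, ln ω)) (P.W j p.2, ln p.2) ∧
      ρ' * Pr q (fun t => (P.W j t.2, (t.1, ln t.2))) (P.W j p.2, (p.1, ln p.2)) <
        Pr q (fun t => (P.W (j + 1) t.2, (t.1, ln t.2))) (P.W (j + 1) p.2, (p.1, ln p.2))) with hS2
    set S3 := (range n).filter (fun j => BoxCut P q ln R g₀ j p) with hS3
    have hsub : ((range n).filter fun j => g₀ ≤ P.tm j p.2 ∧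
      ¬ Good (P.pull (Prod.snd : κ × Ω → Ω)) q (fun p => (p.1, ln p.2)) R ρ' g₀ j p) ⊆
        S1 ∪ S2 ∪ S3 := by
      intro j hj
      obtain ⟨hjn, hg, hbad⟩ := mem_filter.1 hj
      rw [mem_union, mem_union]
      by_cases a1 : Pr ν (fun ω => (P.W (j + 1) ω, ln ω)) (P.W (j + 1) p.2, ln p.2) ≤
        ρ * Pr ν (fun ω => (P.W j ω, ln ω)) (P.W j p.2, ln p.2)
      swap
      · exact Or.inl (Or.inl (mem_filter.2 ⟨hjn, a1⟩))
      by_cases a2 : ρ' * Pr q (fun t => (P.W j t.2, (t.1, ln t.2))) (P.W j p.2, (p.1, ln p.2)) <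
        Pr q (fun t => (P.W (j + 1) t.2, (t.1, ln t.2))) (P.W (j + 1) p.2, (p.1, ln p.2))
      · exact Or.inl (Or.inr (mem_filter.2 ⟨hjn, a1, a2⟩))
      refine Or.inr (mem_filter.2 ⟨hjn, hg, ?_⟩)
      by_contra hcon
      apply hbad
      refine ⟨not_lt.1 a2, fun p' hp' e1 e2 => ?_⟩
      rw [P.pull_tm hsurj]
      by_contra hne
      exact hcon ⟨p', hp', (Prod.mk.inj e1).1, (Prod.mk.inj e1).2, e2, hne⟩
    have e1 : ((S1 ∪ S2 ∪ S3).card : ℝ) ≤ S1.card + S2.card + S3.card := by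
      have := (card_union_le (S1 ∪ S2) S3).trans (Nat.add_le_add_right (card_union_le S1 S2) _)
      exact_mod_cast this
    have e2 : (S2.card : ℝ) = ∑ j ∈ range n,
        (if Pr ν (fun ω => (P.W (j + 1) ω, ln ω)) (P.W (j + 1) p.2, ln p.2) ≤
            ρ * Pr ν (fun ω => (P.W j ω, ln ω)) (P.W j p.2, ln p.2) ∧
          ρ' * Pr q (fun t => (P.W j t.2, (t.1, ln t.2))) (P.W j p.2, (p.1, ln p.2)) <
            Pr q (fun t => (P.W (j + 1) t.2, (t.1, ln t.2))) (P.W (j + 1) p.2, (p.1, ln p.2))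
          then (1 : ℝ) else 0) := by
      rw [hS2, card_filter]
      push_cast
      rfl
    have e3 : (S1.card : ℝ) ≤ e₂ := hspl p hp
    have e4 : ((((range n).filter fun j => g₀ ≤ P.tm j p.2 ∧
      ¬ Good (P.pull (Prod.snd : κ × Ω → Ω)) q (fun p => (p.1, ln p.2)) R ρ' g₀ j p).card : ℕ) : ℝ)
        ≤ (S1 ∪ S2 ∪ S3).card := by exact_mod_cast card_le_card hsub
    rw [← e2]
    exact e4.trans (e1.trans (by linarith))
  have h3 : ∑ p, q p * #{j ∈ range n | g₀ ≤ P.tm j p.2 ∧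
      ¬ Good (P.pull (Prod.snd : κ × Ω → Ω)) q (fun p => (p.1, ln p.2)) R ρ' g₀ j p} ≤
      ∑ p, q p * (e₂ + (∑ j ∈ range n,
        (if Pr ν (fun ω => (P.W (j + 1) ω, ln ω)) (P.W (j + 1) p.2, ln p.2) ≤
            ρ * Pr ν (fun ω => (P.W j ω, ln ω)) (P.W j p.2, ln p.2) ∧
          ρ' * Pr q (fun t => (P.W j t.2, (t.1, ln t.2))) (P.W j p.2, (p.1, ln p.2)) <
            Pr q (fun t => (P.W (j + 1) t.2, (t.1, ln t.2))) (P.W (j + 1) p.2, (p.1, ln p.2))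
          then (1 : ℝ) else 0)) +
      #{j ∈ range n | BoxCut P q ln R g₀ j p}) := by
    refine sum_le_sum fun p _ => ?_
    rcases (hq.nonneg p).eq_or_lt with h0 | h0
    · rw [← h0, zero_mul, zero_mul]
    · exact mul_le_mul_of_nonneg_left (h2 p h0) h0.le
  refine h3.trans ?_
  simp only [mul_add, sum_add_distrib]
  rw [← sum_mul, hq.sum, one_mul]
  linarith

omit [Nonempty κ] in
open Classical in
/-- blocks which are cut by the boxes: cut by the grid of time, or by the rows -/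
theorem cut_le (P : Pcs Ω) {q : κ × Ω → ℝ} (hq0 : ∀ t, 0 ≤ q t) (ln : Ω → L)
    (R : ℕ → κ × Ω → β) (n g₀ : ℕ) :
    ∑ p, q p * #{j ∈ range n | BoxCut P q ln R g₀ j p} ≤
    ∑ p, q p * #{j ∈ range n | TimeCut P g₀ j p.2} +
    ∑ p, q p * #{j ∈ range n | RowCut P q ln R g₀ j p} := by
  rw [← sum_add_distrib]
  refine sum_le_sum fun p _ => ?_
  rw [← mul_add]
  refine mul_le_mul_of_nonneg_left ?_ (hq0 p)
  have h2 : #{j ∈ range n | BoxCut P q ln R g₀ j p} ≤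
      #{j ∈ range n | TimeCut P g₀ j p.2} + #{j ∈ range n | RowCut P q ln R g₀ j p} := by
    refine le_trans (card_le_card ?_) (card_union_le _ _)
    intro j hj
    obtain ⟨hjn, hg, p', a1, a2, a3, a4, a5⟩ := mem_filter.1 hj
    rw [mem_union]
    by_cases hD : P.D (P.tm j p.2 - g₀) p'.2 = P.D (P.tm j p.2 - g₀) p.2
    · exact Or.inr (mem_filter.2 ⟨hjn, hg, p', a1, a2, a3, a4, hD, a5⟩)
    · exact Or.inl (mem_filter.2 ⟨hjn, hg, p'.2, a4, hD⟩)
  exact_mod_cast h2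

end Vale.Agent.P065.H353
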