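import Vale.Agent.P065.H154.FrameBook
import Vale.Agent.P065.H60.FrItv
import Vale.Agent.P065.H353.Bad
import Vale.Agent.P065.H353.GuardQ2

/-!
# P065, BOOK on the frame: the input `hbad` (helper353)
-/

set_option autoImplicit false

open Finset Real

noncomputable section

namespace Vale.Agent.P065.H353

open Vale.Agent.P065.UB Vale.Agent.P065.Ent Vale.Agent.P065.H268 Vale.Agent.P065.H725
open Vale.Agent.P065.H154

section

variable {Ω : Type*} {F : Fr Ω} {ln : Ω → Pt} {p : Prm}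

/-- the boxes are determined by the line, the time cell and the row -/
theorem Rt_of_row' (u : ℝ) {γ t : ℕ} (c : p.Col) (ht : t ≤ Prm.ex c.1 + γ) {ω ω' : Ω}
    (hl : ln ω = ln ω') (hD : F.D u t ω = F.D u t ω')
    (hN : ⌊(Prm.b c.1 (F.P.x ω) (ln ω) + (c.2 : ℕ)) / ((3 : ℕ) * 2 ^ (Prm.ex c.1 + γ - t))⌋ =
      ⌊(Prm.b c.1 (F.P.x ω') (ln ω') + (c.2 : ℕ)) / ((3 : ℕ) * 2 ^ (Prm.ex c.1 + γ - t))⌋) :
    Rt F ln p u γ t (c, ω) = Rt F ln p u γ t (c, ω') := by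
  rw [← Prm.N_eq c ht, ← Prm.N_eq c ht] at hN
  unfold Rt
  simp only [Prod.mk.injEq]
  refine ⟨trivial, by rw [hl], hD, ?_⟩
  rcases F.T'_cases hD with ⟨-, hT⟩ | ⟨hT, hT'⟩
  · unfold Nf
    rw [← hT]
    exact Prm.N_nest (min_le_left _ _) hN
  · unfold Nf
    rw [min_eq_left (by omega), min_eq_left (by omega)]
    exact hN

variable [Fintype Ω]

lemma Q_tm (u : ℝ) (s₀ j : ℕ) (ω : Ω) : (F.Q u s₀).tm j ω = F.P.tm j ω := by
  show ((F.P.shift u).up s₀).tm j ω = _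
  rw [Pcs.up_tm, Pcs.shift_tm]

/-- the heights of a line in one piece -/
theorem b_piece (k : p.Kap) (j : ℕ) (hM : F.P.T ≤ Prm.ex k) {ω ω' : Ω} (h2 : 2 ≤ F.P.tm j ω)
    (hl : ln ω = ln ω') (hW : F.P.W j ω = F.P.W j ω') :
    Prm.b k (F.P.x ω') (ln ω') - Prm.b k (F.P.x ω) (ln ω) ≤
      (2 : ℕ) * ((3 : ℕ) * 2 ^ (Prm.ex k - (F.P.tm j ω - 2))) := by
  rw [← hl, Prm.b_sub]
  have h0 := Prm.f_nonneg k (ln ω)
  have h1 := Prm.f_lt_one k (ln ω)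
  have htT := F.P.tm_le_T j ω
  have e : (2 : ℝ) ^ Prm.ex k = 2 ^ (Prm.ex k - (F.P.tm j ω - 2)) * 2 ^ (F.P.tm j ω - 2) := by
    rw [← pow_add]
    congr 1
    omega
  have e2 : (2 : ℝ) ^ F.P.tm j ω = 4 * 2 ^ (F.P.tm j ω - 2) := by
    have : (4 : ℝ) = 2 ^ 2 := by norm_num
    rw [this, ← pow_add]
    congr 1
    omega
  have h3 := F.P.sub_le_len (j := j) (ω := ω) (a := ω) (b := ω') rfl hW.symm
  have h4 := F.P.δ_pos
  have h5 := F.P.tm_lt j ω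
  rw [e2] at h5
  have h6 : (0 : ℝ) < 2 ^ (F.P.tm j ω - 2) := by positivity
  have h7 : (0 : ℝ) < 2 ^ (Prm.ex k - (F.P.tm j ω - 2)) := by positivity
  have h8 : (2 : ℝ) ^ (F.P.tm j ω - 2) * (F.P.x ω' - F.P.x ω) ≤ 2 := by
    have h9 : (2 : ℝ) ^ (F.P.tm j ω - 2) * (F.P.x ω' - F.P.x ω) ≤
        2 ^ (F.P.tm j ω - 2) * F.P.len j ω := mul_le_mul_of_nonneg_left (by linarith) h6.le
    linarith
  have h10 : (2 : ℝ) ^ (F.P.tm j ω - 2) * ((F.P.x ω' - F.P.x ω) * Prm.f k (ln ω)) ≤ 2 := by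
    rcases le_total 0 (F.P.x ω' - F.P.x ω) with h11 | h11
    · have h12 : (0 : ℝ) ≤ 2 ^ (F.P.tm j ω - 2) * (F.P.x ω' - F.P.x ω) := by positivity
      nlinarith
    · have h12 : (F.P.x ω' - F.P.x ω) * Prm.f k (ln ω) ≤ 0 :=
        mul_nonpos_of_nonpos_of_nonneg h11 h0
      nlinarith
  push_cast
  rw [e]
  nlinarith

open Classical in
/-- **the blocks which are cut by the boxes of the frame** -/
theorem cutF_le (u : ℝ) (s₀ γ g₀ : ℕ) (hγ : γ ≤ p.Γ) (hg₀ : 2 ≤ g₀) (hM : F.P.T + s₀ ≤ p.M)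
    {q : p.Col × Ω → ℝ} (hq : IsProb q) (hper : LPer F p q) {cut : ℝ}
    (hcut : ∑ a, q a * #(F.P.cutB g₀ F.n u a.2) ≤ cut) :
    ∑ a, q a * #{j ∈ range F.n | BoxCut (F.Q u s₀) q ln (Rt F ln p u γ) g₀ j a} ≤
      cut + F.n * (8 / 2 ^ (g₀ + γ)) := by
  have hex : ∀ k : p.Kap, p.M ≤ Prm.ex k := fun k => by
    have h4 : Prm.ex k = p.K - Prm.js k + p.M := rfl
    omega
  have htm : ∀ j ω, (F.Q u s₀).tm j ω ≤ p.M := by
    intro j ω
    rw [Q_tm]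
    have := F.P.tm_le_T j ω
    omega
  have h1 := cut_le (F.Q u s₀) hq.nonneg ln (Rt F ln p u γ) F.n g₀
  have h2 : ∑ a, q a * #{j ∈ range F.n | RowCut (F.Q u s₀) q ln (Rt F ln p u γ) g₀ j a} ≤
      F.n * ((2 : ℕ) / 2 ^ (g₀ - 2 + γ)) := by
    refine rowcut_le (κ' := p.Kap) (nT := p.nT) hq (F.Q u s₀) ln F.n g₀ γ 2 2 hg₀ (υ := 3)
      (by norm_num) (fun k => Prm.ex k) (fun k => 2 ^ (Prm.js k + (p.Γ - γ)))
      (fun k => periods k hγ) (fun k j ω _ => (htm j ω).trans (hex k))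
      (fun k ω => Prm.b k (F.P.x ω) (ln ω)) ?_ F.T' ?_ (fun k ω i i' h => hper k i i' ω h)
      (Rt F ln p u γ) ?_
    · intro k j _ ω ω' h3 h4 h5
      rw [Q_tm] at h3 ⊢
      refine b_piece k j ?_ (by omega) h4 h5
      have := hex k
      omega
    · intro k j ω ω' _ _ h4 h5 h6
      rw [Q_tm]
      refine F.tm_le_of_ne h5 ?_
      intro h7
      apply h6
      show Prm.b k (F.P.x ω) (ln ω) = Prm.b k (F.P.x ω') (ln ω')
      rw [h4, h7]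
    · intro k j ω ω' _ _ h4 _ h6 h7
      refine Rt_of_row' u k ?_ h4 h6 h7
      have h8 := htm j ω
      have h9 := hex k.1
      omega
  have h3 : ∑ a, q a * #{j ∈ range F.n | TimeCut (F.Q u s₀) g₀ j a.2} ≤ cut := by
    refine le_trans (le_of_eq ?_) hcut
    refine sum_congr rfl fun a _ => ?_
    have e : (range F.n).filter (fun j => TimeCut (F.Q u s₀) g₀ j a.2) =
        F.P.cutB g₀ F.n u a.2 := by
      ext j
      unfold Pcs.cutB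
      rw [mem_filter, mem_filter]
      unfold TimeCut
      rw [Q_tm]
      exact Iff.rfl
    rw [e]
  have h4 : (((2 : ℕ) : ℝ)) / 2 ^ (g₀ - 2 + γ) = 8 / 2 ^ (g₀ + γ) := by
    have e : (2 : ℝ) ^ (g₀ + γ) = 4 * 2 ^ (g₀ - 2 + γ) := by
      have : (4 : ℝ) = 2 ^ 2 := by norm_num
      rw [this, ← pow_add]
      congr 1
      omega
    rw [e]
    have h5 : (0 : ℝ) < 2 ^ (g₀ - 2 + γ) := by positivity
    push_cast
    field_simp
    norm_num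
  rw [h4] at h2
  linarith

open Classical in
/-- **input `hbad`** of the bookkeeping theorem on the frame -/
theorem hbad (u : ℝ) (s₀ γ g₀ : ℕ) (hγ : γ ≤ p.Γ) (hg₀ : 2 ≤ g₀) (hM : F.P.T + s₀ ≤ p.M)
    {q : p.Col × Ω → ℝ} (hq : IsProb q) (hper : LPer F p q) {ν : Ω → ℝ} (hν : IsProb ν) {c : ℝ}
    (hc : 0 < c) (hle : ∀ a, q a ≤ c * ν a.2) (N : ℕ)
    (hN : ∀ ω, 0 < ν ω → Nat.card {k : p.Col // ∃ ω', ln ω' = ln ω ∧ 0 < q (k, ω')} ≤ N)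
    {ρ ρ' : ℝ} (hρ : ρ < ρ') {e₂ cut : ℝ}
    (hspl : ∀ a : p.Col × Ω, 0 < q a → (#{j ∈ range F.n |
      ¬ Pr ν (fun ω => (F.P.W (j + 1) ω, ln ω)) (F.P.W (j + 1) a.2, ln a.2) ≤
        ρ * Pr ν (fun ω => (F.P.W j ω, ln ω)) (F.P.W j a.2, ln a.2)} : ℝ) ≤ e₂)
    (hcut : ∑ a, q a * #(F.P.cutB g₀ F.n u a.2) ≤ cut) :
    ∑ a, q a * #{j ∈ range F.n | g₀ ≤ (F.Q u s₀).tm j a.2 ∧
      ¬ Good (Pf F p u s₀) q (fun a => (a.1, ln a.2)) (Rt F ln p u γ) ρ' g₀ j a} ≤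
      e₂ + 4 / (ρ' - ρ) ^ 2 * log (c * N) + (cut + F.n * (8 / 2 ^ (g₀ + γ))) := by
  refine bad_le (F.Q u s₀) hq hν hc hle ln N ?_ (Rt F ln p u γ) F.n g₀ hρ hspl
    (cutF_le u s₀ γ g₀ hγ hg₀ hM hq hper hcut)
  intro ω hω
  have h1 := hN ω hω
  rw [Nat.card_eq_fintype_card, Fintype.card_subtype] at h1
  have key : ∀ (S : p.Col → Prop) (i₁ i₂ : DecidablePred S),
      (@Finset.filter _ S i₁ univ).card = (@Finset.filter _ S i₂ univ).card := by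
    intro S i₁ i₂
    rw [Subsingleton.elim i₁ i₂]
  exact (key _ _ _).le.trans h1

end

/-- the split blocks of a typical flag (`Loc.bad`) -/
lemma card_unsplit_le {n : ℕ} {e₂ : ℝ} {Good : ℕ → Prop} [DecidablePred fun j => ¬ Good j]
    (h : ∃ S : Finset ℕ, (#S : ℝ) ≤ e₂ ∧ ∀ j < n, j ∉ S → Good j) :
    (#{j ∈ range n | ¬ Good j} : ℝ) ≤ e₂ := by
  obtain ⟨S, h1, h2⟩ := h
  refine le_trans ?_ h1
  have h3 : #{j ∈ range n | ¬ Good j} ≤ #S := by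
    refine card_le_card fun j hj => ?_
    obtain ⟨h4, h5⟩ := mem_filter.1 hj
    by_contra h6
    exact h5 (h2 j (mem_range.1 h4) h6)
  exact_mod_cast h3

end Vale.Agent.P065.H353
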