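import Vale.Agent.P065.H587.Ent2

/-!
# P065, package BOOK: the guard lemma (helper353)

Rows with guard digits: for a line, the height `b` of a flag is a function of the time, its
variation inside a dyadic cell `D t` is at most `2 ^ (M - t)` (units of the finest grid), and the
row of step `t` is `⌊(b + i) / 2 ^ (M + γ - t)⌋`, where `i < 2 ^ (M + γ)` is a random offset. The
total ambiguity of the rows given the time cells is at most `4 / 2 ^ γ` times the time entropy.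
-/

set_option autoImplicit false

open Finset Real

noncomputable section

namespace Vale.Agent.P065.H353

open Vale.Agent.P065.Ent

variable {Ω : Type*} [Fintype Ω] {α β δ : Type*} {μ : Ω → ℝ}

/-- an integer variable is determined by its thresholds -/
lemma Hc_le_thr (hμ : IsProb μ) (F : Ω → ℤ) (Z : Ω → β) (m₀ : ℤ) (n : ℕ) (h0 : ∀ ω, m₀ ≤ F ω)
    (h1 : ∀ ω, F ω ≤ m₀ + n) :
    Hc μ F Z ≤ ∑ m ∈ Ioc m₀ (m₀ + n), Hc μ (fun ω => m ≤ F ω) Z := by
  have key : ∀ k : ℕ, Hc μ (fun ω => min (F ω) (m₀ + k)) Z ≤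
      ∑ m ∈ Ioc m₀ (m₀ + k), Hc μ (fun ω => m ≤ F ω) Z := by
    intro k
    induction k with
    | zero =>
      have h2 : Hc μ (fun ω => min (F ω) (m₀ + (0 : ℕ))) Z = 0 := by
        refine Hc_eq_zero fun ω ω' _ => ?_
        have := h0 ω
        have := h0 ω'
        push_cast
        omega
      rw [h2]
      exact sum_nonneg fun m _ => Hc_nonneg hμ _ _
    | succ k ih =>
      have h2 : Hc μ (fun ω => min (F ω) (m₀ + (k + 1 : ℕ))) Z ≤
          Hc μ (fun ω => (min (F ω) (m₀ + k), m₀ + (k + 1 : ℕ) ≤ F ω)) Z := by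
        refine Hc_mono_left hμ fun ω ω' h => ?_
        obtain ⟨e1, e2⟩ := Prod.mk.inj h
        by_cases e3 : m₀ + (k + 1 : ℕ) ≤ F ω
        · have e4 : m₀ + (k + 1 : ℕ) ≤ F ω' := by rwa [← e2]
          rw [min_eq_right e3, min_eq_right e4]
        · have e4 : ¬ m₀ + (k + 1 : ℕ) ≤ F ω' := by rwa [← e2]
          push_cast at e3 e4 ⊢
          omega
      have h3 := Hc_pair_le hμ (fun ω => min (F ω) (m₀ + k))
        (fun ω => m₀ + (k + 1 : ℕ) ≤ F ω) Z
      have h4 : Ioc m₀ (m₀ + (k + 1 : ℕ)) = insert (m₀ + (k + 1 : ℕ)) (Ioc m₀ (m₀ + k)) := by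
        ext m
        rw [mem_insert, mem_Ioc, mem_Ioc]
        push_cast
        omega
      rw [h4, sum_insert (by rw [mem_Ioc]; push_cast; omega)]
      linarith
  have h2 : (fun ω => min (F ω) (m₀ + n)) = F := by
    funext ω
    exact min_eq_left (h1 ω)
  have h3 := key n
  rwa [h2] at h3

/-- counting the representations `y = m u - i` -/
lemma sum_rep_le (h : ℤ → ℝ) (hh : ∀ y, 0 ≤ h y) {u c : ℕ} (hu : 0 < u) (m₀ m₁ : ℤ)
    (Y : Finset ℤ) (hY : ∀ i ∈ range (c * u), ∀ m ∈ Ioc m₀ m₁, m * u - (i : ℤ) ∈ Y) :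
    ∑ i ∈ range (c * u), ∑ m ∈ Ioc m₀ m₁, h (m * u - (i : ℤ)) ≤ c * ∑ y ∈ Y, h y := by
  classical
  rw [← sum_product']
  have hmaps : ∀ p ∈ range (c * u) ×ˢ Ioc m₀ m₁, p.2 * (u : ℤ) - (p.1 : ℤ) ∈ Y := by
    intro p hp
    obtain ⟨h1, h2⟩ := mem_product.1 hp
    exact hY _ h1 _ h2
  rw [← sum_fiberwise_of_maps_to hmaps, mul_sum]
  refine sum_le_sum fun y _ => ?_
  have h1 : ∀ p ∈ (range (c * u) ×ˢ Ioc m₀ m₁).filter (fun p => p.2 * (u : ℤ) - (p.1 : ℤ) = y),
      h (p.2 * u - (p.1 : ℤ)) = h y := by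
    intro p hp
    rw [(mem_filter.1 hp).2]
  rw [sum_congr rfl h1, sum_const, nsmul_eq_mul]
  refine mul_le_mul_of_nonneg_right ?_ (hh y)
  have h2 : ((range (c * u) ×ˢ Ioc m₀ m₁).filter
      (fun p => p.2 * (u : ℤ) - (p.1 : ℤ) = y)).card ≤ (range c).card := by
    refine card_le_card_of_injOn (fun p => p.1 / u) ?_ ?_
    · intro p hp
      have hp' := (mem_product.1 (mem_filter.1 (mem_coe.1 hp)).1).1
      rw [coe_range]
      show p.1 / u < c
      rw [Nat.div_lt_iff_lt_mul hu]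
      exact mem_range.1 hp'
    · intro p hp p' hp' heq
      have e1 := (mem_filter.1 (mem_coe.1 hp)).2
      have e2 := (mem_filter.1 (mem_coe.1 hp')).2
      have e3 : p.1 / u = p'.1 / u := heq
      have hd := Nat.div_add_mod p.1 u
      have hd' := Nat.div_add_mod p'.1 u
      have hm := Nat.mod_lt p.1 hu
      have hm' := Nat.mod_lt p'.1 hu
      rw [e3] at hd
      -- `p.1 - p'.1 = (p.2 - p'.2) u` has absolute value less than `u`
      have e4 : ((p.1 % u : ℕ) : ℤ) - ((p'.1 % u : ℕ) : ℤ) = (p.2 - p'.2) * u := by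
        have e5 : ((p.1 : ℕ) : ℤ) = u * (p'.1 / u : ℕ) + (p.1 % u : ℕ) := by exact_mod_cast hd.symm
        have e6 : ((p'.1 : ℕ) : ℤ) = u * (p'.1 / u : ℕ) + (p'.1 % u : ℕ) := by
          exact_mod_cast hd'.symm
        linarith
      have e7 : p.2 - p'.2 = 0 := by
        by_contra hne
        have hu' : (0 : ℤ) < u := by exact_mod_cast hu
        rcases lt_or_gt_of_ne hne with h8 | h8
        · have : (p.2 - p'.2) * u ≤ -1 * u := mul_le_mul_of_nonneg_right (by omega) hu'.le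
          omega
        · have : 1 * (u : ℤ) ≤ (p.2 - p'.2) * u := mul_le_mul_of_nonneg_right (by omega) hu'.le
          omega
      have e8 : p.2 = p'.2 := by omega
      have e9 : p.1 = p'.1 := by
        rw [e8] at e1
        omega
      exact Prod.ext e9 e8
  rw [card_range] at h2
  exact_mod_cast h2

/-- the entropy of a variable which is constant on the class vanishes -/
lemma H_cnd_eq_zero (hμ : IsProb μ) (X : Ω → α) (Z : Ω → β) {z : β} (hz : 0 < Pr μ Z z)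
    (h : ∀ ω ω', Z ω = z → Z ω' = z → X ω = X ω') : H (cnd μ Z z) X = 0 := by
  classical
  have hc := cnd_isProb hμ hz
  unfold H
  refine sum_eq_zero fun ω _ => ?_
  rcases (hc.nonneg ω).eq_or_lt with h0 | h0
  · rw [← h0, zero_mul]
  · have h1 : Pr (cnd μ Z z) X (X ω) = 1 := by
      rw [← hc.sum]
      unfold Pr
      refine sum_congr rfl fun ω' _ => ?_
      rcases (hc.nonneg ω').eq_or_lt with h2 | h2
      · rw [← h2]; simp
      · rw [if_pos (h ω' ω (cnd_pos h2) (cnd_pos h0))]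
    rw [h1, log_one]; simp

omit [Fintype Ω] in
/-- the thresholds in one class -/
lemma card_thr_le (b : Ω → ℝ) (S : Finset Ω) {w : ℝ} (hw0 : 0 ≤ w)
    (hw : ∀ ω ∈ S, ∀ ω' ∈ S, b ω' - b ω ≤ w) (Y : Finset ℤ)
    (hY : ∀ y ∈ Y, ∃ ω ∈ S, ∃ ω' ∈ S, b ω < y ∧ (y : ℝ) ≤ b ω') : (Y.card : ℝ) ≤ w + 1 := by
  classical
  rcases Y.eq_empty_or_nonempty with rfl | ⟨y₀, hy₀⟩
  · simp only [card_empty, Nat.cast_zero]
    linarith
  obtain ⟨a, ha, -⟩ := hY y₀ hy₀
  have hS : S.Nonempty := ⟨a, ha⟩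
  obtain ⟨u, hu, hu'⟩ := exists_min_image S b hS
  obtain ⟨v, hv, hv'⟩ := exists_max_image S b hS
  have h1 : Y ⊆ Ioc ⌊b u⌋ ⌊b v⌋ := by
    intro y hy
    obtain ⟨ω, hω, ω', hω', h2, h3⟩ := hY y hy
    rw [mem_Ioc]
    constructor
    · rw [Int.floor_lt]
      exact (hu' ω hω).trans_lt h2
    · rw [Int.le_floor]
      exact h3.trans (hv' ω' hω')
  have h2 := card_le_card h1
  rw [Int.card_Ioc] at h2
  have h3 := Int.floor_le (b v)
  have h4 := Int.lt_floor_add_one (b u)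
  have h5 := hw u hu v hv
  have h6 : ((⌊b v⌋ - ⌊b u⌋).toNat : ℝ) ≤ w + 1 := by
    rcases le_total 0 (⌊b v⌋ - ⌊b u⌋) with h7 | h7
    · have h8 : ((⌊b v⌋ - ⌊b u⌋).toNat : ℤ) = ⌊b v⌋ - ⌊b u⌋ := Int.toNat_of_nonneg h7
      have h9 : ((⌊b v⌋ - ⌊b u⌋).toNat : ℝ) = ((⌊b v⌋ - ⌊b u⌋ : ℤ) : ℝ) := by exact_mod_cast h8
      rw [h9]
      push_cast
      linarith
    · rw [Int.toNat_of_nonpos h7]
      simp only [Nat.cast_zero]
      linarith
  have h7 : (Y.card : ℝ) ≤ ((⌊b v⌋ - ⌊b u⌋).toNat : ℝ) := by exact_mod_cast h2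
  linarith

/-- one step: thresholds given the cells of step `t` -/
lemma thr_step (hμ : IsProb μ) (b : Ω → ℝ) (X : Ω → α) (Z : Ω → δ)
    (hdet : Det X Z) {w : ℝ} (hw0 : 0 ≤ w) (hw : ∀ ω ω', Z ω = Z ω' → b ω' - b ω ≤ w)
    (Y : Finset ℤ) :
    ∑ y ∈ Y, Hc μ (fun ω => (y : ℝ) ≤ b ω) Z ≤
      (w + 1) * Hc μ X Z + ∑ y ∈ Y, Hc μ (fun ω => (y : ℝ) ≤ b ω) X := by
  classical
  have hX : ∀ y : ℤ, Hc μ (fun ω => (y : ℝ) ≤ b ω) X =
      ∑ z ∈ univ.image Z, Pr μ Z z * Hc (cnd μ Z z) (fun ω => (y : ℝ) ≤ b ω) X := by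
    intro y
    rw [← Hc_fiber' hμ]
    exact Hc_congr (Det.refl _) (Det.refl _) ((Det.refl X).pair hdet) (det_fst X Z)
  simp only [hX]
  rw [sum_comm, Hc_fiber hμ X Z, mul_sum, ← sum_add_distrib]
  have hZ : ∀ y : ℤ, Hc μ (fun ω => (y : ℝ) ≤ b ω) Z =
      ∑ z ∈ univ.image Z, Pr μ Z z * H (cnd μ Z z) (fun ω => (y : ℝ) ≤ b ω) := fun y =>
    Hc_fiber hμ _ Z
  simp only [hZ]
  rw [sum_comm]
  refine sum_le_sum fun z hz => ?_
  rw [← mul_sum, ← mul_sum, mul_left_comm, ← mul_add]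
  rcases (Pr_nonneg hμ Z z).eq_or_lt with h0 | h0
  · rw [← h0, zero_mul, zero_mul]
  refine mul_le_mul_of_nonneg_left ?_ h0.le
  have hc := cnd_isProb hμ h0
  set Y' := Y.filter fun y : ℤ => ∃ ω ω', Z ω = z ∧ Z ω' = z ∧ b ω < y ∧ (y : ℝ) ≤ b ω' with hY'
  have hcard : (Y'.card : ℝ) ≤ w + 1 := by
    refine card_thr_le b (univ.filter fun ω => Z ω = z) hw0 ?_ Y' ?_
    · intro ω hω ω' hω'
      exact hw ω ω' (by rw [(mem_filter.1 hω).2, (mem_filter.1 hω').2])
    · intro y hy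
      obtain ⟨ω, ω', h1, h2, h3, h4⟩ := (mem_filter.1 hy).2
      exact ⟨ω, mem_filter.2 ⟨mem_univ _, h1⟩, ω', mem_filter.2 ⟨mem_univ _, h2⟩, h3, h4⟩
  have h1 : ∀ y ∈ Y, H (cnd μ Z z) (fun ω => (y : ℝ) ≤ b ω) ≤
      (if (∃ ω ω', Z ω = z ∧ Z ω' = z ∧ b ω < y ∧ (y : ℝ) ≤ b ω') then H (cnd μ Z z) X else 0) +
        Hc (cnd μ Z z) (fun ω => (y : ℝ) ≤ b ω) X := by
    intro y _
    split_ifs with h
    · have h2 := H_pair (cnd μ Z z) (fun ω => (y : ℝ) ≤ b ω) X
      have h3 := H_mono hc (det_fst (fun ω => (y : ℝ) ≤ b ω) X)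
      linarith
    · have h2 : H (cnd μ Z z) (fun ω => (y : ℝ) ≤ b ω) = 0 := by
        refine H_cnd_eq_zero hμ _ Z h0 fun ω ω' h3 h4 => ?_
        push Not at h
        apply propext
        constructor
        · intro h5
          by_contra h6
          exact absurd h5 (not_le.2 (h ω' ω h4 h3 (not_le.1 h6)))
        · intro h5
          by_contra h6
          exact absurd h5 (not_le.2 (h ω ω' h3 h4 (not_le.1 h6)))
      have h3 := Hc_nonneg hc (fun ω => (y : ℝ) ≤ b ω) X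
      linarith
  refine (sum_le_sum h1).trans ?_
  rw [sum_add_distrib, ← sum_filter, sum_const, nsmul_eq_mul]
  have h2 := H_nonneg hc X
  have h3 := mul_le_mul_of_nonneg_right hcard h2
  linarith

/-- telescoping of the entropy along nested variables -/
lemma sum_Hc_nest {D : ℕ → Ω → δ} (hD : ∀ t, Det (D (t + 1)) (D t)) (s : ℕ) :
    ∑ t ∈ range s, Hc μ (D (t + 1)) (D t) = Hc μ (D s) (D 0) := by
  have hd : ∀ s, Det (D s) (D 0) := by
    intro s
    induction s with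
    | zero => exact Det.refl _
    | succ s ih => exact (hD s).trans ih
  induction s with
  | zero => rw [range_zero, sum_empty]; exact (Hc_eq_zero (Det.refl (D 0))).symm
  | succ s ih =>
    rw [sum_range_succ, ih]
    have h5 : Hc μ (D (s + 1)) (D 0) = H μ (D (s + 1)) - H μ (D 0) :=
      Hc_eq (Det.refl _) (hd (s + 1)) (det_fst _ _)
    have h6 : Hc μ (D s) (D 0) = H μ (D s) - H μ (D 0) :=
      Hc_eq (Det.refl _) (hd s) (det_fst _ _)
    have h7 : Hc μ (D (s + 1)) (D s) = H μ (D (s + 1)) - H μ (D s) :=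
      Hc_eq (Det.refl _) (hD s) (det_fst _ _)
    rw [h5, h6, h7]; ring

/-- **guard lemma**, one law. The finest grid has step `1 / υ` (`υ = 1` or `3`), the offsets `i`
run over `c₀` periods. -/
theorem guard_line (hμ : IsProb μ) (D : ℕ → Ω → δ) (hD : ∀ t, Det (D (t + 1)) (D t))
    {T M γ υ c₀ : ℕ} (hTM : T ≤ M) (hυ : 0 < υ) (b : Ω → ℝ)
    (hb : ∀ t, t < T → ∀ ω ω', D t ω = D t ω' → b ω' - b ω ≤ υ * 2 ^ (M - t))
    (hbT : ∀ ω ω', D T ω = D T ω' → b ω = b ω') :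
    ∑ t ∈ range T, ∑ i ∈ range (c₀ * (υ * 2 ^ (M + γ))),
      Hc μ (fun ω => ⌊(b ω + (i : ℝ)) / (υ * 2 ^ (M + γ - (t + 1)))⌋) (D (t + 1)) ≤
      c₀ * (υ * 2 ^ (M + 2)) * Hc μ (D T) (D 0) := by
  classical
  -- bounds for all rows
  obtain ⟨K, hK⟩ : ∃ K : ℕ, ∀ ω, |b ω| ≤ K := by
    rcases isEmpty_or_nonempty Ω with hΩ | ⟨⟨ω₀⟩⟩
    · exact ⟨0, fun ω => isEmptyElim ω⟩
    · obtain ⟨v, -, hv⟩ := exists_max_image univ (fun ω => |b ω|) ⟨ω₀, mem_univ _⟩
      refine ⟨⌈|b v|⌉₊, fun ω => (hv ω (mem_univ _)).trans (Nat.le_ceil _)⟩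
  rcases Nat.eq_zero_or_pos c₀ with rfl | hc₀
  · simp
  set nT : ℕ := c₀ * (υ * 2 ^ (M + γ)) with hnT
  have hnT1 : υ * 2 ^ (M + γ) ≤ nT := Nat.le_mul_of_pos_left _ hc₀
  set m₀ : ℤ := -(K + 1) with hm₀
  set n : ℕ := 2 * K + nT + 2 with hn
  set Y : Finset ℤ := Icc (m₀ * nT - nT) ((K + nT + 1) * nT)
    with hY
  set A : ℕ → ℝ := fun t => ∑ y ∈ Y, Hc μ (fun ω => (y : ℝ) ≤ b ω) (D t) with hA
  have hA0 : ∀ t, 0 ≤ A t := fun t => sum_nonneg fun y _ => Hc_nonneg hμ _ _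
  have hAT : A T = 0 := by
    refine sum_eq_zero fun y _ => Hc_eq_zero fun ω ω' h => ?_
    rw [hbT ω ω' h]
  set E : ℕ → ℝ := fun t => Hc μ (D (t + 1)) (D t) with hE
  have hE0 : ∀ t, 0 ≤ E t := fun t => Hc_nonneg hμ _ _
  -- recursion
  have hrec : ∀ t, t < T → A t ≤ (υ * 2 ^ (M - t) + 1) * E t + A (t + 1) := fun t ht =>
    thr_step hμ b (D (t + 1)) (D t) (hD t) (by positivity) (hb t ht) Y
  -- the rows
  have hrow : ∀ t, t < T → ∑ i ∈ range nT,
      Hc μ (fun ω => ⌊(b ω + (i : ℝ)) / (υ * 2 ^ (M + γ - (t + 1)))⌋) (D (t + 1)) ≤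
      c₀ * (2 ^ (t + 1) * A (t + 1)) := by
    intro t ht
    set u : ℕ := υ * 2 ^ (M + γ - (t + 1)) with hu
    have hu0 : 0 < u := by positivity
    have huR : (υ : ℝ) * (2 : ℝ) ^ (M + γ - (t + 1)) = (u : ℝ) := by rw [hu]; push_cast; rfl
    have hcu : (c₀ * 2 ^ (t + 1)) * u = nT := by
      rw [hu, hnT, mul_assoc, mul_left_comm (2 ^ (t + 1)) υ, ← pow_add]
      congr 3
      omega
    have h1 : ∀ i ∈ range nT,
        Hc μ (fun ω => ⌊(b ω + (i : ℝ)) / (υ * 2 ^ (M + γ - (t + 1)))⌋) (D (t + 1)) ≤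
        ∑ m ∈ Ioc m₀ (m₀ + n),
          Hc μ (fun ω => ((m * u - (i : ℤ) : ℤ) : ℝ) ≤ b ω) (D (t + 1)) := by
      intro i hi
      have hi' : (i : ℝ) ≤ nT := by exact_mod_cast (mem_range.1 hi).le
      have hu1 : (1 : ℝ) ≤ u := by exact_mod_cast hu0
      have hup : (0 : ℝ) < u := by linarith
      refine (Hc_le_thr hμ _ (D (t + 1)) m₀ n ?_ ?_).trans (le_of_eq ?_)
      · intro ω
        rw [Int.le_floor, huR, le_div_iff₀ hup, hm₀]
        push_cast
        have h2 := (abs_le.1 (hK ω)).1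
        have h3 : (0 : ℝ) ≤ i := Nat.cast_nonneg i
        have h4 : (0 : ℝ) ≤ K := Nat.cast_nonneg K
        nlinarith
      · intro ω
        have h2 : ⌊(b ω + (i : ℝ)) / (υ * 2 ^ (M + γ - (t + 1)))⌋ < m₀ + n + 1 := by
          rw [Int.floor_lt, huR, div_lt_iff₀ hup, hm₀, hn]
          push_cast
          have h2 := (abs_le.1 (hK ω)).2
          have h4 : (0 : ℝ) ≤ K := Nat.cast_nonneg K
          have h5 : (0 : ℝ) ≤ nT := Nat.cast_nonneg nT
          nlinarith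
        omega
      · refine sum_congr rfl fun m _ => ?_
        congr 1
        funext ω
        rw [Int.le_floor, huR, le_div_iff₀ hup]
        push_cast
        apply propext
        constructor <;> intro h <;> linarith
    refine (sum_le_sum h1).trans ?_
    have h2 := sum_rep_le (fun y => Hc μ (fun ω => (y : ℝ) ≤ b ω) (D (t + 1)))
      (fun y => Hc_nonneg hμ _ _) (c := c₀ * 2 ^ (t + 1)) hu0 m₀ (m₀ + n) Y ?_
    · rw [hcu] at h2
      refine h2.trans (le_of_eq ?_)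
      push_cast
      rw [hA, mul_assoc]
    · intro i hi m hm
      rw [hcu] at hi
      rw [mem_Ioc] at hm
      have hi' : (i : ℤ) < nT := by exact_mod_cast mem_range.1 hi
      have hule : (u : ℤ) ≤ nT := by
        have h3 : u ≤ nT := by
          rw [← hcu]
          exact Nat.le_mul_of_pos_left _ (by positivity)
        exact_mod_cast h3
      have hu1 : (1 : ℤ) ≤ u := by exact_mod_cast hu0
      have hi0 : (0 : ℤ) ≤ i := Int.natCast_nonneg i
      have hK0 : (0 : ℤ) ≤ K := Int.natCast_nonneg K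
      have hp : (0 : ℤ) < nT := by omega
      rw [hY, mem_Icc]
      constructor
      · have h3 : m₀ * nT ≤ m * u := by
          rcases le_total 0 m with h4 | h4
          · have : m₀ * (nT : ℤ) ≤ 0 := mul_nonpos_of_nonpos_of_nonneg (by omega) hp.le
            have : 0 ≤ m * u := mul_nonneg h4 (by omega)
            omega
          · have h5 : m * nT ≤ m * u := mul_le_mul_of_nonpos_left hule h4
            have h6 : m₀ * nT ≤ m * nT := mul_le_mul_of_nonneg_right hm.1.le hp.le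
            omega
        omega
      · have h3 : m ≤ K + nT + 1 := by
          have := hm.2
          rw [hm₀, hn] at this
          push_cast at this
          omega
        have h4 : m * u ≤ (K + nT + 1) * nT := by
          rcases le_total 0 m with h4 | h4
          · exact mul_le_mul h3 hule (by omega) (by omega)
          · have h5 : m * u ≤ 0 := mul_nonpos_of_nonpos_of_nonneg h4 (by omega)
            have h6 : 0 ≤ ((K : ℤ) + nT + 1) * nT := mul_nonneg (by omega) hp.le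
            omega
        omega
  -- weighted telescoping
  have htel : ∀ s, s ≤ T → 2 * A 0 + ∑ t ∈ range s, 2 ^ (t + 1) * A (t + 1) ≤
      ∑ t ∈ range s, 2 ^ (t + 1) * ((υ * 2 ^ (M - t) + 1) * E t) + 2 ^ (s + 1) * A s := by
    intro s
    induction s with
    | zero => intro _; simp
    | succ s ih =>
      intro hs
      have h1 := ih (by omega)
      have h2 := hrec s (by omega)
      have h3 : (2 : ℝ) ^ (s + 1) * A s ≤
          2 ^ (s + 1) * ((υ * 2 ^ (M - s) + 1) * E s) + 2 ^ (s + 1) * A (s + 1) := by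
        rw [← mul_add]
        exact mul_le_mul_of_nonneg_left h2 (by positivity)
      have h4 : (2 : ℝ) ^ (s + 1 + 1) * A (s + 1) = 2 * (2 ^ (s + 1) * A (s + 1)) := by
        rw [pow_succ]; ring
      rw [sum_range_succ, sum_range_succ, h4]
      linarith
  have h1 := htel T le_rfl
  rw [hAT, mul_zero, add_zero] at h1
  have hυ1 : (1 : ℝ) ≤ υ := by exact_mod_cast hυ
  have h2 : ∑ t ∈ range T, 2 ^ (t + 1) * ((υ * 2 ^ (M - t) + 1) * E t) ≤
      υ * 2 ^ (M + 2) * ∑ t ∈ range T, E t := by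
    rw [mul_sum]
    refine sum_le_sum fun t ht => ?_
    rw [← mul_assoc]
    refine mul_le_mul_of_nonneg_right ?_ (hE0 t)
    have ht' := mem_range.1 ht
    have h3 : (2 : ℝ) ^ (t + 1) * 2 ^ (M - t) = 2 ^ (M + 1) := by
      rw [← pow_add]
      congr 1
      omega
    have h4 : (2 : ℝ) ^ (t + 1) ≤ 2 ^ (M + 1) := pow_le_pow_right₀ (by norm_num) (by omega)
    have h5 : (2 : ℝ) ^ (M + 2) = 2 ^ (M + 1) + 2 ^ (M + 1) := by rw [pow_succ]; ring
    have h6 : (0 : ℝ) < 2 ^ (M + 1) := by positivity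
    have h7 : (2 : ℝ) ^ (t + 1) * (υ * 2 ^ (M - t) + 1) =
        υ * (2 ^ (t + 1) * 2 ^ (M - t)) + 2 ^ (t + 1) := by ring
    rw [h7, h3, h5]
    nlinarith
  rw [show ∑ t ∈ range T, E t = Hc μ (D T) (D 0) from sum_Hc_nest hD T] at h2
  have h4 := sum_le_sum fun t ht => hrow t (mem_range.1 ht)
  have h5 := hA0 0
  rw [← mul_sum] at h4
  have hc₀' : (0 : ℝ) ≤ c₀ := Nat.cast_nonneg c₀
  have h6 : ∑ t ∈ range T, 2 ^ (t + 1) * A (t + 1) ≤ υ * 2 ^ (M + 2) * Hc μ (D T) (D 0) := by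
    linarith
  calc _ ≤ c₀ * ∑ t ∈ range T, 2 ^ (t + 1) * A (t + 1) := h4
    _ ≤ c₀ * (υ * 2 ^ (M + 2) * Hc μ (D T) (D 0)) := mul_le_mul_of_nonneg_left h6 hc₀'
    _ = _ := by ring

end Vale.Agent.P065.H353
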