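import Vale.Agent.P065.H353.Unn

/-!
# P065, package BOOK: the guard lemma for laws which depend on the offset (helper353)

`m i` (`i < nT` the offset of the rows) are measures on the flags of a line. On a class of `D t`
which is split, `m i` depends on the offset only modulo the unit `υ 2 ^ (M - t)` of this scale. Then
the total ambiguity of the rows given the time cells is at most `2 / 2 ^ γ` times the time entropy.
No density is needed.
-/

set_option autoImplicit false

open Finset Real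

noncomputable section

namespace Vale.Agent.P065.H353

open Vale.Agent.P065.Ent

variable {Ω : Type*} [Fintype Ω] {α β δ : Type*}

/-- the offset with `i ≡ -y` -/
def idx (n : ℕ) (y : ℤ) : ℕ := ((-y) % (n : ℤ)).toNat

lemma idx_cast {n : ℕ} (hn : 0 < n) (y : ℤ) : ((idx n y : ℕ) : ℤ) = (-y) % (n : ℤ) :=
  Int.toNat_of_nonneg (Int.emod_nonneg _ (by exact_mod_cast hn.ne'))

lemma idx_lt {n : ℕ} (hn : 0 < n) (y : ℤ) : idx n y < n := by
  have h := idx_cast hn y
  have h1 : (-y) % (n : ℤ) < n := Int.emod_lt_of_pos _ (by exact_mod_cast hn)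
  omega

lemma idx_mod {n p : ℕ} (hn : 0 < n) (hp : p ∣ n) (y : ℤ) :
    ((idx n y : ℕ) : ℤ) ≡ -y [ZMOD p] := by
  rw [idx_cast hn]
  have h1 : (-y) % (n : ℤ) ≡ -y [ZMOD n] := Int.mod_modEq _ _
  exact h1.of_dvd (by exact_mod_cast hp)

/-- a periodic function along an interval of integers -/
lemma sum_idx_le (G : ℕ → ℝ) (hG : ∀ i, 0 ≤ G i) {p c : ℕ} (hp : 0 < p) (hc : 0 < c)
    (hper : ∀ i j, i < c * p → j < c * p → i ≡ j [MOD p] → G i = G j) (y₀ : ℤ) :
    c * ∑ y ∈ Ioc y₀ (y₀ + p), G (idx (c * p) y) ≤ ∑ i ∈ range (c * p), G i := by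
  classical
  have hn : 0 < c * p := Nat.mul_pos hc hp
  have hpn : p ∣ c * p := Nat.dvd_mul_left p c
  have hple : p ≤ c * p := Nat.le_mul_of_pos_left p hc
  -- all periods
  have h1 : ∑ i ∈ range (c * p), G i = c * ∑ r ∈ range p, G r := by
    have key : ∀ a, a ≤ c → ∑ i ∈ range (a * p), G i = a * ∑ r ∈ range p, G r := by
      intro a
      induction a with
      | zero => intro _; simp
      | succ a ih =>
        intro ha
        rw [Nat.succ_mul, sum_range_add, ih (by omega)]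
        have h2 : ∑ r ∈ range p, G (a * p + r) = ∑ r ∈ range p, G r := by
          refine sum_congr rfl fun r hr => ?_
          have hr' := mem_range.1 hr
          refine hper _ _ ?_ (by omega) ?_
          · calc a * p + r < a * p + p := by omega
              _ = (a + 1) * p := by ring
              _ ≤ c * p := Nat.mul_le_mul_right p ha
          · unfold Nat.ModEq
            rw [Nat.add_comm, Nat.add_mul_mod_self_right]
        rw [h2]
        push_cast
        ring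
    exact key c le_rfl
  rw [h1]
  refine mul_le_mul_of_nonneg_left ?_ (Nat.cast_nonneg c)
  have h2 : ∀ y : ℤ, G (idx (c * p) y) = G (idx (c * p) y % p) := by
    intro y
    refine hper _ _ (idx_lt hn y) ?_ ?_
    · exact (Nat.mod_lt _ hp).trans_le hple
    · exact (Nat.mod_modEq _ _).symm
  rw [sum_congr rfl fun y _ => h2 y]
  have hinj : Set.InjOn (fun y : ℤ => idx (c * p) y % p) (Ioc y₀ (y₀ + p) : Finset ℤ) := by
    intro y hy y' hy' h
    rw [mem_coe, mem_Ioc] at hy hy'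
    have e1 : ((idx (c * p) y : ℕ) : ℤ) ≡ ((idx (c * p) y' : ℕ) : ℤ) [ZMOD p] := by
      have h3 : idx (c * p) y ≡ idx (c * p) y' [MOD p] := h
      exact (Int.natCast_modEq_iff).2 h3
    have e2 := ((idx_mod hn hpn y).symm.trans e1).trans (idx_mod hn hpn y')
    have e3 : (p : ℤ) ∣ (-y') - (-y) := e2.dvd
    obtain ⟨k, hk⟩ := e3
    have hp' : (0 : ℤ) < p := by exact_mod_cast hp
    have hk0 : k = 0 := by
      by_contra hne
      rcases lt_or_gt_of_ne hne with h4 | h4
      · have : (p : ℤ) * k ≤ p * (-1) := mul_le_mul_of_nonneg_left (by omega) hp'.le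
        omega
      · have : (p : ℤ) * 1 ≤ p * k := mul_le_mul_of_nonneg_left (by omega) hp'.le
        omega
    rw [hk0, mul_zero] at hk
    omega
  calc ∑ y ∈ Ioc y₀ (y₀ + p), G (idx (c * p) y % p)
      = ∑ r ∈ (Ioc y₀ (y₀ + p)).image (fun y : ℤ => idx (c * p) y % p), G r :=
        (sum_image hinj).symm
    _ ≤ ∑ r ∈ range p, G r := by
        refine sum_le_sum_of_subset_of_nonneg ?_ fun r _ _ => hG r
        intro r hr
        obtain ⟨y, -, rfl⟩ := mem_image.1 hr
        exact mem_range.2 (Nat.mod_lt _ hp)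

/-- **guard lemma for one line**, measures which depend on the offset -/
theorem guardQ_line {m : ℕ → Ω → ℝ} (hm : ∀ i ω, 0 ≤ m i ω) (D : ℕ → Ω → δ)
    (hD : ∀ t, Det (D (t + 1)) (D t)) {T M γ υ c₀ : ℕ} (hTM : T ≤ M) (hυ : 0 < υ) (b : Ω → ℝ)
    (hb : ∀ t, t < T → ∀ ω ω', D t ω = D t ω' → b ω' - b ω ≤ υ * 2 ^ (M - t))
    (hbT : ∀ ω ω', D T ω = D T ω' → b ω = b ω') (τ : Ω → ℕ)
    (hτ : ∀ t, t ≤ T → ∀ ω ω', D t ω = D t ω' → b ω ≠ b ω' → t ≤ τ ω)
    (hper : ∀ ω i j, i < c₀ * (υ * 2 ^ (M + γ)) → j < c₀ * (υ * 2 ^ (M + γ)) →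
      i ≡ j [MOD υ * 2 ^ (M - τ ω)] → m i ω = m j ω) :
    ∑ t ∈ range T, ∑ i ∈ range (c₀ * (υ * 2 ^ (M + γ))),
      Hc (m i) (fun ω => ⌊(b ω + (i : ℝ)) / (υ * 2 ^ (M + γ - (t + 1)))⌋) (D (t + 1)) ≤
      2 / 2 ^ γ * ∑ i ∈ range (c₀ * (υ * 2 ^ (M + γ))), Hc (m i) (D T) (D 0) := by
  classical
  -- bounds for all rows
  obtain ⟨K, hK⟩ : ∃ K : ℕ, ∀ ω, |b ω| ≤ K := by
    rcases isEmpty_or_nonempty Ω with hΩ | ⟨⟨ω₀⟩⟩
    · exact ⟨0, fun ω => isEmptyElim ω⟩
    · obtain ⟨v, -, hv⟩ := exists_max_image univ (fun ω => |b ω|) ⟨ω₀, mem_univ _⟩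
      refine ⟨⌈|b v|⌉₊, fun ω => (hv ω (mem_univ _)).trans (Nat.le_ceil _)⟩
  rcases Nat.eq_zero_or_pos c₀ with rfl | hc₀
  · simp
  set nT : ℕ := c₀ * (υ * 2 ^ (M + γ)) with hnT
  have hnT0 : 0 < nT := by positivity
  set m₀ : ℤ := -(K + 1) with hm₀
  set n : ℕ := 2 * K + nT + 2 with hn
  set Y : Finset ℤ := Icc (m₀ * nT - nT) ((K + nT + 1) * nT) with hY
  -- the classes and the periods
  have hsplit : ∀ t, t ≤ M → nT = (c₀ * 2 ^ (γ + t)) * (υ * 2 ^ (M - t)) := by
    intro t ht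
    rw [hnT]
    have e : (2 : ℕ) ^ (M + γ) = 2 ^ (γ + t) * 2 ^ (M - t) := by
      rw [← pow_add]
      congr 1
      omega
    rw [e]
    ring
  have hP : ∀ t, t ≤ T → ∀ z, (∃ ω ω', D t ω = z ∧ D t ω' = z ∧ b ω ≠ b ω') → ∀ i j,
      i < nT → j < nT → i ≡ j [MOD υ * 2 ^ (M - t)] → rs (m i) (D t) z = rs (m j) (D t) z := by
    rintro t ht z ⟨ω, ω', h1, h2, h3⟩ i j hi hj hij
    refine rs_congr fun ω₂ h4 => hper ω₂ i j hi hj ?_
    have h5 : t ≤ τ ω₂ := by
      by_cases h6 : b ω₂ = b ω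
      · exact hτ t ht ω₂ ω' (by rw [h4, h2]) (by rw [h6]; exact h3)
      · exact hτ t ht ω₂ ω (by rw [h4, h1]) h6
    refine hij.of_dvd (Nat.mul_dvd_mul_left υ (pow_dvd_pow 2 (by omega)))
  set A : ℕ → ℝ := fun t => ∑ y ∈ Y, Hc (m (idx nT y)) (fun ω => (y : ℝ) ≤ b ω) (D t) with hA
  have hA0 : ∀ t, 0 ≤ A t := fun t => sum_nonneg fun y _ => Hc_nonneg' (hm _) _ _
  have hAT : A T = 0 := by
    refine sum_eq_zero fun y _ => Hc_eq_zero fun ω ω' h => ?_
    rw [hbT ω ω' h]
  set E : ℕ → ℝ := fun t => ∑ i ∈ range nT, Hc (m i) (D (t + 1)) (D t) with hE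
  have hE0 : ∀ t, 0 ≤ E t := fun t => sum_nonneg fun i _ => Hc_nonneg' (hm _) _ _
  -- recursion
  have hrec : ∀ t, t < T → ((c₀ * 2 ^ (γ + t) : ℕ) : ℝ) * A t ≤
      E t + ((c₀ * 2 ^ (γ + t) : ℕ) : ℝ) * A (t + 1) := by
    intro t ht
    have hc : 0 < c₀ * 2 ^ (γ + t) := by positivity
    have hp : 0 < υ * 2 ^ (M - t) := by positivity
    have e1 : A t = ∑ z ∈ univ.image (D t), ∑ y ∈ Y,
        Hc (rs (m (idx nT y)) (D t) z) (fun ω => (y : ℝ) ≤ b ω) (D t) := by
      rw [hA, sum_comm]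
      exact sum_congr rfl fun y _ => Hc_rs _ (Det.refl _)
    have e2 : A (t + 1) = ∑ z ∈ univ.image (D t), ∑ y ∈ Y,
        Hc (rs (m (idx nT y)) (D t) z) (fun ω => (y : ℝ) ≤ b ω) (D (t + 1)) := by
      rw [hA, sum_comm]
      exact sum_congr rfl fun y _ => Hc_rs _ (hD t)
    have e3 : E t = ∑ z ∈ univ.image (D t), ∑ i ∈ range nT,
        Hc (rs (m i) (D t) z) (D (t + 1)) (D t) := by
      rw [hE, sum_comm]
      exact sum_congr rfl fun i _ => Hc_rs _ (Det.refl _)
    rw [e1, e2, e3, mul_sum, mul_sum, ← sum_add_distrib]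
    refine sum_le_sum fun z hz => ?_
    have hnn : ∀ i ω, 0 ≤ rs (m i) (D t) z ω := fun i => rs_nonneg (hm i) _ _
    by_cases hcz : ∃ ω ω', D t ω = z ∧ D t ω' = z ∧ b ω ≠ b ω'
    swap
    · have h0 : ∀ y ∈ Y, Hc (rs (m (idx nT y)) (D t) z) (fun ω => (y : ℝ) ≤ b ω) (D t) = 0 := by
        intro y _
        refine Hc_eq_zero_supp _ _ fun ω ω' h1 h2 h3 => ?_
        have f1 : D t ω = z := by
          by_contra h
          exact h1 (by unfold rs; rw [if_neg h])
        have f2 : b ω = b ω' := by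
          by_contra h
          exact hcz ⟨ω, ω', f1, h3.symm.trans f1, h⟩
        rw [f2]
      rw [sum_eq_zero h0, mul_zero]
      refine add_nonneg (sum_nonneg fun i _ => Hc_nonneg' (hnn i) _ _) (mul_nonneg
        (Nat.cast_nonneg _) (sum_nonneg fun y _ => Hc_nonneg' (hnn _) _ _))
    -- the window of the class
    have hS : (univ.filter fun ω => D t ω = z).Nonempty := by
      obtain ⟨ω, -, h1, -⟩ := hcz
      exact ⟨ω, mem_filter.2 ⟨mem_univ _, h1⟩⟩
    obtain ⟨u, hu, hu'⟩ := exists_min_image _ b hS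
    have hu1 := (mem_filter.1 hu).2
    set G : ℕ → ℝ := fun i => Hc (rs (m i) (D t) z) (D (t + 1)) (D t) with hG
    have hG0 : ∀ i, 0 ≤ G i := fun i => Hc_nonneg' (hnn i) _ _
    have hstep : ∀ y ∈ Y, Hc (rs (m (idx nT y)) (D t) z) (fun ω => (y : ℝ) ≤ b ω) (D t) ≤
        (if y ∈ Ioc ⌊b u⌋ (⌊b u⌋ + ((υ * 2 ^ (M - t) : ℕ) : ℤ)) then G (idx nT y) else 0) +
        Hc (rs (m (idx nT y)) (D t) z) (fun ω => (y : ℝ) ≤ b ω) (D (t + 1)) := by
      intro y _
      split_ifs with h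
      · exact Hc_step' (hnn _) _ (hD t)
      · have h1 : Hc (rs (m (idx nT y)) (D t) z) (fun ω => (y : ℝ) ≤ b ω) (D t) = 0 := by
          refine Hc_eq_zero_supp _ _ fun ω ω' h1 h2 h3 => ?_
          have f1 : D t ω = z := by
            by_contra h
            exact h1 (by unfold rs; rw [if_neg h])
          have f2 : D t ω' = z := h3.symm.trans f1
          rw [mem_Ioc, not_and_or, not_lt, not_le] at h
          have g1 := hu' ω (mem_filter.2 ⟨mem_univ _, f1⟩)
          have g2 := hu' ω' (mem_filter.2 ⟨mem_univ _, f2⟩)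
          apply propext
          rcases h with h | h
          · have g3 : (y : ℝ) ≤ b u := by
              have : (y : ℝ) ≤ (⌊b u⌋ : ℝ) := by exact_mod_cast h
              exact this.trans (Int.floor_le _)
            exact ⟨fun _ => g3.trans g2, fun _ => g3.trans g1⟩
          · have key : ∀ ω₁, D t ω₁ = z → ¬ (y : ℝ) ≤ b ω₁ := by
              intro ω₁ k1 k2
              have k3 := hb t ht u ω₁ (by rw [hu1, k1])
              have k4 : ((υ * 2 ^ (M - t) : ℕ) : ℝ) = υ * 2 ^ (M - t) := by push_cast; rfl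
              have k5 : y ≤ ⌊b u + ((υ * 2 ^ (M - t) : ℕ) : ℤ)⌋ := by
                rw [Int.le_floor]
                push_cast
                linarith
              rw [Int.floor_add_intCast] at k5
              omega
            exact ⟨fun g => absurd g (key ω f1), fun g => absurd g (key ω' f2)⟩
        rw [h1, zero_add]
        exact Hc_nonneg' (hnn _) _ _
    have h1 := sum_le_sum hstep
    rw [sum_add_distrib] at h1
    have h2 : ∑ y ∈ Y, (if y ∈ Ioc ⌊b u⌋ (⌊b u⌋ + ((υ * 2 ^ (M - t) : ℕ) : ℤ)) then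
        G (idx nT y) else 0) ≤ ∑ y ∈ Ioc ⌊b u⌋ (⌊b u⌋ + ((υ * 2 ^ (M - t) : ℕ) : ℤ)),
        G (idx nT y) := by
      rw [← sum_filter]
      refine sum_le_sum_of_subset_of_nonneg ?_ fun y _ _ => hG0 _
      intro y hy
      exact (mem_filter.1 hy).2
    have h3 := sum_idx_le G hG0 hp hc (fun i j hi hj hij => by
      rw [hG]
      have := hP t ht.le z hcz i j (by rw [hsplit t (by omega)]; exact hi)
        (by rw [hsplit t (by omega)]; exact hj) hij
      simp only [this]) ⌊b u⌋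
    rw [← hsplit t (by omega)] at h3
    have h4 : (0 : ℝ) ≤ ((c₀ * 2 ^ (γ + t) : ℕ) : ℝ) := Nat.cast_nonneg _
    have h5 := mul_le_mul_of_nonneg_left (h1.trans (add_le_add h2 le_rfl)) h4
    rw [mul_add] at h5
    linarith
  -- the rows
  have hrow : ∀ t, t < T → ∑ i ∈ range nT,
      Hc (m i) (fun ω => ⌊(b ω + (i : ℝ)) / (υ * 2 ^ (M + γ - (t + 1)))⌋) (D (t + 1)) ≤
      c₀ * (2 ^ (t + 1) * A (t + 1)) := by
    intro t ht
    set u : ℕ := υ * 2 ^ (M + γ - (t + 1)) with hu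
    have hu0 : 0 < u := by positivity
    have huR : (υ : ℝ) * (2 : ℝ) ^ (M + γ - (t + 1)) = (u : ℝ) := by rw [hu]; push_cast; rfl
    have hcu : (c₀ * 2 ^ (t + 1)) * u = nT := by
      rw [hu, hnT, mul_assoc, mul_left_comm (2 ^ (t + 1)) υ, ← pow_add]
      congr 3
      omega
    have hpu : υ * 2 ^ (M - (t + 1)) ∣ u := by
      rw [hu]
      exact Nat.mul_dvd_mul_left υ (pow_dvd_pow 2 (by omega))
    have hpn : υ * 2 ^ (M - (t + 1)) ∣ nT := hpu.trans (by rw [← hcu]; exact Nat.dvd_mul_left _ _)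
    have e1 : ∀ i, Hc (m i) (fun ω => ⌊(b ω + (i : ℝ)) / (υ * 2 ^ (M + γ - (t + 1)))⌋)
        (D (t + 1)) = ∑ z ∈ univ.image (D (t + 1)), Hc (rs (m i) (D (t + 1)) z)
          (fun ω => ⌊(b ω + (i : ℝ)) / (υ * 2 ^ (M + γ - (t + 1)))⌋) (D (t + 1)) :=
      fun i => Hc_rs _ (Det.refl _)
    have e2 : A (t + 1) = ∑ z ∈ univ.image (D (t + 1)), ∑ y ∈ Y,
        Hc (rs (m (idx nT y)) (D (t + 1)) z) (fun ω => (y : ℝ) ≤ b ω) (D (t + 1)) := by
      rw [hA, sum_comm]
      exact sum_congr rfl fun y _ => Hc_rs _ (Det.refl _)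
    simp only [e1]
    rw [sum_comm, e2, mul_sum, mul_sum]
    refine sum_le_sum fun z _ => ?_
    have hnn : ∀ i ω, 0 ≤ rs (m i) (D (t + 1)) z ω := fun i => rs_nonneg (hm i) _ _
    by_cases hcz : ∃ ω ω', D (t + 1) ω = z ∧ D (t + 1) ω' = z ∧ b ω ≠ b ω'
    swap
    · have h0 : ∀ i ∈ range nT, Hc (rs (m i) (D (t + 1)) z)
          (fun ω => ⌊(b ω + (i : ℝ)) / (υ * 2 ^ (M + γ - (t + 1)))⌋) (D (t + 1)) = 0 := by
        intro i _
        refine Hc_eq_zero_supp _ _ fun ω ω' h1 h2 h3 => ?_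
        have f1 : D (t + 1) ω = z := by
          by_contra h
          exact h1 (by unfold rs; rw [if_neg h])
        have f2 : b ω = b ω' := by
          by_contra h
          exact hcz ⟨ω, ω', f1, h3.symm.trans f1, h⟩
        rw [f2]
      rw [sum_eq_zero h0]
      refine mul_nonneg (Nat.cast_nonneg _) (mul_nonneg (by positivity)
        (sum_nonneg fun y _ => Hc_nonneg' (hnn _) _ _))
    set h : ℤ → ℝ := fun y => Hc (rs (m (idx nT y)) (D (t + 1)) z) (fun ω => (y : ℝ) ≤ b ω)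
      (D (t + 1)) with hh
    have hh0 : ∀ y, 0 ≤ h y := fun y => Hc_nonneg' (hnn _) _ _
    have h1 : ∀ i ∈ range nT, Hc (rs (m i) (D (t + 1)) z)
        (fun ω => ⌊(b ω + (i : ℝ)) / (υ * 2 ^ (M + γ - (t + 1)))⌋) (D (t + 1)) ≤
        ∑ k ∈ Ioc m₀ (m₀ + n), h (k * u - (i : ℤ)) := by
      intro i hi
      have hi'' := mem_range.1 hi
      have hi' : (i : ℝ) ≤ nT := by exact_mod_cast hi''.le
      have hu1 : (1 : ℝ) ≤ u := by exact_mod_cast hu0
      have hup : (0 : ℝ) < u := by linarith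
      refine (Hc_le_thr' (hnn i) _ (D (t + 1)) m₀ n ?_ ?_).trans (le_of_eq ?_)
      · intro ω
        rw [Int.le_floor, huR, le_div_iff₀ hup, hm₀]
        push_cast
        have h2 := (abs_le.1 (hK ω)).1
        have h3 : (0 : ℝ) ≤ i := Nat.cast_nonneg i
        have h4 : (0 : ℝ) ≤ K := Nat.cast_nonneg K
        nlinarith
      · intro ω
        have h2 : ⌊(b ω + (i : ℝ)) / (υ * 2 ^ (M + γ - (t + 1)))⌋ < m₀ + n + 1 := by
          rw [Int.floor_lt, huR, div_lt_iff₀ hup, hm₀, hn]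
          push_cast
          have h2 := (abs_le.1 (hK ω)).2
          have h4 : (0 : ℝ) ≤ K := Nat.cast_nonneg K
          have h5 : (0 : ℝ) ≤ nT := Nat.cast_nonneg nT
          nlinarith
        omega
      · refine sum_congr rfl fun k _ => ?_
        have f1 : rs (m (idx nT (k * u - (i : ℤ)))) (D (t + 1)) z = rs (m i) (D (t + 1)) z := by
          refine hP (t + 1) (by omega) z hcz _ _ (idx_lt hnT0 _) hi'' ?_
          rw [← Int.natCast_modEq_iff]
          refine (idx_mod hnT0 hpn _).trans ?_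
          have f2 : -(k * (u : ℤ) - (i : ℤ)) = (i : ℤ) - k * u := by ring
          rw [f2]
          refine (Int.modEq_iff_dvd).2 ?_
          have f3 : (i : ℤ) - ((i : ℤ) - k * u) = k * u := by ring
          rw [f3]
          exact Dvd.dvd.mul_left (by exact_mod_cast hpu) k
        rw [hh]
        simp only [f1]
        congr 1
        funext ω
        rw [Int.le_floor, huR, le_div_iff₀ hup]
        push_cast
        apply propext
        constructor <;> intro h <;> linarith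
    refine (sum_le_sum h1).trans ?_
    have h2 := sum_rep_le h hh0 (c := c₀ * 2 ^ (t + 1)) hu0 m₀ (m₀ + n) Y ?_
    · rw [hcu] at h2
      refine h2.trans (le_of_eq ?_)
      push_cast
      rw [mul_assoc]
    · intro i hi k hk
      rw [hcu] at hi
      rw [mem_Ioc] at hk
      have hi' : (i : ℤ) < nT := by exact_mod_cast mem_range.1 hi
      have hule : (u : ℤ) ≤ nT := by
        have h3 : u ≤ nT := by
          rw [← hcu]
          exact Nat.le_mul_of_pos_left _ (by positivity)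
        exact_mod_cast h3
      have hu1 : (1 : ℤ) ≤ u := by exact_mod_cast hu0
      have hi0 : (0 : ℤ) ≤ i := Int.natCast_nonneg i
      have hK0 : (0 : ℤ) ≤ K := Int.natCast_nonneg K
      have hp : (0 : ℤ) < nT := by omega
      rw [hY, mem_Icc]
      constructor
      · have h3 : m₀ * nT ≤ k * u := by
          rcases le_total 0 k with h4 | h4
          · have : m₀ * (nT : ℤ) ≤ 0 := mul_nonpos_of_nonpos_of_nonneg (by omega) hp.le
            have : 0 ≤ k * u := mul_nonneg h4 (by omega)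
            omega
          · have h5 : k * nT ≤ k * u := mul_le_mul_of_nonpos_left hule h4
            have h6 : m₀ * nT ≤ k * nT := mul_le_mul_of_nonneg_right hk.1.le hp.le
            omega
        omega
      · have h3 : k ≤ K + nT + 1 := by
          have := hk.2
          rw [hm₀, hn] at this
          push_cast at this
          omega
        have h4 : k * u ≤ (K + nT + 1) * nT := by
          rcases le_total 0 k with h4 | h4
          · exact mul_le_mul h3 hule (by omega) (by omega)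
          · have h5 : k * u ≤ 0 := mul_nonpos_of_nonpos_of_nonneg h4 (by omega)
            have h6 : 0 ≤ ((K : ℤ) + nT + 1) * nT := mul_nonneg (by omega) hp.le
            omega
        omega
  -- telescoping
  set B : ℕ → ℝ := fun t => c₀ * (2 ^ t * A t) with hB
  have hB0 : 0 ≤ B 0 := mul_nonneg (Nat.cast_nonneg _) (mul_nonneg (by positivity) (hA0 0))
  have hBT : B T = 0 := by rw [hB]; simp only [hAT, mul_zero]
  have hBrec : ∀ t ∈ range T, 2 * B t ≤ 2 / 2 ^ γ * E t + B (t + 1) := by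
    intro t ht
    have h1 := hrec t (mem_range.1 ht)
    have h2 : (0 : ℝ) < 2 ^ γ := by positivity
    have e1 : ((c₀ * 2 ^ (γ + t) : ℕ) : ℝ) * A t = 2 ^ γ * B t := by
      rw [hB]; push_cast; rw [pow_add]; ring
    have e2 : 2 * (((c₀ * 2 ^ (γ + t) : ℕ) : ℝ) * A (t + 1)) = 2 ^ γ * B (t + 1) := by
      rw [hB]; push_cast; rw [pow_add, pow_succ]; ring
    rw [e1] at h1
    have h3 : 2 ^ γ * (2 * B t) ≤ 2 ^ γ * (2 / 2 ^ γ * E t + B (t + 1)) := by
      rw [mul_add, ← e2, ← mul_assoc (2 ^ γ) (2 / 2 ^ γ), mul_div_cancel₀ _ h2.ne']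
      linarith
    exact le_of_mul_le_mul_left h3 h2
  have h1 : 2 * ∑ t ∈ range T, B t ≤ 2 / 2 ^ γ * ∑ t ∈ range T, E t + ∑ t ∈ range T, B (t + 1) := by
    rw [mul_sum, mul_sum, ← sum_add_distrib]
    exact sum_le_sum hBrec
  have h2 : ∑ t ∈ range T, B (t + 1) = ∑ t ∈ range T, B t - B 0 := by
    have h3 := sum_range_succ B T
    have h4 := sum_range_succ' B T
    rw [hBT, add_zero] at h3
    linarith
  have h3 : ∑ t ∈ range T, B (t + 1) ≤ 2 / 2 ^ γ * ∑ t ∈ range T, E t := by linarith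
  have h4 : ∑ t ∈ range T, E t = ∑ i ∈ range nT, Hc (m i) (D T) (D 0) := by
    rw [hE, sum_comm]
    exact sum_congr rfl fun i _ => sum_Hc_nest' hD T
  rw [h4] at h3
  exact (sum_le_sum fun t ht => hrow t (mem_range.1 ht)).trans h3

end Vale.Agent.P065.H353
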