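import Vale.Agent.P065.H806.SysFacts
import Vale.Agent.P065.H353.BadFr

/-!
# P065, assembly: the input `hbad` in the form of the assembly (helper353)
-/

set_option autoImplicit false

open Finset Real

noncomputable section

namespace Vale.Agent.P065.H353

open Vale.Agent.P065.UB Vale.Agent.P065.Ent Vale.Agent.P065.H268 Vale.Agent.P065.H725
open Vale.Agent.P065.H154 Vale.Agent.P065.H806 Vale.Agent.P065.H700

/-- logarithms are small -/
lemma exists_log_small {A B δ : ℝ} (hA : 0 ≤ A) (hB : 0 ≤ B) (hδ : 0 < δ) :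
    ∃ g₁ : ℕ, 1 ≤ g₁ ∧ ∀ g : ℕ, g₁ ≤ g → A + B * log g ≤ δ * g := by
  obtain ⟨m, hm⟩ := exists_nat_gt (((A + 2 * B) / δ) ^ 2)
  refine ⟨m + 1, by omega, fun g hg => ?_⟩
  have hg1 : (1 : ℝ) ≤ g := by
    have : 1 ≤ g := by omega
    exact_mod_cast this
  have hgm : ((A + 2 * B) / δ) ^ 2 ≤ g := by
    have h1 : (m : ℝ) ≤ g := by
      have : m ≤ g := by omega
      exact_mod_cast this
    linarith
  have hs1 : (1 : ℝ) ≤ √g := by
    rw [Real.one_le_sqrt]
    exact hg1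
  have hss : √g * √(g : ℝ) = g := Real.mul_self_sqrt (by linarith)
  have h1 : (A + 2 * B) / δ ≤ √g := Real.le_sqrt_of_sq_le hgm
  rw [div_le_iff₀ hδ] at h1
  have h2 : log g ≤ 2 * √g := by
    have h3 : log (√g : ℝ) ≤ √g - 1 := log_le_sub_one_of_pos (by linarith)
    have h4 : log (g : ℝ) = 2 * log √g := by
      conv_lhs => rw [← hss]
      rw [log_mul (by linarith) (by linarith)]
      ring
    linarith
  calc A + B * log g ≤ A * √g + B * (2 * √g) := by
        have h5 : A ≤ A * √g := le_mul_of_one_le_right hA hs1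
        have h6 : B * log g ≤ B * (2 * √g) := mul_le_mul_of_nonneg_left h2 hB
        linarith
    _ = (A + 2 * B) * √g := by ring
    _ ≤ √g * δ * √g := mul_le_mul_of_nonneg_right h1 (by linarith)
    _ = δ * g := by rw [mul_right_comm, hss]; ring

/-- powers of `1 / 2` are small -/
lemma exists_two_pow {C δ : ℝ} (hδ : 0 < δ) : ∃ k₀ : ℕ, 2 ≤ k₀ ∧ ∀ k ≥ k₀, C / 2 ^ k ≤ δ := by
  obtain ⟨m, hm⟩ := exists_nat_gt (C / δ)
  refine ⟨m + 2, by omega, fun k hk => ?_⟩
  rw [div_lt_iff₀ hδ] at hm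
  rw [div_le_iff₀ (by positivity)]
  have h1 : (m : ℝ) ≤ 2 ^ k := by
    have h2 : (m : ℝ) < 2 ^ m := by exact_mod_cast Nat.lt_two_pow_self
    have h3 : (2 : ℝ) ^ m ≤ 2 ^ k := pow_le_pow_right₀ (by norm_num) (by omega)
    linarith
  nlinarith

/-- **`hbad` in the form of the assembly** -/
theorem hbadP : HBad := by
  classical
  intro B₀ c₂ ρ ρ' δ hB₀ hρ hρρ' hρ'1 hδ
  obtain ⟨g₀, hg₀2, hg₀⟩ := exists_two_pow (C := 18) (δ := δ) hδ
  refine ⟨g₀, ?_⟩
  intro K₁ hK₁ γ' PP Γ s₀ Λ kN hγΓ hγs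
  have hK : (0 : ℝ) < K₁ := by exact_mod_cast hK₁
  set C₁ : ℝ := 4 / (ρ' - ρ) ^ 2 with hC₁
  have hC₁0 : 0 ≤ C₁ := by positivity
  obtain ⟨g₁, hg₁1, hg₁⟩ := exists_log_small (A := C₁ * log (2 * (Λ + 1) ^ 2))
    (B := C₁ * Λ) (δ := δ / 2 / K₁)
    (mul_nonneg hC₁0 (log_nonneg (by
      have : (0 : ℝ) ≤ Λ := Nat.cast_nonneg _
      nlinarith))) (by positivity) (by positivity)
  refine ⟨g₁, ?_⟩
  intro ε₂ e n g hε₂ hgg S
  have hg1 : 1 ≤ g := hg₁1.trans hgg
  have hgR : (1 : ℝ) ≤ g := by exact_mod_cast hg1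
  have hnT : (0 : ℝ) < S.p.nT := by exact_mod_cast S.p.nT_pos
  have hΛ : (1 : ℝ) ≤ Λ := by exact_mod_cast S.Λ_pos
  have hJ1 := S.J1_pos hg1
  have hn : S.F.n = n := S.n_eq
  have hnK : (n : ℝ) ≤ g / K₁ := by
    rw [le_div_iff₀ hK]
    have := S.Kn
    rw [mul_comm]
    exact_mod_cast this
  refine ⟨fun u => ∑ a, S.q a * #(S.F.P.cutB g₀ S.F.n u a.2), ?_, ?_, ?_⟩
  · intro u
    exact sum_nonneg fun a _ => mul_nonneg ((S.probq hg1).nonneg a) (Nat.cast_nonneg _)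
  · refine (avLe_cut_pair S.F.P (S.probq hg1) g₀ S.F.n).mono (fun _ => le_rfl) ?_
    rw [hn]
    have h1 : (9 : ℝ) / 2 ^ g₀ ≤ δ := by
      have h2 := hg₀ g₀ le_rfl
      have h3 : (9 : ℝ) / 2 ^ g₀ ≤ 18 / 2 ^ g₀ := by gcongr; norm_num
      linarith
    calc (9 : ℝ) / 2 ^ g₀ * n ≤ δ * (g / K₁) := by gcongr
      _ = δ * g / K₁ := by ring
  · intro u
    have hmain := hbad (F := S.F) (ln := S.ln) (p := S.p) u s₀ γ' g₀ (hγΓ.trans S.Γ_le) hg₀2
      S.M_ge (S.probq hg1) S.perq S.hν (c := Λ / (S.p.nT * S.J1)) (by positivity)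
      (S.q_le hg1) (S.p.nT * g ^ Λ) (by
        intro ω _
        have h1 := S.act_q ω
        rw [Nat.card_eq_fintype_card, Fintype.card_subtype]
        have key : ∀ (P : S.p.Col → Prop) (i₁ i₂ : DecidablePred P),
            (@Finset.filter _ P i₁ univ).card = (@Finset.filter _ P i₂ univ).card := by
          intro P i₁ i₂
          rw [Subsingleton.elim i₁ i₂]
        exact (key _ _ _).le.trans h1) hρρ' (e₂ := ε₂ * n)
      (by
        intro a ha
        have h1 := S.split a.2 (S.Q_pos' (S.q_pos' ha))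
        have key : ∀ (P : ℕ → Prop) (i₁ i₂ : DecidablePred P),
            (@Finset.filter _ P i₁ (range S.F.n)).card =
              (@Finset.filter _ P i₂ (range S.F.n)).card := by
          intro P i₁ i₂
          rw [Subsingleton.elim i₁ i₂]
        refine le_trans (le_of_eq ?_) h1
        exact congrArg Nat.cast (key _ _ _)) (cut := ∑ a, S.q a * #(S.F.P.cutB g₀ S.F.n u a.2))
      le_rfl
    have hbadeq : S.bad u γ' g₀ ρ' ≤ ε₂ * n + C₁ * log (Λ / (S.p.nT * S.J1) * (S.p.nT * g ^ Λ : ℕ)) +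
        ((∑ a, S.q a * #(S.F.P.cutB g₀ S.F.n u a.2)) + S.F.n * (8 / 2 ^ (g₀ + γ'))) := by
      refine le_trans (le_of_eq ?_) hmain
      rfl
    refine hbadeq.trans ?_
    have h1 : C₁ * log (Λ / (S.p.nT * S.J1) * (S.p.nT * g ^ Λ : ℕ)) ≤ δ / 2 / K₁ * g := by
      refine le_trans ?_ (hg₁ g hgg)
      rw [mul_assoc, ← mul_add]
      refine mul_le_mul_of_nonneg_left ?_ hC₁0
      have e1 : Λ / (S.p.nT * S.J1) * ((S.p.nT * g ^ Λ : ℕ) : ℝ) =
          Λ * Λ * ((1 + log g) / g) * (g : ℝ) ^ Λ := by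
        unfold Sys.J1
        push_cast
        have h2 : (0 : ℝ) < g := by linarith
        have h3 : 0 ≤ log (g : ℝ) := log_nonneg hgR
        field_simp
      rw [e1]
      have h2 : (1 + log (g : ℝ)) / g ≤ 2 := by
        rw [div_le_iff₀ (by linarith)]
        have := log_le_sub_one_of_pos (x := (g : ℝ)) (by linarith)
        linarith
      have h3 : 0 ≤ log (g : ℝ) := log_nonneg hgR
      have h4 : Λ * Λ * ((1 + log g) / g) * (g : ℝ) ^ Λ ≤ 2 * (Λ + 1) ^ 2 * (g : ℝ) ^ Λ := by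
        refine mul_le_mul_of_nonneg_right ?_ (by positivity)
        calc Λ * Λ * ((1 + log g) / g) ≤ Λ * Λ * 2 :=
              mul_le_mul_of_nonneg_left h2 (by positivity)
          _ ≤ 2 * (Λ + 1) ^ 2 := by nlinarith
      have h5 : (0 : ℝ) < Λ * Λ * ((1 + log g) / g) * (g : ℝ) ^ Λ := by
        have : (0 : ℝ) < Λ := by linarith
        have : (0 : ℝ) < (1 + log g) / g := div_pos (by linarith) (by linarith)
        positivity
      refine (log_le_log h5 h4).trans (le_of_eq ?_)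
      rw [log_mul (by positivity) (by positivity), log_pow]
    have h2 : S.F.n * (8 / 2 ^ (g₀ + γ')) ≤ δ / 2 / K₁ * (g : ℝ) := by
      rw [hn]
      have h3 : (8 : ℝ) / 2 ^ (g₀ + γ') ≤ δ / 2 := by
        have h4 := hg₀ (g₀ + γ') (by omega)
        have h5 : (8 : ℝ) / 2 ^ (g₀ + γ') ≤ 18 / 2 ^ (g₀ + γ') / 2 := by
          rw [div_div, div_le_div_iff₀ (by positivity) (by positivity)]
          have : (0 : ℝ) < 2 ^ (g₀ + γ') := by positivity
          nlinarith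
        linarith
      calc (n : ℝ) * (8 / 2 ^ (g₀ + γ')) ≤ (g / K₁) * (δ / 2) := by gcongr
        _ = δ / 2 / K₁ * g := by ring
    have h3 : δ * g / K₁ = δ / 2 / K₁ * g + δ / 2 / K₁ * g := by ring
    rw [h3]
    linarith

end Vale.Agent.P065.H353
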