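import Vale.Agent.P065.H353.Guard

/-!
# P065, package BOOK: entropies of measures which are not normalised (helper353)

`Hc m X Z` makes sense for every measure `m ≥ 0`; it is homogeneous and additive over the classes
of a function of `Z`.
-/

set_option autoImplicit false

open Finset Real

noncomputable section

namespace Vale.Agent.P065.H353

open Vale.Agent.P065.Ent

variable {Ω : Type*} [Fintype Ω] {α α' β δ : Type*} {m : Ω → ℝ}

lemma Pr_smul (a : ℝ) (μ : Ω → ℝ) (X : Ω → α) (x : α) :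
    Pr (fun ω => a * μ ω) X x = a * Pr μ X x := by
  classical
  unfold Pr
  rw [mul_sum]
  refine sum_congr rfl fun ω _ => ?_
  split_ifs
  · rfl
  · rw [mul_zero]

lemma H_smul {μ : Ω → ℝ} (hμ : IsProb μ) {a : ℝ} (ha : 0 < a) (X : Ω → α) :
    H (fun ω => a * μ ω) X = a * H μ X - a * log a := by
  have h1 : ∀ ω, a * μ ω * -log (Pr (fun ω => a * μ ω) X (X ω)) =
      a * (μ ω * -log (Pr μ X (X ω))) - a * log a * μ ω := by
    intro ω
    rw [Pr_smul]
    rcases (hμ.nonneg ω).eq_or_lt with h | h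
    · rw [← h]; ring
    · rw [log_mul ha.ne' (Pr_pos hμ X h).ne']
      ring
  unfold H
  rw [sum_congr rfl fun ω _ => h1 ω, sum_sub_distrib, ← mul_sum, ← mul_sum, hμ.sum, mul_one]

lemma Hc_smul {μ : Ω → ℝ} (hμ : IsProb μ) {a : ℝ} (ha : 0 < a) (X : Ω → α) (Z : Ω → β) :
    Hc (fun ω => a * μ ω) X Z = a * Hc μ X Z := by
  unfold Hc
  rw [H_smul hμ ha, H_smul hμ ha]
  ring

lemma Hc_zero (h : ∀ ω, m ω = 0) (X : Ω → α) (Z : Ω → β) : Hc m X Z = 0 := by
  unfold Hc H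
  simp [h]

lemma nn_cases (hm : ∀ ω, 0 ≤ m ω) :
    (∀ ω, m ω = 0) ∨ ∃ a : ℝ, 0 < a ∧ ∃ μ : Ω → ℝ, IsProb μ ∧ m = fun ω => a * μ ω := by
  rcases (sum_nonneg fun ω (_ : ω ∈ univ) => hm ω).eq_or_lt with h | h
  · left
    intro ω
    exact (sum_eq_zero_iff_of_nonneg fun ω _ => hm ω).1 h.symm ω (mem_univ ω)
  · right
    refine ⟨∑ ω, m ω, h, fun ω => m ω / ∑ ω, m ω, ⟨fun ω => div_nonneg (hm ω) h.le, ?_⟩, ?_⟩
    · rw [← sum_div, div_self h.ne']
    · funext ω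
      rw [mul_div_cancel₀ _ h.ne']

lemma Hc_nonneg' (hm : ∀ ω, 0 ≤ m ω) (X : Ω → α) (Z : Ω → β) : 0 ≤ Hc m X Z := by
  rcases nn_cases hm with h | ⟨a, ha, μ, hμ, rfl⟩
  · rw [Hc_zero h]
  · rw [Hc_smul hμ ha]
    exact mul_nonneg ha.le (Hc_nonneg hμ _ _)

/-- chain rule inequality -/
lemma Hc_step' (hm : ∀ ω, 0 ≤ m ω) (X : Ω → α) {X' : Ω → α'} {Z : Ω → β} (h : Det X' Z) :
    Hc m X Z ≤ Hc m X' Z + Hc m X X' := by
  rcases nn_cases hm with h0 | ⟨a, ha, μ, hμ, rfl⟩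
  · rw [Hc_zero h0, Hc_zero h0, Hc_zero h0, add_zero]
  · rw [Hc_smul hμ ha, Hc_smul hμ ha, Hc_smul hμ ha, ← mul_add]
    refine mul_le_mul_of_nonneg_left ?_ ha.le
    have h1 := Hc_le_add hμ X X' Z
    have h2 : Hc μ X (fun ω => (X' ω, Z ω)) = Hc μ X X' :=
      Hc_congr (Det.refl _) (Det.refl _) (det_fst X' Z) ((Det.refl X').pair h)
    linarith

lemma Hc_anti' (hm : ∀ ω, 0 ≤ m ω) (X : Ω → α) {Z : Ω → β} {Z' : Ω → δ} (h : Det Z Z') :
    Hc m X Z ≤ Hc m X Z' := by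
  rcases nn_cases hm with h0 | ⟨a, ha, μ, hμ, rfl⟩
  · rw [Hc_zero h0, Hc_zero h0]
  · rw [Hc_smul hμ ha, Hc_smul hμ ha]
    exact mul_le_mul_of_nonneg_left (Hc_anti hμ X h) ha.le

lemma Hc_le_thr' (hm : ∀ ω, 0 ≤ m ω) (F : Ω → ℤ) (Z : Ω → β) (m₀ : ℤ) (n : ℕ)
    (h0 : ∀ ω, m₀ ≤ F ω) (h1 : ∀ ω, F ω ≤ m₀ + n) :
    Hc m F Z ≤ ∑ k ∈ Ioc m₀ (m₀ + n), Hc m (fun ω => k ≤ F ω) Z := by
  rcases nn_cases hm with h | ⟨a, ha, μ, hμ, rfl⟩
  · rw [Hc_zero h]
    exact sum_nonneg fun k _ => by rw [Hc_zero h]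
  · rw [Hc_smul hμ ha]
    simp only [Hc_smul hμ ha]
    rw [← mul_sum]
    exact mul_le_mul_of_nonneg_left (Hc_le_thr hμ F Z m₀ n h0 h1) ha.le

/-- telescoping of the entropy along nested variables -/
lemma sum_Hc_nest' {D : ℕ → Ω → δ} (hD : ∀ t, Det (D (t + 1)) (D t)) (s : ℕ) :
    ∑ t ∈ range s, Hc m (D (t + 1)) (D t) = Hc m (D s) (D 0) :=
  sum_Hc_nest hD s

open Classical in
/-- the measure on one class -/
def rs (m : Ω → ℝ) (Z : Ω → β) (z : β) (ω : Ω) : ℝ := if Z ω = z then m ω else 0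

omit [Fintype Ω] in
lemma rs_nonneg (hm : ∀ ω, 0 ≤ m ω) (Z : Ω → β) (z : β) (ω : Ω) : 0 ≤ rs m Z z ω := by
  unfold rs
  split_ifs
  · exact hm ω
  · exact le_rfl

omit [Fintype Ω] in
lemma rs_congr {m' : Ω → ℝ} {Z : Ω → β} {z : β} (h : ∀ ω, Z ω = z → m ω = m' ω) :
    rs m Z z = rs m' Z z := by
  funext ω
  unfold rs
  split_ifs with h1
  · exact h ω h1
  · rfl

lemma Pr_rs (X : Ω → α) {W : Ω → β} (h : Det X W) (ω : Ω) :
    Pr (rs m W (W ω)) X (X ω) = Pr m X (X ω) := by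
  classical
  unfold Pr
  refine sum_congr rfl fun ω' _ => ?_
  by_cases h1 : X ω' = X ω
  · rw [if_pos h1, if_pos h1]
    unfold rs
    rw [if_pos (h _ _ h1)]
  · rw [if_neg h1, if_neg h1]

lemma H_rs [DecidableEq β] (X : Ω → α) {W : Ω → β} (h : Det X W) :
    H m X = ∑ w ∈ univ.image W, H (rs m W w) X := by
  unfold H
  rw [sum_comm]
  refine sum_congr rfl fun ω _ => ?_
  rw [sum_eq_single (W ω)]
  · rw [Pr_rs X h]
    unfold rs
    rw [if_pos rfl]
  · intro w _ hw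
    unfold rs
    rw [if_neg (Ne.symm hw), zero_mul]
  · intro h1
    exact absurd (mem_image_of_mem W (mem_univ ω)) h1

/-- the conditional entropy is the sum over the classes -/
lemma Hc_rs [DecidableEq β] (X : Ω → α) {Z : Ω → δ} {W : Ω → β} (h : Det Z W) :
    Hc m X Z = ∑ w ∈ univ.image W, Hc (rs m W w) X Z := by
  unfold Hc
  rw [sum_sub_distrib, ← H_rs _ ((det_snd X Z).trans h), ← H_rs _ h]

/-- `X` is constant on the classes of `Z`, almost surely -/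
lemma Hc_eq_zero_supp (X : Ω → α) (Z : Ω → β)
    (h : ∀ ω ω', m ω ≠ 0 → m ω' ≠ 0 → Z ω = Z ω' → X ω = X ω') : Hc m X Z = 0 := by
  classical
  unfold Hc H
  rw [← sum_sub_distrib]
  refine sum_eq_zero fun ω _ => ?_
  by_cases h0 : m ω = 0
  · rw [h0, zero_mul, zero_mul, sub_zero]
  · have h1 : Pr m (fun ω => (X ω, Z ω)) (X ω, Z ω) = Pr m Z (Z ω) := by
      unfold Pr
      refine sum_congr rfl fun ω' _ => ?_
      by_cases h2 : m ω' = 0
      · rw [h2]; simp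
      · by_cases h3 : Z ω' = Z ω
        · rw [if_pos (Prod.ext (h ω' ω h2 h0 h3) h3), if_pos h3]
        · rw [if_neg fun h4 => h3 (Prod.mk.inj h4).2, if_neg h3]
    rw [h1, sub_self]

/-- entropy of a pair with the first coordinate -/
lemma H_col {κ : Type*} [Fintype κ] (q : κ × Ω → ℝ) (V : κ → Ω → α) :
    H q (fun p => (V p.1 p.2, p.1)) = ∑ k, H (fun ω => q (k, ω)) (V k) := by
  classical
  unfold H
  rw [Fintype.sum_prod_type]
  refine sum_congr rfl fun k _ => sum_congr rfl fun ω _ => ?_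
  have e : Pr q (fun p => (V p.1 p.2, p.1)) (V k ω, k) = Pr (fun ω => q (k, ω)) (V k) (V k ω) := by
    unfold Pr
    rw [Fintype.sum_prod_type, sum_eq_single k]
    · refine sum_congr rfl fun ω' _ => ?_
      have h2 : ((V k ω', k) = (V k ω, k)) ↔ V k ω' = V k ω := by simp
      by_cases h : V k ω' = V k ω
      · rw [if_pos h]
        exact if_pos (h2.2 h)
      · rw [if_neg h]
        exact if_neg (mt h2.1 h)
    · intro k' _ hk
      exact sum_eq_zero fun ω' _ => if_neg fun h1 => hk (Prod.mk.inj h1).2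
    · intro h
      exact absurd (mem_univ k) h
  rw [e]

/-- conditional entropy given the first coordinate -/
lemma Hc_col {κ : Type*} [Fintype κ] (q : κ × Ω → ℝ) (X : κ → Ω → α) (Z : κ → Ω → β) :
    Hc q (fun p => X p.1 p.2) (fun p => (Z p.1 p.2, p.1)) =
      ∑ k, Hc (fun ω => q (k, ω)) (X k) (Z k) := by
  have e1 : H q (fun p => (X p.1 p.2, (Z p.1 p.2, p.1))) =
      H q (fun p => ((X p.1 p.2, Z p.1 p.2), p.1)) := by
    refine H_congr ?_ ?_
    · exact (((det_fst _ _).pair ((det_snd _ _).trans (det_fst _ _)))).pair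
        ((det_snd _ _).trans (det_snd _ _))
    · exact ((det_fst _ _).trans (det_fst _ _)).pair
        (((det_fst _ _).trans (det_snd _ _)).pair (det_snd _ _))
  unfold Hc
  rw [e1, sum_sub_distrib, ← H_col q (fun k ω => (X k ω, Z k ω)), ← H_col q Z]

end Vale.Agent.P065.H353
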